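import Vale.Agent.H14.MT.Core

/-!
P125, T8: block algebra of order invariant norms.
-/

namespace Vale.Agent.H14.MT

section Aux

theorem t8_sum_mul {E : Type*} [AddCommMonoid E] (m L : ℕ) (f : ℕ → E) :
    ∑ q ∈ Finset.range (m * L), f q =
      ∑ i ∈ Finset.range L, ∑ t ∈ Finset.range m, f (i * m + t) := by
  induction L with
  | zero => simp
  | succ L ih =>
    rw [Nat.mul_succ, Finset.sum_range_add, ih, Finset.sum_range_succ, Nat.mul_comm m L]

theorem t8_sum_two {E : Type*} [AddCommMonoid E] (A : ℕ) (f : ℕ → E) :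
    ∑ q ∈ Finset.range (2 * A), f q = ∑ k ∈ Finset.range A, (f (2 * k) + f (2 * k + 1)) := by
  rw [t8_sum_mul 2 A f]
  refine Finset.sum_congr rfl fun k _ => ?_
  rw [Finset.sum_range_succ, Finset.sum_range_one, Nat.mul_comm k 2, Nat.add_zero]

/-- the blow-up of a unit vector -/
noncomputable def t8E {C : Type} [LinearOrder C] (m : ℕ) (y : C) : (C ×ₗ Fin m) →₀ ℝ :=
  ∑ t : Fin m, Finsupp.single (toLex (y, t)) 1

theorem t8_toR_add {C : Type} (x y : C →₀ ℤ) : toR (x + y) = toR x + toR y := by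
  unfold toR
  exact Finsupp.mapRange_add (by intro a b; push_cast; ring) x y

theorem t8_toR_zero {C : Type} : toR (0 : C →₀ ℤ) = 0 := by
  unfold toR
  exact Finsupp.mapRange_zero

theorem t8_toR_single {C : Type} (c : C) (k : ℤ) :
    toR (Finsupp.single c k) = Finsupp.single c (k : ℝ) := by
  unfold toR
  exact Finsupp.mapRange_single

/-- `toR ∘ blow m` as a homomorphism -/
noncomputable def t8hom (C : Type) [LinearOrder C] (m : ℕ) :
    (C →₀ ℤ) →+ ((C ×ₗ Fin m) →₀ ℝ) where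
  toFun x := toR (blow m x)
  map_zero' := by
    unfold blow
    simp [t8_toR_zero]
  map_add' x y := by
    unfold blow
    rw [← t8_toR_add, ← Finset.sum_add_distrib]
    congr 1
    refine Finset.sum_congr rfl fun i _ => ?_
    rw [Finsupp.mapDomain_add]

theorem t8hom_apply {C : Type} [LinearOrder C] (m : ℕ) (x : C →₀ ℤ) :
    t8hom C m x = toR (blow m x) := rfl

theorem t8hom_single {C : Type} [LinearOrder C] (m : ℕ) (y : C) :
    t8hom C m (Finsupp.single y 1) = t8E m y := by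
  rw [t8hom_apply]
  unfold blow t8E toR
  simp only [Finsupp.mapDomain_single]
  have : ∀ s : Finset (Fin m), Finsupp.mapRange (fun k : ℤ => (k : ℝ)) (by simp)
      (∑ i ∈ s, Finsupp.single (toLex (y, i)) (1 : ℤ)) =
      ∑ i ∈ s, Finsupp.single (toLex (y, i)) (1 : ℝ) := by
    intro s
    classical
    induction s using Finset.induction_on with
    | empty => simp
    | insert a s ha ih =>
      rw [Finset.sum_insert ha, Finset.sum_insert ha, Finsupp.mapRange_add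
        (by intro a b; push_cast; ring), ih, Finsupp.mapRange_single]
      simp
  exact this _

end Aux

section Block
variable {θ : ℝ} {N : ∀ (C : Type) [LinearOrder C], Seminorm ℝ (C →₀ ℝ)}

theorem t8_N_sum_le {C : Type} [LinearOrder C] {ι : Type*} (s : Finset ι) (f : ι → C →₀ ℝ) :
    N C (∑ i ∈ s, f i) ≤ ∑ i ∈ s, N C (f i) :=
  Finset.le_sum_of_subadditive (N C) (map_zero (N C)).le (map_add_le_add (N C)) s f

theorem t8_N_single_le (hN : SpreadNorm θ N) {C : Type} [LinearOrder C] (c : C) (a : ℝ)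
    (ha : |a| ≤ 1) : N C (Finsupp.single c a) ≤ 1 := by
  have h1 : Finsupp.single c a = a • Finsupp.single c (1 : ℝ) := by simp
  rw [h1, map_smul_eq_mul, Real.norm_eq_abs]
  calc |a| * N C (Finsupp.single c 1) ≤ 1 * 1 :=
        mul_le_mul ha (hN.single_le C c) (apply_nonneg _ _) zero_le_one
    _ = 1 := one_mul 1

theorem t8_N_E_le (hN : SpreadNorm θ N) {C : Type} [LinearOrder C] (m : ℕ) (y : C) :
    N (C ×ₗ Fin m) (t8E m y) ≤ m := by
  unfold t8E
  refine (t8_N_sum_le _ _).trans ?_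
  calc ∑ t : Fin m, N (C ×ₗ Fin m) (Finsupp.single (toLex (y, t)) 1)
      ≤ ∑ _t : Fin m, (1 : ℝ) := Finset.sum_le_sum fun t _ =>
        t8_N_single_le hN _ _ (by simp)
    _ = m := by simp

theorem t8_mapDomain_alt {C : Type} (φ : ℕ → C) (m A : ℕ) :
    (alt m A).mapDomain φ = ∑ k ∈ Finset.range (2 * A), ∑ i ∈ Finset.range m,
      Finsupp.single (φ (k * m + i)) ((-1 : ℝ) ^ k) := by
  unfold alt
  rw [Finsupp.mapDomain_finsetSum]
  refine Finset.sum_congr rfl fun k _ => ?_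
  rw [Finsupp.mapDomain_finsetSum]
  refine Finset.sum_congr rfl fun i _ => ?_
  rw [Finsupp.mapDomain_single]

/-- the map picking the `j`-th sub-block -/
def t8phi (m m' j x : ℕ) : ℕ := (x / m) * (m * m') + (j * m + x % m)

theorem t8phi_strictMono {m m' j : ℕ} (hm : 0 < m) (hj : j < m') :
    StrictMono (t8phi m m' j) := by
  intro x y hxy
  unfold t8phi
  have hlt : ∀ z : ℕ, j * m + z % m < m * m' := by
    intro z
    have h1 := Nat.mod_lt z hm
    calc j * m + z % m < j * m + m := by omega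
      _ = (j + 1) * m := by ring
      _ ≤ m' * m := Nat.mul_le_mul_right _ hj
      _ = m * m' := Nat.mul_comm _ _
  rcases (Nat.div_le_div_right (c := m) hxy.le).lt_or_eq with h | h
  · calc (x / m) * (m * m') + (j * m + x % m) < (x / m) * (m * m') + m * m' := by
          have := hlt x
          omega
      _ = (x / m + 1) * (m * m') := by ring
      _ ≤ (y / m) * (m * m') := Nat.mul_le_mul_right _ h
      _ ≤ _ := Nat.le_add_right _ _
  · rw [h]
    have h1 := Nat.div_add_mod x m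
    have h2 := Nat.div_add_mod y m
    rw [h] at h1
    omega

theorem t8phi_apply {m m' j : ℕ} {k i : ℕ} (hi : i < m) :
    t8phi m m' j (k * m + i) = k * (m * m') + (j * m + i) := by
  unfold t8phi
  have h1 : (k * m + i) / m = k := by
    rw [Nat.mul_comm, Nat.mul_add_div (by omega), Nat.div_eq_of_lt hi, Nat.add_zero]
  have h2 : (k * m + i) % m = i := by
    rw [Nat.mul_comm, Nat.mul_add_mod, Nat.mod_eq_of_lt hi]
  rw [h1, h2]

theorem t8_alt_mul (m m' A : ℕ) :
    alt (m * m') A = ∑ j ∈ Finset.range m', (alt m A).mapDomain (t8phi m m' j) := by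
  have h1 : ∀ j ∈ Finset.range m', (alt m A).mapDomain (t8phi m m' j) =
      ∑ k ∈ Finset.range (2 * A), ∑ i ∈ Finset.range m,
        Finsupp.single (k * (m * m') + (j * m + i)) ((-1 : ℝ) ^ k) := by
    intro j _
    rw [t8_mapDomain_alt]
    refine Finset.sum_congr rfl fun k _ => Finset.sum_congr rfl fun i hi => ?_
    rw [t8phi_apply (Finset.mem_range.1 hi)]
  rw [Finset.sum_congr rfl h1, Finset.sum_comm]
  unfold alt
  refine Finset.sum_congr rfl fun k _ => ?_
  rw [t8_sum_mul m m' fun q => Finsupp.single (k * (m * m') + q) ((-1 : ℝ) ^ k)]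

theorem t8_N_alt_mul (hN : SpreadNorm θ N) (m m' A : ℕ) (hm : 0 < m) :
    N ℕ (alt (m * m') A) ≤ m' * N ℕ (alt m A) := by
  rw [t8_alt_mul]
  refine (t8_N_sum_le _ _).trans (le_of_eq ?_)
  calc ∑ j ∈ Finset.range m', N ℕ ((alt m A).mapDomain (t8phi m m' j))
      = ∑ _j ∈ Finset.range m', N ℕ (alt m A) := Finset.sum_congr rfl fun j hj =>
        hN.mono ℕ ℕ _ _ ((t8phi_strictMono hm (Finset.mem_range.1 hj)).strictMonoOn _)
    _ = m' * N ℕ (alt m A) := by simp

theorem t8_alt_add (m A A' : ℕ) :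
    alt m (A + A') = alt m A + (alt m A').mapDomain (fun x => 2 * A * m + x) := by
  rw [t8_mapDomain_alt]
  unfold alt
  rw [Nat.mul_add, Finset.sum_range_add]
  congr 1
  refine Finset.sum_congr rfl fun k _ => Finset.sum_congr rfl fun i _ => ?_
  have h1 : (2 * A + k) * m + i = 2 * A * m + (k * m + i) := by ring
  have h2 : (-1 : ℝ) ^ (2 * A + k) = (-1) ^ k := by
    rw [pow_add, pow_mul]
    simp
  rw [h1, h2]

theorem t8_N_alt_add (hN : SpreadNorm θ N) (m A A' : ℕ) :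
    N ℕ (alt m (A + A')) ≤ N ℕ (alt m A) + N ℕ (alt m A') := by
  rw [t8_alt_add]
  refine (map_add_le_add (N ℕ) _ _).trans ?_
  rw [hN.mono ℕ ℕ (fun x => 2 * A * m + x) (alt m A') (fun x _ y _ hxy => by simpa using hxy)]

theorem t8_N_alt_le (hN : SpreadNorm θ N) (m A : ℕ) : N ℕ (alt m A) ≤ 2 * A * m := by
  unfold alt
  refine (t8_N_sum_le _ _).trans ?_
  calc ∑ k ∈ Finset.range (2 * A), N ℕ (∑ i ∈ Finset.range m,
        Finsupp.single (k * m + i) ((-1 : ℝ) ^ k))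
      ≤ ∑ _k ∈ Finset.range (2 * A), (m : ℝ) := by
        refine Finset.sum_le_sum fun k _ => (t8_N_sum_le _ _).trans ?_
        calc ∑ i ∈ Finset.range m, N ℕ (Finsupp.single (k * m + i) ((-1 : ℝ) ^ k))
            ≤ ∑ _i ∈ Finset.range m, (1 : ℝ) := Finset.sum_le_sum fun i _ =>
              t8_N_single_le hN _ _ (by simp)
          _ = m := by simp
    _ = 2 * A * m := by simp

/-- the linear functional `tail` -/
noncomputable def t8T {C : Type} [LinearOrder C] (c : C) : (C →₀ ℝ) →ₗ[ℝ] ℝ :=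
  Finsupp.linearCombination ℝ (fun i => if c ≤ i then (1 : ℝ) else 0)

theorem t8T_eq {C : Type} [LinearOrder C] (x : C →₀ ℝ) (c : C) : tail x c = t8T c x := by
  unfold tail t8T
  rw [Finsupp.linearCombination_apply, Finsupp.sum, Finset.sum_filter]
  refine Finset.sum_congr rfl fun i _ => ?_
  split_ifs <;> simp

theorem t8T_single {C : Type} [LinearOrder C] (c i : C) (a : ℝ) :
    t8T c (Finsupp.single i a) = if c ≤ i then a else 0 := by
  unfold t8T
  rw [Finsupp.linearCombination_single]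
  split_ifs <;> simp

theorem t8_le_T (hN : SpreadNorm θ N) {C : Type} [LinearOrder C] (x : C →₀ ℝ) (c : C) :
    θ * |t8T c x| ≤ N C x := by
  rw [← t8T_eq]
  exact hN.tail_le C x c

theorem t8_N_alt_ge (hN : SpreadNorm θ N) (m A : ℕ) (hA : 1 ≤ A) :
    θ * m ≤ N ℕ (alt m A) := by
  have h := t8_le_T hN (alt m A) ((2 * A - 1) * m)
  have h1 : t8T ((2 * A - 1) * m) (alt m A) = -(m : ℝ) := by
    unfold alt
    have h2A : 2 * A = (2 * A - 1) + 1 := by omega
    rw [h2A, Finset.sum_range_succ, map_add, map_sum]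
    have h0 : ∀ k ∈ Finset.range (2 * A - 1 + 1 - 1), t8T ((2 * A - 1 + 1 - 1) * m)
        (∑ i ∈ Finset.range m, Finsupp.single (k * m + i) ((-1 : ℝ) ^ k)) = 0 := by
      intro k hk
      rw [map_sum]
      refine Finset.sum_eq_zero fun i hi => ?_
      rw [t8T_single, if_neg]
      rw [not_le]
      have hk' := Finset.mem_range.1 hk
      have hi' := Finset.mem_range.1 hi
      calc k * m + i < k * m + m := by omega
        _ = (k + 1) * m := by ring
        _ ≤ _ := Nat.mul_le_mul_right _ (by omega)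
    simp only [Nat.add_sub_cancel] at h0 ⊢
    rw [Finset.sum_eq_zero h0, zero_add, map_sum]
    have h3 : ∀ i ∈ Finset.range m, t8T ((2 * A - 1) * m)
        (Finsupp.single ((2 * A - 1) * m + i) ((-1 : ℝ) ^ (2 * A - 1))) = -1 := by
      intro i _
      rw [t8T_single, if_pos (Nat.le_add_right _ _)]
      exact Odd.neg_one_pow ⟨A - 1, by omega⟩
    rw [Finset.sum_congr rfl h3]
    simp
  rw [h1, abs_neg, Nat.abs_cast] at h
  exact h

/-- the stabilised norm per block length -/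
noncomputable def t8psi (N : ∀ (C : Type) [LinearOrder C], Seminorm ℝ (C →₀ ℝ)) (A : ℕ) : ℝ :=
  ⨅ m : ℕ, N ℕ (alt (m + 1) A) / ((m : ℝ) + 1)

theorem t8psi_bdd (N : ∀ (C : Type) [LinearOrder C], Seminorm ℝ (C →₀ ℝ)) (A : ℕ) :
    BddBelow (Set.range fun m : ℕ => N ℕ (alt (m + 1) A) / ((m : ℝ) + 1)) :=
  ⟨0, by
    rintro _ ⟨m, rfl⟩
    positivity⟩

theorem t8psi_le (N : ∀ (C : Type) [LinearOrder C], Seminorm ℝ (C →₀ ℝ)) (A : ℕ) {m : ℕ}
    (hm : 1 ≤ m) : t8psi N A * m ≤ N ℕ (alt m A) := by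
  obtain ⟨m, rfl⟩ : ∃ m', m = m' + 1 := ⟨m - 1, by omega⟩
  have h := ciInf_le (t8psi_bdd N A) m
  have h' : t8psi N A ≤ N ℕ (alt (m + 1) A) / ((m : ℝ) + 1) := h
  rw [le_div_iff₀ (by positivity)] at h'
  push_cast
  exact h'

theorem t8psi_exists (N : ∀ (C : Type) [LinearOrder C], Seminorm ℝ (C →₀ ℝ)) (A : ℕ) {a : ℝ}
    (ha : t8psi N A < a) : ∃ m : ℕ, 1 ≤ m ∧ N ℕ (alt m A) < a * m := by
  obtain ⟨m, hm⟩ := exists_lt_of_ciInf_lt ha
  refine ⟨m + 1, by omega, ?_⟩
  rw [div_lt_iff₀ (by positivity)] at hm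
  push_cast
  exact hm

theorem t8psi_ge (hN : SpreadNorm θ N) (A : ℕ) (hA : 1 ≤ A) : θ ≤ t8psi N A := by
  refine le_ciInf fun m => ?_
  rw [le_div_iff₀ (by positivity)]
  have := t8_N_alt_ge hN (m + 1) A hA
  push_cast at this
  exact this

theorem t8psi_nonneg (A : ℕ) : 0 ≤ t8psi N A := by
  refine le_ciInf fun m => by positivity

theorem t8psi_add (hN : SpreadNorm θ N) (A A' : ℕ) : t8psi N (A + A') ≤ t8psi N A + t8psi N A' := by
  refine le_of_forall_pos_le_add fun ε hε => ?_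
  obtain ⟨m, hm, h1⟩ := t8psi_exists N A (a := t8psi N A + ε / 2) (by linarith)
  obtain ⟨m', hm', h2⟩ := t8psi_exists N A' (a := t8psi N A' + ε / 2) (by linarith)
  have h3 : t8psi N (A + A') * ((m * m' : ℕ) : ℝ) ≤ N ℕ (alt (m * m') (A + A')) :=
    t8psi_le N _ (Nat.mul_pos (by omega) (by omega))
  have h4 := t8_N_alt_add hN (m * m') A A'
  have h5 := t8_N_alt_mul hN m m' A (by omega)
  have h6 := t8_N_alt_mul hN m' m A' (by omega)
  rw [Nat.mul_comm m' m] at h6
  have hmpos : (0 : ℝ) < m := by exact_mod_cast (show 0 < m by omega)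
  have hmpos' : (0 : ℝ) < m' := by exact_mod_cast (show 0 < m' by omega)
  have h7 : (m' : ℝ) * N ℕ (alt m A) ≤ m' * ((t8psi N A + ε / 2) * m) :=
    mul_le_mul_of_nonneg_left h1.le hmpos'.le
  have h8 : (m : ℝ) * N ℕ (alt m' A') ≤ m * ((t8psi N A' + ε / 2) * m') :=
    mul_le_mul_of_nonneg_left h2.le hmpos.le
  push_cast at h3
  have h9 : t8psi N (A + A') * (m * m') ≤ (t8psi N A + t8psi N A' + ε) * (m * m') := by
    calc t8psi N (A + A') * (m * m') ≤ _ := h3
      _ ≤ _ := h4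
      _ ≤ m' * ((t8psi N A + ε / 2) * m) + m * ((t8psi N A' + ε / 2) * m') := by linarith
      _ = _ := by ring
  exact le_of_mul_le_mul_right h9 (by positivity)

theorem t8psi_le_two (hN : SpreadNorm θ N) (A : ℕ) : t8psi N A ≤ 2 * A := by
  have h1 := t8psi_le N A (le_refl 1)
  have h2 := t8_N_alt_le hN 1 A
  push_cast at h1 h2
  linarith

/-! ### the bulk -/

/-- positions of the sub-blocks -/
noncomputable def t8pos {L : ℕ} (ℓ r : Fin L → ℝ) (k i : ℕ) : ℝ :=
  if h : i < L then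
    (if k % 2 = 0 then ℓ ⟨i, h⟩ + (k / 2 : ℕ) else r ⟨L - 1 - i, by omega⟩ + (k / 2 : ℕ))
  else 0

theorem t8pos_lt {L : ℕ} {ℓ r : Fin L → ℝ} (hlr : ∀ i j, ℓ i < r j)
    (hrl : ∀ i j, r i < ℓ j + 1) {k k' i i' : ℕ} (hk : k < k') (hi : i < L) (hi' : i' < L) :
    t8pos ℓ r k i < t8pos ℓ r k' i' := by
  unfold t8pos
  rw [dif_pos hi, dif_pos hi']
  rcases Nat.mod_two_eq_zero_or_one k with h | h <;>
    rcases Nat.mod_two_eq_zero_or_one k' with h' | h'
  · rw [if_pos h, if_pos h']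
    have h1 : k / 2 + 1 ≤ k' / 2 := by omega
    have h2 : ((k / 2 : ℕ) : ℝ) + 1 ≤ ((k' / 2 : ℕ) : ℝ) := by exact_mod_cast h1
    have h3 := hlr ⟨i, hi⟩ ⟨i', hi'⟩
    have h4 := hrl ⟨i', hi'⟩ ⟨i', hi'⟩
    linarith
  · rw [if_pos h, if_neg (by omega)]
    have h1 : k / 2 ≤ k' / 2 := by omega
    have h2 : ((k / 2 : ℕ) : ℝ) ≤ ((k' / 2 : ℕ) : ℝ) := by exact_mod_cast h1
    have h3 := hlr ⟨i, hi⟩ ⟨L - 1 - i', by omega⟩
    linarith
  · rw [if_neg (by omega), if_pos h']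
    have h1 : k / 2 + 1 ≤ k' / 2 := by omega
    have h2 : ((k / 2 : ℕ) : ℝ) + 1 ≤ ((k' / 2 : ℕ) : ℝ) := by exact_mod_cast h1
    have h3 := hrl ⟨L - 1 - i, by omega⟩ ⟨i', hi'⟩
    linarith
  · rw [if_neg (by omega), if_neg (by omega)]
    have h1 : k / 2 + 1 ≤ k' / 2 := by omega
    have h2 : ((k / 2 : ℕ) : ℝ) + 1 ≤ ((k' / 2 : ℕ) : ℝ) := by exact_mod_cast h1
    have h3 := hrl ⟨L - 1 - i, by omega⟩ ⟨i, hi⟩
    have h4 := hlr ⟨i, hi⟩ ⟨L - 1 - i', by omega⟩
    linarith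

theorem t8pos_lt' {L : ℕ} {ℓ r : Fin L → ℝ} (hℓ : StrictMono ℓ) (hr : StrictAnti r)
    {k i i' : ℕ} (hii : i < i') (hi' : i' < L) :
    t8pos ℓ r k i < t8pos ℓ r k i' := by
  have hi : i < L := by omega
  unfold t8pos
  rw [dif_pos hi, dif_pos hi']
  split_ifs with h
  · have := hℓ (show (⟨i, hi⟩ : Fin L) < ⟨i', hi'⟩ from hii)
    linarith
  · have := hr (show (⟨L - 1 - i', by omega⟩ : Fin L) < ⟨L - 1 - i, by omega⟩ by
      rw [Fin.mk_lt_mk]; omega)
    linarith

/-- the order isomorphism onto the bulk -/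
noncomputable def t8psiMap {L : ℕ} (ℓ r : Fin L → ℝ) (m : ℕ) (hm : 0 < m) (x : ℕ) :
    ℝ ×ₗ Fin m :=
  toLex (t8pos ℓ r (x / (m * L)) (x % (m * L) / m), ⟨x % (m * L) % m, Nat.mod_lt _ hm⟩)

theorem t8psiMap_strictMono {L : ℕ} (hL : 0 < L) {ℓ r : Fin L → ℝ} (hℓ : StrictMono ℓ)
    (hr : StrictAnti r) (hlr : ∀ i j, ℓ i < r j)
    (hrl : ∀ i j, r i < ℓ j + 1) (m : ℕ) (hm : 0 < m) : StrictMono (t8psiMap ℓ r m hm) := by
  intro x y hxy
  unfold t8psiMap
  have hmL : 0 < m * L := Nat.mul_pos hm hL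
  have hdiv : ∀ z : ℕ, z % (m * L) / m < L := fun z =>
    Nat.div_lt_of_lt_mul (Nat.mod_lt z hmL)
  rw [Prod.Lex.toLex_lt_toLex]
  rcases (Nat.div_le_div_right (c := m * L) hxy.le).lt_or_eq with h | h
  · exact Or.inl (t8pos_lt hlr hrl h (hdiv x) (hdiv y))
  · have h1 := Nat.div_add_mod x (m * L)
    have h2 := Nat.div_add_mod y (m * L)
    rw [h] at h1
    have h3 : x % (m * L) < y % (m * L) := by omega
    rcases (Nat.div_le_div_right (c := m) h3.le).lt_or_eq with h4 | h4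
    · left
      simp only
      rw [h]
      exact t8pos_lt' hℓ hr h4 (hdiv y)
    · right
      simp only
      refine ⟨by rw [h, h4], ?_⟩
      rw [Fin.mk_lt_mk]
      have h5 := Nat.div_add_mod (x % (m * L)) m
      have h6 := Nat.div_add_mod (y % (m * L)) m
      rw [h4] at h5
      omega

theorem t8psiMap_apply {L : ℕ} {ℓ r : Fin L → ℝ} (m : ℕ) (hm : 0 < m) {k i t : ℕ} (hi : i < L)
    (ht : t < m) : t8psiMap ℓ r m hm (k * (m * L) + (i * m + t)) =
      toLex (t8pos ℓ r k i, ⟨t, ht⟩) := by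
  unfold t8psiMap
  have hlt : i * m + t < m * L := by
    calc i * m + t < i * m + m := by omega
      _ = (i + 1) * m := by ring
      _ ≤ L * m := Nat.mul_le_mul_right _ hi
      _ = m * L := Nat.mul_comm _ _
  have h1 : (k * (m * L) + (i * m + t)) / (m * L) = k := by
    rw [Nat.mul_comm k, Nat.mul_add_div (by omega), Nat.div_eq_of_lt hlt, Nat.add_zero]
  have h2 : (k * (m * L) + (i * m + t)) % (m * L) = i * m + t := by
    rw [Nat.mul_comm k, Nat.mul_add_mod, Nat.mod_eq_of_lt hlt]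
  have h3 : (i * m + t) / m = i := by
    rw [Nat.mul_comm i, Nat.mul_add_div hm, Nat.div_eq_of_lt ht, Nat.add_zero]
  have h4 : (i * m + t) % m = t := by
    rw [Nat.mul_comm i, Nat.mul_add_mod, Nat.mod_eq_of_lt ht]
  simp only [h1, h2, h3, h4]

/-- norm of the bulk -/
theorem t8_bulk (hN : SpreadNorm θ N) {L : ℕ} (hL : 0 < L) {ℓ r : Fin L → ℝ}
    (hℓ : StrictMono ℓ) (hr : StrictAnti r) (hlr : ∀ i j, ℓ i < r j)
    (hrl : ∀ i j, r i < ℓ j + 1) (m A : ℕ) (hm : 0 < m) :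
    N (ℝ ×ₗ Fin m) (∑ k ∈ Finset.range A, ∑ i : Fin L, (t8E m (ℓ i + k) - t8E m (r i + k))) =
      N ℕ (alt (m * L) A) := by
  rw [← hN.mono ℕ (ℝ ×ₗ Fin m) (t8psiMap ℓ r m hm) (alt (m * L) A)
    ((t8psiMap_strictMono hL hℓ hr hlr hrl m hm).strictMonoOn _)]
  congr 1
  rw [t8_mapDomain_alt, t8_sum_two]
  refine Finset.sum_congr rfl fun k _ => ?_
  have key : ∀ (k' : ℕ), ∑ q ∈ Finset.range (m * L),
      Finsupp.single (t8psiMap ℓ r m hm (k' * (m * L) + q)) ((-1 : ℝ) ^ k') =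
      (-1 : ℝ) ^ k' • ∑ i : Fin L, t8E m (t8pos ℓ r k' i) := by
    intro k'
    rw [t8_sum_mul, Finset.smul_sum, ← Finset.sum_range (fun i =>
      (-1 : ℝ) ^ k' • t8E m (t8pos ℓ r k' i))]
    refine Finset.sum_congr rfl fun i hi => ?_
    unfold t8E
    rw [Finset.smul_sum, Finset.sum_range]
    refine Finset.sum_congr rfl fun t _ => ?_
    rw [t8psiMap_apply m hm (Finset.mem_range.1 hi) t.2, Finsupp.smul_single, smul_eq_mul,
      mul_one]
  rw [key, key, pow_succ, pow_mul]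
  simp only [even_two, Even.neg_pow, one_pow, one_smul, one_mul, neg_smul]
  rw [Finset.sum_sub_distrib, ← sub_eq_add_neg]
  congr 1
  · refine Finset.sum_congr rfl fun i _ => ?_
    unfold t8pos
    rw [dif_pos i.2, if_pos (by omega)]
    congr 4
    omega
  · rw [← Equiv.sum_comp Fin.revPerm]
    refine Finset.sum_congr rfl fun i _ => ?_
    unfold t8pos
    rw [dif_pos i.2, if_neg (by omega)]
    have h1 : (Fin.revPerm i) = (⟨L - 1 - i, by omega⟩ : Fin L) := by
      ext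
      simp [Fin.revPerm, Fin.rev]
      omega
    rw [h1]
    congr 4
    omega

theorem t8hom_sub_sum {m : ℕ} (A : ℕ) (y z : ℝ) :
    t8hom ℝ m (∑ k ∈ Finset.range A, (Finsupp.single (y + (k : ℝ)) 1 -
      Finsupp.single (z + (k : ℝ)) 1)) =
      ∑ k ∈ Finset.range A, (t8E m (y + k) - t8E m (z + k)) := by
  rw [map_sum]
  refine Finset.sum_congr rfl fun k _ => ?_
  rw [map_sub, t8hom_single, t8hom_single]

theorem block_b0 (hN : SpreadNorm θ N) (m A : ℕ) (i : Fin 2) :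
    N (ℝ ×ₗ Fin m) (toR (blow m (b0 A i))) = N ℕ (alt m A) := by
  rw [← t8hom_apply, b0, t8hom_sub_sum]
  rcases Nat.eq_zero_or_pos m with rfl | hm
  · have h1 : ∀ y : ℝ, t8E 0 y = 0 := fun y => by simp [t8E]
    have h2 : alt 0 A = 0 := by simp [alt]
    simp [h1, h2]
  · have h := t8_bulk hN (L := 1) one_pos (ℓ := fun _ => ((i : ℕ) : ℝ) / 4)
      (r := fun _ => ((i : ℕ) : ℝ) / 4 + 1 / 8)
      (fun a b hab => absurd hab (by simp [Subsingleton.elim a b]))
      (fun a b hab => absurd hab (by simp [Subsingleton.elim a b]))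
      (fun _ _ => by linarith) (fun _ _ => by linarith) m A hm
    rw [mul_one] at h
    rw [← h]
    congr 1
    refine Finset.sum_congr rfl fun k _ => ?_
    simp

/-- the two ends of one run -/
theorem t8_ends (hN : SpreadNorm θ N) (m n A : ℕ) (hA : 2 * n ≤ A) (y : ℝ) (u : ℤ)
    (hu : |u| ≤ n) :
    N (ℝ ×ₗ Fin m) (∑ k ∈ Finset.range A, t8E m (y + u + k) -
      ∑ k ∈ Finset.range (A - 2 * n), t8E m (y + n + k)) ≤ 2 * n * m := by
  obtain ⟨hu1, hu2⟩ := abs_le.1 hu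
  obtain ⟨a, ha⟩ : ∃ a : ℕ, (a : ℤ) = n - u := ⟨(n - u).toNat, Int.toNat_of_nonneg (by omega)⟩
  obtain ⟨b, hb⟩ : ∃ b : ℕ, (b : ℤ) = n + u := ⟨(n + u).toNat, Int.toNat_of_nonneg (by omega)⟩
  have hab : A = a + (A - 2 * n) + b := by omega
  have haR : (a : ℝ) = n - u := by exact_mod_cast ha
  have h1 : ∑ k ∈ Finset.range A, t8E m (y + u + k) =
      (∑ k ∈ Finset.range a, t8E m (y + u + k) +
        ∑ k ∈ Finset.range (A - 2 * n), t8E m (y + n + k)) +
        ∑ k ∈ Finset.range b, t8E m (y + u + ((a + (A - 2 * n) + k : ℕ) : ℝ)) := by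
    conv_lhs => rw [hab]
    rw [Finset.sum_range_add, Finset.sum_range_add]
    congr 2
    refine Finset.sum_congr rfl fun k _ => ?_
    congr 1
    push_cast
    rw [haR]
    ring
  rw [h1]
  have h2 : (∑ k ∈ Finset.range a, t8E m (y + u + k) +
        ∑ k ∈ Finset.range (A - 2 * n), t8E m (y + n + k)) +
        ∑ k ∈ Finset.range b, t8E m (y + u + ((a + (A - 2 * n) + k : ℕ) : ℝ)) -
        ∑ k ∈ Finset.range (A - 2 * n), t8E m (y + n + k) =
      ∑ k ∈ Finset.range a, t8E m (y + u + k) +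
        ∑ k ∈ Finset.range b, t8E m (y + u + ((a + (A - 2 * n) + k : ℕ) : ℝ)) := by
    abel
  rw [h2]
  refine (map_add_le_add _ _ _).trans ?_
  have h3 : ∀ (c : ℕ) (f : ℕ → ℝ), N (ℝ ×ₗ Fin m) (∑ k ∈ Finset.range c, t8E m (f k)) ≤ c * m := by
    intro c f
    refine (t8_N_sum_le _ _).trans ?_
    calc ∑ k ∈ Finset.range c, N (ℝ ×ₗ Fin m) (t8E m (f k))
        ≤ ∑ _k ∈ Finset.range c, (m : ℝ) := Finset.sum_le_sum fun k _ => t8_N_E_le hN m _
      _ = c * m := by simp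
  refine (add_le_add (h3 a _) (h3 b _)).trans (le_of_eq ?_)
  have hbR : (b : ℝ) = n + u := by exact_mod_cast hb
  rw [haR, hbR]
  ring

theorem t8_blk_eq {m A L : ℕ} (ℓ r : Fin L → ℝ) (u v : Fin L → ℤ) :
    t8hom ℝ m (∑ i, ∑ k ∈ Finset.range A, (Finsupp.single (ℓ i + u i + k) 1 -
      Finsupp.single (r i + v i + k) 1)) =
    ∑ i, (∑ k ∈ Finset.range A, t8E m (ℓ i + u i + k) -
      ∑ k ∈ Finset.range A, t8E m (r i + v i + k)) := by
  rw [map_sum]
  refine Finset.sum_congr rfl fun i _ => ?_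
  rw [t8hom_sub_sum, Finset.sum_sub_distrib]

/-- lower bound by the bulk -/
theorem t8_lower (hN : SpreadNorm θ N) {m n A L : ℕ} (hm : 0 < m) (hA : 2 * n ≤ A) (hL : 0 < L)
    {x : ℝ →₀ ℤ} (hx : Blk n A L x) :
    t8psi N (A - 2 * n) * (m * L) - 4 * n * L * m ≤ N (ℝ ×ₗ Fin m) (toR (blow m x)) := by
  obtain ⟨ℓ, r, u, v, hℓ, hr, hlr, hrl, huv, rfl⟩ := hx
  rw [← t8hom_apply, t8_blk_eq]
  set B : (ℝ ×ₗ Fin m) →₀ ℝ := ∑ k ∈ Finset.range (A - 2 * n), ∑ i : Fin L,
    (t8E m ((ℓ i + n) + k) - t8E m ((r i + n) + k)) with hB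
  have h1 : N (ℝ ×ₗ Fin m) B = N ℕ (alt (m * L) (A - 2 * n)) :=
    t8_bulk hN hL (ℓ := fun i => ℓ i + n) (r := fun i => r i + n)
      (fun a b hab => by have := hℓ hab; simpa using this)
      (fun a b hab => by have := hr hab; simpa using this)
      (fun i j => by have := hlr i j; linarith) (fun i j => by have := hrl i j; linarith) m _ hm
  have h2 : t8psi N (A - 2 * n) * ((m * L : ℕ) : ℝ) ≤ N ℕ (alt (m * L) (A - 2 * n)) :=
    t8psi_le N _ (Nat.mul_pos hm hL)
  set Y : (ℝ ×ₗ Fin m) →₀ ℝ := ∑ i, (∑ k ∈ Finset.range A, t8E m (ℓ i + u i + k) -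
      ∑ k ∈ Finset.range A, t8E m (r i + v i + k)) with hY
  have h3 : Y - B = ∑ i, ((∑ k ∈ Finset.range A, t8E m (ℓ i + u i + k) -
      ∑ k ∈ Finset.range (A - 2 * n), t8E m (ℓ i + n + k)) -
      (∑ k ∈ Finset.range A, t8E m (r i + v i + k) -
      ∑ k ∈ Finset.range (A - 2 * n), t8E m (r i + n + k))) := by
    rw [hY, hB, Finset.sum_comm, ← Finset.sum_sub_distrib]
    refine Finset.sum_congr rfl fun i _ => ?_
    rw [Finset.sum_sub_distrib]
    abel
  have h4 : N (ℝ ×ₗ Fin m) (Y - B) ≤ 4 * n * L * m := by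
    rw [h3]
    refine (t8_N_sum_le _ _).trans ?_
    calc _ ≤ ∑ _i : Fin L, (2 * n * m + 2 * n * m : ℝ) := by
          refine Finset.sum_le_sum fun i _ => ?_
          refine (map_sub_le_add _ _ _).trans ?_
          exact add_le_add (t8_ends hN m n A hA _ _ (huv i).1)
            (t8_ends hN m n A hA _ _ (huv i).2)
      _ = 4 * n * L * m := by
          simp
          ring
  have h5 : N (ℝ ×ₗ Fin m) B ≤ N (ℝ ×ₗ Fin m) Y + N (ℝ ×ₗ Fin m) (Y - B) := by
    have h6 : B = Y - (Y - B) := by abel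
    calc N (ℝ ×ₗ Fin m) B = N (ℝ ×ₗ Fin m) (Y - (Y - B)) := by rw [← h6]
      _ ≤ _ := map_sub_le_add _ _ _
  push_cast at h2
  linarith

theorem t8T_E {m : ℕ} (hm : 0 < m) (z y : ℝ) :
    t8T (toLex (z, (⟨0, hm⟩ : Fin m))) (t8E m y) = if z ≤ y then (m : ℝ) else 0 := by
  unfold t8E
  rw [map_sum]
  have h1 : ∀ t : Fin m, t8T (toLex (z, (⟨0, hm⟩ : Fin m))) (Finsupp.single (toLex (y, t)) 1) =
      if z ≤ y then (1 : ℝ) else 0 := by
    intro t
    rw [t8T_single]
    refine if_congr ?_ rfl rfl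
    rw [Prod.Lex.toLex_le_toLex]
    constructor
    · rintro (h | ⟨h, -⟩)
      · exact le_of_lt h
      · exact le_of_eq h
    · intro h
      rcases h.lt_or_eq with h | h
      · exact Or.inl h
      · exact Or.inr ⟨h, Fin.mk_le_of_le_val (Nat.zero_le _)⟩
  rw [Finset.sum_congr rfl fun t _ => h1 t]
  split_ifs <;> simp

/-- lower bound by one period -/
theorem t8_lower' (hN : SpreadNorm θ N) (hθ : 0 < θ) {m n A L : ℕ} (hm : 0 < m)
    (hA : 2 * n < A) {x : ℝ →₀ ℤ} (hx : Blk n A L x) :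
    θ * (m * L) ≤ 2 * N (ℝ ×ₗ Fin m) (toR (blow m x)) := by
  rcases Nat.eq_zero_or_pos L with rfl | hL
  · simp
  obtain ⟨ℓ, r, u, v, hℓ, hr, hlr, hrl, huv, rfl⟩ := hx
  rw [← t8hom_apply, t8_blk_eq]
  set Y : (ℝ ×ₗ Fin m) →₀ ℝ := ∑ i, (∑ k ∈ Finset.range A, t8E m (ℓ i + u i + k) -
      ∑ k ∈ Finset.range A, t8E m (r i + v i + k)) with hY
  set i0 : Fin L := ⟨0, hL⟩
  set i1 : Fin L := ⟨L - 1, by omega⟩
  have hi0 : ∀ i, ℓ i0 ≤ ℓ i := fun i => hℓ.monotone (Fin.mk_le_of_le_val (Nat.zero_le _))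
  have hi1 : ∀ i, r i1 ≤ r i := fun i => hr.antitone (by
    rw [Fin.le_def]
    have := i.2
    simp only [i1]
    omega)
  set c1 : ℝ ×ₗ Fin m := toLex (ℓ i0 + n, ⟨0, hm⟩)
  set c2 : ℝ ×ₗ Fin m := toLex (r i1 + n, ⟨0, hm⟩)
  have hE : ∀ y : ℝ, t8T c1 (t8E m y) - t8T c2 (t8E m y) =
      if ℓ i0 + n ≤ y ∧ y < r i1 + n then (m : ℝ) else 0 := by
    intro y
    rw [t8T_E hm, t8T_E hm]
    have h01 : ℓ i0 + n < r i1 + n := by have := hlr i0 i1; linarith
    by_cases h1 : ℓ i0 + n ≤ y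
    · by_cases h2 : y < r i1 + n
      · rw [if_pos h1, if_neg (not_le.2 h2), if_pos ⟨h1, h2⟩, sub_zero]
      · rw [if_pos h1, if_pos (not_lt.1 h2), if_neg (fun h => h2 h.2), sub_self]
    · rw [if_neg h1, if_neg (fun h => h1 (h01.le.trans h)), if_neg (fun h => h1 h.1), sub_self]
  have hdiff : t8T c1 Y - t8T c2 Y = m * L := by
    rw [← LinearMap.sub_apply, hY, map_sum]
    have hi : ∀ i : Fin L, (t8T c1 - t8T c2) (∑ k ∈ Finset.range A, t8E m (ℓ i + u i + k) -
        ∑ k ∈ Finset.range A, t8E m (r i + v i + k)) = m := by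
      intro i
      obtain ⟨hu1, hu2⟩ := abs_le.1 (huv i).1
      obtain ⟨hv1, hv2⟩ := abs_le.1 (huv i).2
      rw [map_sub, map_sum, map_sum]
      have hr0 : ∀ k ∈ Finset.range A, (t8T c1 - t8T c2) (t8E m (r i + v i + k)) = 0 := by
        intro k _
        rw [LinearMap.sub_apply, hE, if_neg]
        rintro ⟨h1, h2⟩
        rcases le_or_gt (n : ℤ) (v i + k) with h | h
        · have h3 : (n : ℝ) ≤ v i + k := by exact_mod_cast h
          have := hi1 i
          linarith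
        · have h3 : (v i : ℝ) + k + 1 ≤ n := by exact_mod_cast h
          have := hrl i i0
          linarith
      rw [Finset.sum_eq_zero hr0, sub_zero]
      obtain ⟨k0, hk0⟩ : ∃ k0 : ℕ, (k0 : ℤ) = n - u i :=
        ⟨(n - u i).toNat, Int.toNat_of_nonneg (by omega)⟩
      have hk0A : k0 ∈ Finset.range A := by
        rw [Finset.mem_range]
        omega
      rw [Finset.sum_eq_single_of_mem k0 hk0A]
      · have hk0R : (k0 : ℝ) = n - u i := by exact_mod_cast hk0
        rw [LinearMap.sub_apply, hE, if_pos]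
        rw [hk0R]
        have h1 := hi0 i
        have h2 := hlr i i1
        constructor <;> linarith
      · intro k _ hk
        rw [LinearMap.sub_apply, hE, if_neg]
        rintro ⟨h1, h2⟩
        rcases lt_trichotomy (n : ℤ) (u i + k) with h | h | h
        · have h3 : (n : ℝ) + 1 ≤ u i + k := by exact_mod_cast h
          have := hrl i1 i
          linarith
        · apply hk
          omega
        · have h3 : (u i : ℝ) + k + 1 ≤ n := by exact_mod_cast h
          have h4 := hlr i i0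
          have h5 := hrl i0 i0
          linarith
    rw [Finset.sum_congr rfl fun i _ => hi i]
    simp [mul_comm]
  have h1 := t8_le_T hN Y c1
  have h2 := t8_le_T hN Y c2
  have h3 : (m : ℝ) * L ≤ |t8T c1 Y| + |t8T c2 Y| := by
    rw [← hdiff]
    exact (le_abs_self _).trans (abs_sub _ _)
  calc θ * (m * L) ≤ θ * (|t8T c1 Y| + |t8T c2 Y|) := mul_le_mul_of_nonneg_left h3 hθ.le
    _ ≤ _ := by linarith

theorem block_bound (hθ : 0 < θ) (hN : SpreadNorm θ N) :
    ∃ c : ℝ, 0 < c ∧ ∀ n : ℕ, ∃ m A : ℕ, 1 ≤ m ∧ 2 * n < A ∧ 0 < N ℕ (alt m A) ∧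
      ∀ (L : ℕ) (x : ℝ →₀ ℤ), L ≤ n → Blk n A L x →
        c * L * N ℕ (alt m A) ≤ N (ℝ ×ₗ Fin m) (toR (blow m x)) := by
  by_cases hb : ∃ Ψ : ℝ, ∀ A, t8psi N A ≤ Ψ
  · obtain ⟨Ψ, hΨ⟩ := hb
    have hΨ0 : 0 ≤ Ψ := (t8psi_nonneg 0).trans (hΨ 0)
    refine ⟨θ / (2 * (Ψ + 1)), by positivity, fun n => ?_⟩
    obtain ⟨m, hm, h1⟩ := t8psi_exists N (2 * n + 1) (a := Ψ + 1)
      ((hΨ _).trans_lt (by linarith))
    have hm' : (0 : ℝ) < m := by exact_mod_cast (show 0 < m by omega)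
    refine ⟨m, 2 * n + 1, hm, by omega, ?_, ?_⟩
    · exact (mul_pos hθ hm').trans_le (t8_N_alt_ge hN m _ (by omega))
    · intro L x _ hx
      have h2 := t8_lower' hN hθ (by omega) (by omega) hx (m := m)
      have h3 : θ / (2 * (Ψ + 1)) * L * N ℕ (alt m (2 * n + 1)) ≤
          θ / (2 * (Ψ + 1)) * L * ((Ψ + 1) * m) :=
        mul_le_mul_of_nonneg_left h1.le (by positivity)
      have h4 : θ / (2 * (Ψ + 1)) * L * ((Ψ + 1) * m) = θ * (m * L) / 2 := by
        field_simp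
      linarith
  · push Not at hb
    refine ⟨1 / 4, by norm_num, fun n => ?_⟩
    obtain ⟨A, hA⟩ := hb (16 * n + 1)
    have hA2 := t8psi_le_two hN A
    have hnA : 2 * n < A := by
      have h : (2 * n : ℝ) < A := by
        have : (0 : ℝ) ≤ n := Nat.cast_nonneg n
        linarith
      exact_mod_cast h
    have hpos : 0 < t8psi N A := lt_trans (by positivity) hA
    obtain ⟨m, hm, h1⟩ := t8psi_exists N A (a := 2 * t8psi N A) (by linarith)
    have hm' : (0 : ℝ) < m := by exact_mod_cast (show 0 < m by omega)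
    refine ⟨m, A, hm, hnA, ?_, ?_⟩
    · exact (mul_pos hθ hm').trans_le (t8_N_alt_ge hN m _ (by omega))
    · intro L x _ hx
      rcases Nat.eq_zero_or_pos L with rfl | hL
      · simp
      have h2 := t8_lower hN (m := m) (by omega) hnA.le hL hx
      have h3 : t8psi N A ≤ t8psi N (A - 2 * n) + 4 * n := by
        have h4 := t8psi_add hN (A - 2 * n) (2 * n)
        rw [show A - 2 * n + 2 * n = A by omega] at h4
        have h5 := t8psi_le_two hN (2 * n)
        push_cast at h5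
        linarith
      have hmL : (0 : ℝ) < m * L := mul_pos hm' (by exact_mod_cast hL)
      have h5 : (t8psi N A - 4 * n) * (m * L) ≤ t8psi N (A - 2 * n) * (m * L) :=
        mul_le_mul_of_nonneg_right (by linarith) hmL.le
      have h6 : t8psi N A / 2 * (m * L) ≤ (t8psi N A - 8 * n) * (m * L) :=
        mul_le_mul_of_nonneg_right (by linarith) hmL.le
      have h7 : (1 / 4 : ℝ) * L * N ℕ (alt m A) ≤ 1 / 4 * L * (2 * t8psi N A * m) :=
        mul_le_mul_of_nonneg_left h1.le (by positivity)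
      nlinarith

end Block

end Vale.Agent.H14.MT
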