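import Vale.Agent.H14.MT.Core

/-!
P125, row T5: finite reversible chains from symmetric kernels, `chain_ineq`.
-/

namespace Vale.Agent.H14.MT

set_option linter.unusedSectionVars false

section t5chain
variable {X : Type} [Fintype X] [DecidableEq X]

/-- Markov chain from a symmetric sub-kernel -/
noncomputable def t5P (π : X → ℝ) (Q : X → X → ℝ) : Matrix X X ℝ :=
  fun x y => Q x y / π x + if x = y then 1 - ∑ z, Q x z / π x else 0

theorem t5_zero {π : X → ℝ} {Q : X → X → ℝ} (hQ : ∀ x y, 0 ≤ Q x y)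
    (hrow : ∀ x, ∑ y, Q x y ≤ π x) {x : X} (hx : π x = 0) (y : X) : Q x y = 0 := by
  have h1 : ∑ y, Q x y = 0 := le_antisymm (hx ▸ hrow x) (Finset.sum_nonneg fun y _ => hQ x y)
  exact (Finset.sum_eq_zero_iff_of_nonneg fun y _ => hQ x y).1 h1 y (Finset.mem_univ _)

theorem t5_mul_div {π : X → ℝ} {Q : X → X → ℝ} (hQ : ∀ x y, 0 ≤ Q x y)
    (hrow : ∀ x, ∑ y, Q x y ≤ π x) (x y : X) : π x * (Q x y / π x) = Q x y := by
  by_cases hx : π x = 0
  · rw [t5_zero hQ hrow hx, hx]; simp
  · field_simp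

theorem t5_sum_div_le {π : X → ℝ} {Q : X → X → ℝ} (hQ : ∀ x y, 0 ≤ Q x y)
    (hrow : ∀ x, ∑ y, Q x y ≤ π x) (hπ : ∀ x, 0 ≤ π x) (x : X) : ∑ z, Q x z / π x ≤ 1 := by
  rw [← Finset.sum_div]
  exact div_le_one_of_le₀ (hrow x) (hπ x)

theorem t5_isChain {π : X → ℝ} {Q : X → X → ℝ} (hπ : ∀ x, 0 ≤ π x) (hπ1 : ∑ x, π x = 1)
    (hQ : ∀ x y, 0 ≤ Q x y) (hrow : ∀ x, ∑ y, Q x y ≤ π x) (hsym : ∀ x y, Q x y = Q y x) :
    IsChain (t5P π Q) π where
  nonneg i j := by
    unfold t5P
    have h1 := t5_sum_div_le hQ hrow hπ i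
    have h2 : 0 ≤ Q i j / π i := div_nonneg (hQ i j) (hπ i)
    split_ifs <;> linarith
  row i := by
    unfold t5P
    rw [Finset.sum_add_distrib]
    simp
  pi_nonneg := hπ
  pi_sum := hπ1
  rev i j := by
    unfold t5P
    rw [mul_add, mul_add, t5_mul_div hQ hrow, t5_mul_div hQ hrow, hsym i j]
    by_cases h : i = j
    · subst h; rfl
    · rw [if_neg h, if_neg (Ne.symm h)]; simp

theorem t5_pow_mono {M N : Matrix X X ℝ} (hM : ∀ i j, 0 ≤ M i j) (h : ∀ i j, M i j ≤ N i j)
    (n : ℕ) : ∀ i j, 0 ≤ (M ^ n) i j ∧ (M ^ n) i j ≤ (N ^ n) i j := by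
  induction n with
  | zero =>
    intro i j
    simp only [pow_zero, le_refl, and_true]
    rw [Matrix.one_apply]; split_ifs <;> norm_num
  | succ n ih =>
    intro i j
    rw [pow_succ, pow_succ, Matrix.mul_apply, Matrix.mul_apply]
    refine ⟨Finset.sum_nonneg fun k _ => mul_nonneg (ih i k).1 (hM k j), ?_⟩
    refine Finset.sum_le_sum fun k _ => ?_
    exact mul_le_mul (ih i k).2 (h k j) (hM k j) ((ih i k).1.trans (ih i k).2)

theorem t5_sum_pow {A : Type} [Fintype A] (q : A → Matrix X X ℝ) (n : ℕ) :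
    (∑ s, q s) ^ n = ∑ w : Fin n → A, ((List.ofFn w).map q).prod := by
  induction n with
  | zero => simp
  | succ n ih =>
    rw [pow_succ', ih, Finset.sum_mul_sum, ← Finset.sum_product']
    refine Fintype.sum_equiv (Fin.consEquiv (fun _ => A)) _ _ ?_
    rintro ⟨s, w⟩
    simp [Fin.consEquiv, List.ofFn_succ]

end t5chain

theorem t5_folner (H : Finset (ℕ →₀ ℤ)) (η : ℝ) (hη : 0 < η) :
    ∃ V : Finset (ℕ →₀ ℤ), V.Nonempty ∧ ∀ h ∈ H,
      (1 - η) * (V.card : ℝ) ≤ ((V.filter (fun v => v + h ∈ V)).card : ℝ) := by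
  classical
  -- the union of the supports
  set U : Finset ℕ := H.biUnion (fun h => h.support) with hU
  -- a bound
  set m : ℕ := ∑ h ∈ H, ∑ i ∈ U, (h i).natAbs with hm
  have hbd : ∀ h ∈ H, ∀ i ∈ U, |h i| ≤ (m : ℤ) := by
    intro h hh i hi
    have h1 : (h i).natAbs ≤ ∑ i ∈ U, (h i).natAbs :=
      Finset.single_le_sum (f := fun i => (h i).natAbs) (fun _ _ => Nat.zero_le _) hi
    have h2 : ∑ i ∈ U, (h i).natAbs ≤ m :=
      Finset.single_le_sum (f := fun h : ℕ →₀ ℤ => ∑ i ∈ U, (h i).natAbs)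
        (fun _ _ => Nat.zero_le _) hh
    have h3 := h1.trans h2
    rw [Int.abs_eq_natAbs]
    exact_mod_cast h3
  -- constant vector on U
  let cst : ℤ → (ℕ →₀ ℤ) := fun a => Finsupp.indicator U (fun _ _ => a)
  have cst_apply : ∀ a i, cst a i = if i ∈ U then a else 0 := by
    intro a i
    simp only [cst, Finsupp.indicator_apply]
    split_ifs <;> rfl
  have cst_supp : ∀ a : ℤ, (cst a).support ⊆ U := by
    intro a i hi
    by_contra hn
    rw [Finsupp.mem_support_iff, cst_apply, if_neg hn] at hi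
    exact hi rfl
  have cst_supp' : ∀ a : ℤ, a ≠ 0 → (cst a).support = U := by
    intro a ha
    refine Finset.Subset.antisymm (cst_supp a) fun i hi => ?_
    rw [Finsupp.mem_support_iff, cst_apply, if_pos hi]
    exact ha
  have hcard : ∀ a b : ℤ, b ≠ 0 → (Finset.Icc (cst a) (cst b)).card
      = ((b + 1 - a).toNat) ^ U.card := by
    intro a b hb
    rw [Finsupp.card_Icc, cst_supp' b hb, Finset.union_eq_right.2 (cst_supp a)]
    rw [Finset.prod_congr rfl (g := fun _ => (b + 1 - a).toNat)]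
    · rw [Finset.prod_const]
    · intro i hi
      rw [cst_apply, cst_apply, if_pos hi, if_pos hi, Int.card_Icc]
  -- the limit
  have hlim : Filter.Tendsto (fun R : ℕ => (((R : ℝ) + 1) / ((R : ℝ) + 1 + 2 * m)) ^ U.card)
      Filter.atTop (nhds 1) := by
    have h1 : Filter.Tendsto (fun R : ℕ => (((R : ℝ) + 1) / ((R : ℝ) + 1 + 2 * m)))
        Filter.atTop (nhds 1) := by
      have h2 : Filter.Tendsto (fun R : ℕ => 1 - (2 * m) / ((R : ℝ) + 1 + 2 * m))
          Filter.atTop (nhds (1 - 0)) := by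
        refine Filter.Tendsto.sub tendsto_const_nhds ?_
        refine Filter.Tendsto.div_atTop tendsto_const_nhds ?_
        refine Filter.tendsto_atTop_add_const_right _ _ ?_
        refine Filter.tendsto_atTop_add_const_right _ _ ?_
        exact tendsto_natCast_atTop_atTop
      rw [sub_zero] at h2
      refine h2.congr fun R => ?_
      have : (0 : ℝ) < (R : ℝ) + 1 + 2 * m := by positivity
      field_simp
      ring
    have := h1.pow U.card
    rwa [one_pow] at this
  obtain ⟨R, hR, hR1⟩ := ((hlim.eventually (lt_mem_nhds (show 1 - η < 1 by linarith))).and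
    (Filter.eventually_ge_atTop 1)).exists
  refine ⟨Finset.Icc (cst 0) (cst (R + 2 * m)), ?_, ?_⟩
  · rw [← Finset.card_pos, hcard _ _ (by omega)]
    refine pow_pos ?_ _
    omega
  · intro h hh
    have hsub : Finset.Icc (cst m) (cst (R + m)) ⊆
        (Finset.Icc (cst 0) (cst (R + 2 * m))).filter
          (fun v => v + h ∈ Finset.Icc (cst 0) (cst (R + 2 * m))) := by
      intro v hv
      rw [Finset.mem_Icc, Finsupp.le_def, Finsupp.le_def] at hv
      rw [Finset.mem_filter, Finset.mem_Icc, Finset.mem_Icc, Finsupp.le_def, Finsupp.le_def,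
        Finsupp.le_def, Finsupp.le_def]
      have key : ∀ i, (cst 0 i ≤ v i ∧ v i ≤ cst (R + 2 * m) i) ∧
          (cst 0 i ≤ (v + h) i ∧ (v + h) i ≤ cst (R + 2 * m) i) := by
        intro i
        have h1 := hv.1 i
        have h2 := hv.2 i
        rw [Finsupp.add_apply]
        rw [cst_apply] at h1 h2 ⊢
        rw [cst_apply]
        by_cases hi : i ∈ U
        · rw [if_pos hi] at h1 h2 ⊢
          rw [if_pos hi]
          have h3 := abs_le.1 (hbd h hh i hi)
          omega
        · rw [if_neg hi] at h1 h2 ⊢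
          rw [if_neg hi]
          have h3 : h i = 0 := by
            by_contra hne
            exact hi (Finset.mem_biUnion.2 ⟨h, hh, Finsupp.mem_support_iff.2 hne⟩)
          omega
      exact ⟨⟨fun i => (key i).1.1, fun i => (key i).1.2⟩,
        ⟨fun i => (key i).2.1, fun i => (key i).2.2⟩⟩
    have h1 := Finset.card_le_card hsub
    rw [hcard _ _ (by omega)] at h1
    have h2 : ((R : ℤ) + m + 1 - m).toNat = R + 1 := by omega
    rw [h2] at h1
    have h3 : (((R : ℝ) + 1) ^ U.card) ≤ (((Finset.Icc (cst 0) (cst (R + 2 * m))).filter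
          (fun v => v + h ∈ Finset.Icc (cst 0) (cst (R + 2 * m)))).card : ℝ) := by
      exact_mod_cast h1
    refine le_trans ?_ h3
    rw [hcard _ _ (by omega)]
    have h4 : ((R : ℤ) + 2 * m + 1 - 0).toNat = R + 1 + 2 * m := by omega
    rw [h4]
    push_cast
    have hpos : (0 : ℝ) < ((R : ℝ) + 1 + 2 * m) ^ U.card := by positivity
    rw [div_pow, lt_div_iff₀ hpos] at hR
    exact hR.le

theorem t5_toR_sub {C : Type} (x y : C →₀ ℤ) : toR (x - y) = toR x - toR y := by
  ext i
  simp [toR]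

theorem t5_sum_ite (V : Finset (ℕ →₀ ℤ)) (a : ℕ →₀ ℤ) (b : ℝ) :
    ∑ v : V, (if (v : ℕ →₀ ℤ) = a then b else 0) = if a ∈ V then b else 0 := by
  classical
  rw [Finset.sum_coe_sort V (fun v => if v = a then b else 0), Finset.sum_ite_eq']

theorem t5_exact {p K : ℝ} (hp : 1 ≤ p) (ν : Seminorm ℝ (ℕ →₀ ℝ))
    (hν : MTNorm p K ν) {J A : Type} [Fintype J] [Fintype A] [Nonempty A] (inv : A → A)
    (hK : 0 ≤ K)
    (hinv : ∀ s, inv (inv s) = s) (r : J → ℝ) (W : A → J → J → ℝ) (g : A → J → (ℕ →₀ ℤ))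
    (G : List A → J → (ℕ →₀ ℤ)) (n : ℕ) (hn : 1 ≤ n) (δ B : ℝ)
    (hr : ∀ j, 0 ≤ r j) (hr1 : ∑ j, r j = 1) (hW : ∀ s j j', 0 ≤ W s j j')
    (hsym : ∀ s j j', W (inv s) j' j = W s j j') (hrow : ∀ s j, ∑ j', W s j j' ≤ r j)
    (hmass : ∀ s, 1 - δ ≤ ∑ j, ∑ j', W s j j')
    (hg : ∀ s j j', W s j j' ≠ 0 → g (inv s) j' = - g s j)
    (hG0 : ∀ j, G [] j = 0)
    (hG : ∀ s w j j', w.length < n → W s j j' ≠ 0 → G (s :: w) j = g s j + G w j')
    (hB : ∀ w j, w.length = n → ν (toR (G w j)) ^ p ≤ B)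
    (η : ℝ) (hη : 0 < η) :
    (1 / (Fintype.card A : ℝ) ^ n) *
        ∑ w : Fin n → A, ∑ j, r j * ν (toR (G (List.ofFn w) j)) ^ p ≤
      K ^ p * n * ((1 / (Fintype.card A : ℝ)) * ∑ s, ∑ j, r j * ν (toR (g s j)) ^ p) +
        n * (δ + η) * B := by
  classical
  have hp0 : p ≠ 0 := by linarith
  obtain ⟨V, hVne, hV⟩ :=
    t5_folner (Finset.univ.image (fun x : A × J => g x.1 x.2)) η hη
  have hV' : ∀ s j, (1 - η) * (V.card : ℝ) ≤
      ((V.filter (fun v => v + g s j ∈ V)).card : ℝ) := fun s j =>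
    hV _ (Finset.mem_image_of_mem (fun x : A × J => g x.1 x.2) (Finset.mem_univ (s, j)))
  have hVc : (0 : ℝ) < V.card := by exact_mod_cast hVne.card_pos
  have ha : (0 : ℝ) < Fintype.card A := by exact_mod_cast Fintype.card_pos
  set c : ℝ := (V.card : ℝ) with hc
  set a : ℝ := (Fintype.card A : ℝ) with haa
  -- state space
  obtain ⟨π, hπdef⟩ : ∃ π : J × V → ℝ, ∀ x, π x = r x.1 / c := ⟨_, fun _ => rfl⟩
  obtain ⟨κ, hκdef⟩ : ∃ κ : A → J × V → J × V → ℝ, ∀ s x y, κ s x y =
      if (y.2 : ℕ →₀ ℤ) = x.2 + g s x.1 then W s x.1 y.1 / c else 0 := ⟨_, fun _ _ _ => rfl⟩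
  have hκ0 : ∀ s x y, 0 ≤ κ s x y := by
    intro s x y
    rw [hκdef]
    split_ifs
    · exact div_nonneg (hW _ _ _) hVc.le
    · exact le_rfl
  have hπ0 : ∀ x, 0 ≤ π x := fun x => by rw [hπdef]; exact div_nonneg (hr _) hVc.le
  have hκsum : ∀ s (x : J × V), ∑ y, κ s x y =
      if (x.2 : ℕ →₀ ℤ) + g s x.1 ∈ V then (∑ j', W s x.1 j') / c else 0 := by
    intro s x
    rw [Fintype.sum_prod_type]
    simp only [hκdef]
    simp only [t5_sum_ite]
    split_ifs
    · rw [Finset.sum_div]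
    · simp
  have hκrow : ∀ s x, ∑ y, κ s x y ≤ π x := by
    intro s x
    rw [hκsum, hπdef]
    split_ifs
    · gcongr
      exact hrow _ _
    · exact div_nonneg (hr _) hVc.le
  have hκsym : ∀ s x y, κ (inv s) y x = κ s x y := by
    intro s x y
    rw [hκdef, hκdef, hsym]
    by_cases hw : W s x.1 y.1 = 0
    · rw [hw]; simp
    · rw [hg s x.1 y.1 hw]
      have : ((x.2 : ℕ →₀ ℤ) = y.2 + -g s x.1) ↔ ((y.2 : ℕ →₀ ℤ) = x.2 + g s x.1) := by
        constructor
        · intro h; rw [h]; abel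
        · intro h; rw [h]; abel
      simp only [this]
  -- sums over the state space
  have hsumπ : ∀ ψ : J → ℝ, ∑ x : J × V, π x * ψ x.1 = ∑ j, r j * ψ j := by
    intro ψ
    rw [Fintype.sum_prod_type]
    refine Finset.sum_congr rfl fun j _ => ?_
    simp only [hπdef]
    rw [Finset.sum_const, Finset.card_univ, Fintype.card_coe, nsmul_eq_mul, ← hc]
    field_simp
  have hπ1 : ∑ x, π x = 1 := by
    have := hsumπ (fun _ => 1)
    simpa [hr1] using this
  have hκmass : ∀ s, 1 - (δ + η) ≤ ∑ x, ∑ y, κ s x y := by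
    intro s
    have h1 : ∑ x : J × V, ∑ y, κ s x y =
        ∑ j, (∑ j', W s j j') * (((V.filter (fun v => v + g s j ∈ V)).card : ℝ) / c) := by
      rw [Fintype.sum_prod_type]
      refine Finset.sum_congr rfl fun j _ => ?_
      simp only [hκsum]
      rw [Finset.sum_coe_sort V (fun v => if v + g s j ∈ V then (∑ j', W s j j') / c else 0),
        ← Finset.sum_filter, Finset.sum_const, nsmul_eq_mul]
      ring
    have h2 : ∑ j, (∑ j', W s j j') * (1 - η) ≤ ∑ x : J × V, ∑ y, κ s x y := by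
      rw [h1]
      refine Finset.sum_le_sum fun j _ => ?_
      refine mul_le_mul_of_nonneg_left ?_ (Finset.sum_nonneg fun _ _ => hW _ _ _)
      rw [le_div_iff₀ hVc]
      exact hV' s j
    rw [← Finset.sum_mul] at h2
    have h3 : ∑ j, ∑ j', W s j j' ≤ 1 := by
      rw [← hr1]
      exact Finset.sum_le_sum fun j _ => hrow s j
    have h4 := hmass s
    nlinarith
  -- the symmetric kernel
  obtain ⟨Q, hQdef⟩ : ∃ Q : J × V → J × V → ℝ, ∀ x y, Q x y = (1 / a) * ∑ s, κ s x y :=
    ⟨_, fun _ _ => rfl⟩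
  have hQ0 : ∀ x y, 0 ≤ Q x y := fun x y => by
    rw [hQdef]
    exact mul_nonneg (by positivity) (Finset.sum_nonneg fun s _ => hκ0 s x y)
  have hQrow : ∀ x, ∑ y, Q x y ≤ π x := by
    intro x
    simp only [hQdef]
    rw [← Finset.mul_sum, Finset.sum_comm]
    calc (1 / a) * ∑ s, ∑ y, κ s x y ≤ (1 / a) * ∑ s : A, π x := by
          gcongr with s _
          exact hκrow s x
      _ = π x := by
          rw [Finset.sum_const, Finset.card_univ, nsmul_eq_mul, ← haa]
          field_simp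
  let invE : A ≃ A := ⟨inv, inv, hinv, hinv⟩
  have hQsym : ∀ x y, Q x y = Q y x := by
    intro x y
    rw [hQdef, hQdef]
    congr 1
    refine Fintype.sum_equiv invE _ _ fun s => ?_
    exact (hκsym s x y).symm
  have hchain := t5_isChain hπ0 hπ1 hQ0 hQrow hQsym
  obtain ⟨f, hfdef⟩ : ∃ f : J × V → (ℕ →₀ ℝ), ∀ x, f x = toR (x.2 : ℕ →₀ ℤ) :=
    ⟨_, fun _ => rfl⟩
  have hmain := hν (J × V) (t5P π Q) π hchain f n hn
  have hφ0 : ∀ x, ν (f x - f x) ^ p = 0 := fun x => by
    rw [sub_self, map_zero, Real.zero_rpow hp0]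
  have hφnn : ∀ x y, 0 ≤ ν (f x - f y) ^ p := fun x y =>
    Real.rpow_nonneg (apply_nonneg ν _) p
  -- the right hand side
  have hR : ∑ x, ∑ y, π x * (t5P π Q) x y * ν (f y - f x) ^ p ≤
      (1 / a) * ∑ s, ∑ j, r j * ν (toR (g s j)) ^ p := by
    have h1 : ∀ x y, π x * (t5P π Q) x y * ν (f y - f x) ^ p = Q x y * ν (f y - f x) ^ p := by
      intro x y
      unfold t5P
      by_cases hxy : x = y
      · subst hxy
        rw [hφ0]; ring
      · rw [if_neg hxy, add_zero, t5_mul_div hQ0 hQrow]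
    simp only [h1]
    have h2 : ∀ s x y, κ s x y * ν (f y - f x) ^ p = κ s x y * ν (toR (g s x.1)) ^ p := by
      intro s x y
      by_cases h : (y.2 : ℕ →₀ ℤ) = x.2 + g s x.1
      · have : f y - f x = toR (g s x.1) := by
          rw [hfdef, hfdef, ← t5_toR_sub, h]
          congr 1
          abel
        rw [this]
      · rw [hκdef, if_neg h]; ring
    have h3 : ∑ x, ∑ y, Q x y * ν (f y - f x) ^ p =
        (1 / a) * ∑ s, ∑ x, ∑ y, κ s x y * ν (f y - f x) ^ p := by
      rw [Finset.sum_comm (s := (Finset.univ : Finset A)), Finset.mul_sum]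
      refine Finset.sum_congr rfl fun x _ => ?_
      rw [Finset.sum_comm (s := (Finset.univ : Finset A)), Finset.mul_sum]
      refine Finset.sum_congr rfl fun y _ => ?_
      rw [hQdef, mul_assoc, Finset.sum_mul]
    rw [h3]
    gcongr with s _
    rw [← hsumπ (fun j => ν (toR (g s j)) ^ p)]
    refine Finset.sum_le_sum fun x _ => ?_
    simp only [h2]
    rw [← Finset.sum_mul]
    exact mul_le_mul_of_nonneg_right (hκrow s x) (Real.rpow_nonneg (apply_nonneg ν _) p)
  -- the left hand side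
  obtain ⟨q, hqdef⟩ : ∃ q : A → Matrix (J × V) (J × V) ℝ, ∀ s x y, q s x y = κ s x y / π x :=
    ⟨fun s => Matrix.of fun x y => κ s x y / π x, fun _ _ _ => rfl⟩
  have hq0 : ∀ s x y, 0 ≤ q s x y := fun s x y => by
    rw [hqdef]; exact div_nonneg (hκ0 s x y) (hπ0 x)
  have hπq : ∀ s x y, π x * q s x y = κ s x y := fun s x y => by
    rw [hqdef]; exact t5_mul_div (hκ0 s) (hκrow s) x y
  have hqrow : ∀ s x, ∑ y, q s x y ≤ 1 := fun s x => by
    simp only [hqdef]
    exact t5_sum_div_le (hκ0 s) (hκrow s) hπ0 x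
  have hM0 : ∀ L : List A, ∀ x y, 0 ≤ ((L.map q).prod) x y := by
    intro L
    induction L with
    | nil => intro x y; simp only [List.map_nil, List.prod_nil]; rw [Matrix.one_apply]; split_ifs <;> norm_num
    | cons s L ih =>
      intro x y
      rw [List.map_cons, List.prod_cons, Matrix.mul_apply]
      exact Finset.sum_nonneg fun z _ => mul_nonneg (hq0 s x z) (ih z y)
  have hMrow : ∀ L : List A, ∀ x, ∑ y, ((L.map q).prod) x y ≤ 1 := by
    intro L
    induction L with
    | nil => intro x; simp [Matrix.one_apply]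
    | cons s L ih =>
      intro x
      simp only [List.map_cons, List.prod_cons, Matrix.mul_apply]
      rw [Finset.sum_comm]
      simp only [← Finset.mul_sum]
      refine le_trans (Finset.sum_le_sum fun z _ => mul_le_of_le_one_right (hq0 s x z) (ih z)) ?_
      exact hqrow s x
  have hMsupp : ∀ L : List A, L.length ≤ n → ∀ x y : J × V, ((L.map q).prod) x y ≠ 0 →
      (y.2 : ℕ →₀ ℤ) - x.2 = G L x.1 := by
    intro L
    induction L with
    | nil =>
      intro _ x y h
      rw [List.map_nil, List.prod_nil, Matrix.one_apply] at h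
      have hxy : x = y := by
        by_contra hne
        exact h (if_neg hne)
      rw [hxy, hG0, sub_self]
    | cons s L ih =>
      intro hL x y h
      rw [List.map_cons, List.prod_cons, Matrix.mul_apply] at h
      obtain ⟨z, -, hz⟩ := Finset.exists_ne_zero_of_sum_ne_zero h
      have h1 : q s x z ≠ 0 := left_ne_zero_of_mul hz
      have h2 : ((L.map q).prod) z y ≠ 0 := right_ne_zero_of_mul hz
      rw [List.length_cons] at hL
      have h3 := ih (by omega) z y h2
      have h4 : κ s x z ≠ 0 := by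
        intro h0
        rw [hqdef, h0, zero_div] at h1
        exact h1 rfl
      rw [hκdef] at h4
      have h5 : (z.2 : ℕ →₀ ℤ) = x.2 + g s x.1 := by
        by_contra hne
        exact h4 (if_neg hne)
      have h6 : W s x.1 z.1 ≠ 0 := by
        intro h0
        rw [if_pos h5, h0, zero_div] at h4
        exact h4 rfl
      rw [hG s L x.1 z.1 (by omega) h6, ← h3, h5]
      abel
  have hMmass : ∀ L : List A, 1 - (L.length : ℝ) * (δ + η) ≤
      ∑ x, π x * ∑ y, ((L.map q).prod) x y := by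
    intro L
    induction L with
    | nil =>
      simp [Matrix.one_apply, hπ1]
    | cons s L ih =>
      have h1 : ∑ x, π x * ∑ y, (((s :: L).map q).prod) x y =
          ∑ z, (∑ x, κ s x z) * ∑ y, ((L.map q).prod) z y := by
        simp only [List.map_cons, List.prod_cons, Matrix.mul_apply]
        simp only [Finset.mul_sum, Finset.sum_mul]
        rw [Finset.sum_comm]
        rw [Finset.sum_congr rfl (fun y _ => Finset.sum_comm)]
        rw [Finset.sum_comm]
        refine Finset.sum_congr rfl fun z _ => ?_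
        refine Finset.sum_congr rfl fun y _ => ?_
        refine Finset.sum_congr rfl fun x _ => ?_
        rw [← mul_assoc, hπq]
      have hcol : ∀ z, ∑ x, κ s x z ≤ π z := by
        intro z
        refine le_trans (le_of_eq ?_) (hκrow (inv s) z)
        exact Finset.sum_congr rfl fun x _ => (hκsym s x z).symm
      have h2 : ∑ z, (π z * ∑ y, ((L.map q).prod) z y - (π z - ∑ x, κ s x z)) ≤
          ∑ z, (∑ x, κ s x z) * ∑ y, ((L.map q).prod) z y := by
        refine Finset.sum_le_sum fun z _ => ?_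
        have h3 := hMrow L z
        have h4 := hcol z
        nlinarith
      rw [Finset.sum_sub_distrib, Finset.sum_sub_distrib, hπ1, Finset.sum_comm] at h2
      have h5 := hκmass s
      rw [h1, List.length_cons]
      push_cast
      linarith
  have hBnn : 0 ≤ B := by
    have hJ : Nonempty J := by
      by_contra hne
      rw [not_nonempty_iff] at hne
      simp at hr1
    obtain ⟨j⟩ := hJ
    obtain ⟨s⟩ := ‹Nonempty A›
    exact le_trans (Real.rpow_nonneg (apply_nonneg ν _) p) (hB (List.replicate n s) j (by simp))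
  have hword : ∀ L : List A, L.length = n →
      ∑ j, r j * ν (toR (G L j)) ^ p - n * (δ + η) * B ≤
        ∑ x, ∑ y, π x * ((L.map q).prod) x y * ν (f y - f x) ^ p := by
    intro L hL
    have h1 : ∀ x y, π x * ((L.map q).prod) x y * ν (f y - f x) ^ p =
        π x * ((L.map q).prod) x y * ν (toR (G L x.1)) ^ p := by
      intro x y
      by_cases h : ((L.map q).prod) x y = 0
      · rw [h]; ring
      · have h2 := hMsupp L hL.le x y h
        rw [hfdef, hfdef, ← t5_toR_sub, h2]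
    have h2 : ∑ x, ∑ y, π x * ((L.map q).prod) x y * ν (f y - f x) ^ p =
        ∑ x, π x * (∑ y, ((L.map q).prod) x y) * ν (toR (G L x.1)) ^ p := by
      refine Finset.sum_congr rfl fun x _ => ?_
      simp only [h1]
      rw [← Finset.sum_mul, ← Finset.mul_sum]
    rw [h2, ← hsumπ (fun j => ν (toR (G L j)) ^ p)]
    have h3 : ∑ x : J × V, (π x * ν (toR (G L x.1)) ^ p -
        B * (π x - π x * ∑ y, ((L.map q).prod) x y)) ≤
        ∑ x, π x * (∑ y, ((L.map q).prod) x y) * ν (toR (G L x.1)) ^ p := by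
      refine Finset.sum_le_sum fun x _ => ?_
      have h4 := hMrow L x
      have h5 := hB L x.1 hL
      have h6 := hπ0 x
      have h7 : 0 ≤ π x * (1 - ∑ y, ((L.map q).prod) x y) := mul_nonneg h6 (by linarith)
      nlinarith [mul_nonneg h7 (sub_nonneg.2 h5)]
    rw [Finset.sum_sub_distrib, ← Finset.mul_sum, Finset.sum_sub_distrib, hπ1] at h3
    have h8 := hMmass L
    rw [hL] at h8
    have h9 : B * (1 - ∑ x, π x * ∑ y, ((L.map q).prod) x y) ≤ n * (δ + η) * B := by
      nlinarith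
    linarith
  have hL : (1 / a ^ n) * ∑ w : Fin n → A, ∑ j, r j * ν (toR (G (List.ofFn w) j)) ^ p -
      n * (δ + η) * B ≤ ∑ x, ∑ y, π x * ((t5P π Q) ^ n) x y * ν (f y - f x) ^ p := by
    have h1 : ∀ x y, ((1 / a) • ∑ s, q s) x y ≤ (t5P π Q) x y := by
      intro x y
      rw [Matrix.smul_apply, Matrix.sum_apply]
      unfold t5P
      have h2 : (1 / a) • ∑ s, q s x y = Q x y / π x := by
        simp only [hqdef]
        rw [← Finset.sum_div, hQdef, smul_eq_mul]
        ring
      rw [h2]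
      have h3 := t5_sum_div_le hQ0 hQrow hπ0 x
      split_ifs <;> linarith
    have h2 : ∀ x y, 0 ≤ ((1 / a) • ∑ s, q s) x y := by
      intro x y
      rw [Matrix.smul_apply, Matrix.sum_apply, smul_eq_mul]
      exact mul_nonneg (by positivity) (Finset.sum_nonneg fun s _ => hq0 s x y)
    have h3 := t5_pow_mono h2 h1 n
    have h4 : ∑ x, ∑ y, π x * (((1 / a) • ∑ s, q s) ^ n) x y * ν (f y - f x) ^ p ≤
        ∑ x, ∑ y, π x * ((t5P π Q) ^ n) x y * ν (f y - f x) ^ p := by
      refine Finset.sum_le_sum fun x _ => Finset.sum_le_sum fun y _ => ?_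
      exact mul_le_mul_of_nonneg_right (mul_le_mul_of_nonneg_left (h3 x y).2 (hπ0 x)) (hφnn y x)
    refine le_trans ?_ h4
    rw [smul_pow, t5_sum_pow]
    have h5 : ∑ x, ∑ y, π x * (((1 / a) ^ n) • ∑ w : Fin n → A,
        ((List.ofFn w).map q).prod) x y * ν (f y - f x) ^ p =
        (1 / a ^ n) * ∑ w : Fin n → A, ∑ x, ∑ y,
          π x * (((List.ofFn w).map q).prod) x y * ν (f y - f x) ^ p := by
      rw [Finset.sum_comm (s := (Finset.univ : Finset (Fin n → A))), Finset.mul_sum]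
      refine Finset.sum_congr rfl fun x _ => ?_
      rw [Finset.sum_comm (s := (Finset.univ : Finset (Fin n → A))), Finset.mul_sum]
      refine Finset.sum_congr rfl fun y _ => ?_
      rw [Matrix.smul_apply, Matrix.sum_apply, smul_eq_mul, ← Finset.sum_mul, ← Finset.mul_sum]
      rw [one_div_pow]
      ring
    rw [h5]
    have h6 : ∑ w : Fin n → A, (∑ j, r j * ν (toR (G (List.ofFn w) j)) ^ p -
        n * (δ + η) * B) ≤ ∑ w : Fin n → A, ∑ x, ∑ y,
          π x * (((List.ofFn w).map q).prod) x y * ν (f y - f x) ^ p :=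
      Finset.sum_le_sum fun w _ => hword _ (List.length_ofFn)
    have h7 : (0 : ℝ) < a ^ n := by positivity
    have h8 := mul_le_mul_of_nonneg_left h6 (by positivity : (0 : ℝ) ≤ 1 / a ^ n)
    refine le_trans (le_of_eq ?_) h8
    rw [Finset.sum_sub_distrib, Finset.sum_const, Finset.card_univ, Fintype.card_fun,
      Fintype.card_fin, nsmul_eq_mul, mul_sub]
    push_cast
    rw [← haa]
    field_simp
  have hKn : 0 ≤ K ^ p * n := mul_nonneg (Real.rpow_nonneg hK p) (Nat.cast_nonneg n)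
  have := mul_le_mul_of_nonneg_left hR hKn
  linarith

theorem chain_ineq {p K : ℝ} (hp : 1 ≤ p) (hK : 0 ≤ K) (ν : Seminorm ℝ (ℕ →₀ ℝ))
    (hν : MTNorm p K ν) {J A : Type} [Fintype J] [Fintype A] [Nonempty A] (inv : A → A)
    (hinv : ∀ s, inv (inv s) = s) (r : J → ℝ) (W : A → J → J → ℝ) (g : A → J → (ℕ →₀ ℤ))
    (G : List A → J → (ℕ →₀ ℤ)) (n : ℕ) (hn : 1 ≤ n) (δ B : ℝ)
    (hr : ∀ j, 0 ≤ r j) (hr1 : ∑ j, r j = 1) (hW : ∀ s j j', 0 ≤ W s j j')
    (hsym : ∀ s j j', W (inv s) j' j = W s j j') (hrow : ∀ s j, ∑ j', W s j j' ≤ r j)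
    (hmass : ∀ s, 1 - δ ≤ ∑ j, ∑ j', W s j j')
    (hg : ∀ s j j', W s j j' ≠ 0 → g (inv s) j' = - g s j)
    (hG0 : ∀ j, G [] j = 0)
    (hG : ∀ s w j j', w.length < n → W s j j' ≠ 0 → G (s :: w) j = g s j + G w j')
    (hB : ∀ w j, w.length = n → ν (toR (G w j)) ^ p ≤ B) :
    (1 / (Fintype.card A : ℝ) ^ n) *
        ∑ w : Fin n → A, ∑ j, r j * ν (toR (G (List.ofFn w) j)) ^ p ≤
      K ^ p * n * ((1 / (Fintype.card A : ℝ)) * ∑ s, ∑ j, r j * ν (toR (g s j)) ^ p) +
        n * δ * B := by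
  have hlim : Filter.Tendsto (fun η : ℝ =>
      K ^ p * n * ((1 / (Fintype.card A : ℝ)) * ∑ s, ∑ j, r j * ν (toR (g s j)) ^ p) +
        n * (δ + η) * B) (nhdsWithin 0 (Set.Ioi 0))
      (nhds (K ^ p * n * ((1 / (Fintype.card A : ℝ)) * ∑ s, ∑ j, r j * ν (toR (g s j)) ^ p) +
        n * δ * B)) := by
    have h1 : Continuous (fun η : ℝ =>
      K ^ p * n * ((1 / (Fintype.card A : ℝ)) * ∑ s, ∑ j, r j * ν (toR (g s j)) ^ p) +
        n * (δ + η) * B) := by fun_prop
    have h2 := h1.tendsto 0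
    simp only [add_zero] at h2
    exact h2.mono_left nhdsWithin_le_nhds
  refine ge_of_tendsto hlim ?_
  filter_upwards [self_mem_nhdsWithin] with η hη
  exact t5_exact hp ν hν inv hK hinv r W g G n hn δ B hr hr1 hW hsym hrow hmass hg hG0 hG hB η hη

end Vale.Agent.H14.MT
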