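import Vale.Agent.H14.MT.Core

/-!
P125, T4: markings.
-/

namespace Vale.Agent.H14.MT

section Mark
variable {C : Type} [LinearOrder C]

theorem t4_rk_lt_card {T : Finset C} {c : C} (hc : c ∈ T) : rk T c < T.card := by
  unfold rk
  refine Finset.card_lt_card ⟨Finset.filter_subset _ _, fun h => ?_⟩
  have := h hc
  simp at this

theorem t4_rk_lt {T : Finset C} {c d : C} (hc : c ∈ T) (hcd : c < d) : rk T c < rk T d := by
  unfold rk
  refine Finset.card_lt_card ⟨fun x hx => ?_, fun h => ?_⟩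
  · simp only [Finset.mem_filter] at hx ⊢
    exact ⟨hx.1, hx.2.trans hcd⟩
  · have := h (Finset.mem_filter.2 ⟨hc, hcd⟩)
    simp at this

theorem mkm_strictMono {l : List ℕ} (T : Finset C) (hl : l.length = T.card)
    (hs : l.Pairwise (· < ·)) : StrictMonoOn (mkm T l) T := by
  intro c hc d hd hcd
  have h1 := t4_rk_lt hc hcd
  have h2 : rk T d < l.length := by rw [hl]; exact t4_rk_lt_card hd
  unfold mkm
  rw [List.getD_eq_getElem _ _ (h1.trans h2), List.getD_eq_getElem _ _ h2]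
  exact List.pairwise_iff_getElem.1 hs _ _ _ _ h1

theorem mkm_lt {D : ℕ} {l : List ℕ} (T : Finset C) (hl : l.length = T.card)
    (hD : ∀ x ∈ l, x < D) {c : C} (hc : c ∈ T) : mkm T l c < D := by
  have h2 : rk T c < l.length := by rw [hl]; exact t4_rk_lt_card hc
  unfold mkm
  rw [List.getD_eq_getElem _ _ h2]
  exact hD _ (List.getElem_mem h2)

theorem t4_rk_erase_lt {T : Finset C} {t c : C} (ht : t ∈ T) (hc : c < t) :
    rk (T.erase t) c = rk T c := by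
  unfold rk
  congr 1
  ext x
  simp only [Finset.mem_filter, Finset.mem_erase]
  constructor
  · rintro ⟨⟨-, h1⟩, h2⟩
    exact ⟨h1, h2⟩
  · rintro ⟨h1, h2⟩
    exact ⟨⟨(h2.trans hc).ne, h1⟩, h2⟩

theorem t4_rk_erase_gt {T : Finset C} {t c : C} (ht : t ∈ T) (hc : t < c) :
    rk (T.erase t) c + 1 = rk T c := by
  unfold rk
  have h1 : T.filter (· < c) = insert t ((T.erase t).filter (· < c)) := by
    ext x
    simp only [Finset.mem_filter, Finset.mem_insert, Finset.mem_erase]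
    constructor
    · rintro ⟨h1, h2⟩
      by_cases h : x = t
      · exact Or.inl h
      · exact Or.inr ⟨⟨h, h1⟩, h2⟩
    · rintro (rfl | ⟨⟨-, h1⟩, h2⟩)
      · exact ⟨ht, hc⟩
      · exact ⟨h1, h2⟩
  rw [h1, Finset.card_insert_of_notMem]
  simp

theorem t4_mkm_erase {T : Finset C} {t c : C} (ht : t ∈ T) (hc : c ∈ T.erase t) (l : List ℕ) :
    mkm (T.erase t) (l.eraseIdx (rk T t)) c = mkm T l c := by
  unfold mkm
  rw [List.getD_eq_getElem?_getD, List.getD_eq_getElem?_getD, List.getElem?_eraseIdx]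
  rcases lt_trichotomy c t with h | h | h
  · rw [t4_rk_erase_lt ht h, if_pos (t4_rk_lt (Finset.mem_of_mem_erase hc) h)]
  · exact absurd h (Finset.ne_of_mem_erase hc)
  · have h1 := t4_rk_erase_gt ht h
    have h2 := t4_rk_lt ht h
    rw [if_neg (by omega), h1]

theorem t4_Em_erase {M D : ℕ} {ε : ℝ} {ρ : ℕ → (List ℕ →₀ ℝ)} (h : Spread M D ε ρ)
    (T : Finset C) {t : C} (ht : t ∈ T) (hT : T.card ≤ M) (B : ℝ) (hB : 0 ≤ B)
    (Φ : (C → ℕ) → ℝ) (hΦ : ∀ j, |Φ j| ≤ B)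
    (hloc : ∀ j j' : C → ℕ, (∀ c ∈ T.erase t, j c = j' c) → Φ j = Φ j') :
    |Em ρ T Φ - Em ρ (T.erase t) Φ| ≤ B * ε := by
  have hcard : (T.erase t).card + 1 = T.card := Finset.card_erase_add_one ht
  rcases hB.eq_or_lt with hB0 | hB0
  · have h0 : ∀ j, Φ j = 0 := fun j => abs_nonpos_iff.1 ((hΦ j).trans hB0.symm.le)
    simp [Em, h0, ← hB0]
  have hdel := h.del (T.erase t).card (by omega) (rk T t) (by
    have := t4_rk_lt_card ht
    omega) (fun l => Φ (mkm (T.erase t) l) / B) (fun l => by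
      rw [abs_div, abs_of_pos hB0, div_le_one hB0]
      exact hΦ _)
  have h1 : Em ρ T Φ = B * ((ρ ((T.erase t).card + 1)).sum fun l a =>
      a * (Φ (mkm (T.erase t) (l.eraseIdx (rk T t))) / B)) := by
    unfold Em
    rw [hcard, Finsupp.sum, Finsupp.sum, Finset.mul_sum]
    refine Finset.sum_congr rfl fun l _ => ?_
    rw [hloc (mkm (T.erase t) (l.eraseIdx (rk T t))) (mkm T l)
      (fun c hc => t4_mkm_erase ht hc l)]
    field_simp
  have h2 : Em ρ (T.erase t) Φ = B * ((ρ (T.erase t).card).sum fun l a =>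
      a * (Φ (mkm (T.erase t) l) / B)) := by
    unfold Em
    rw [Finsupp.sum, Finsupp.sum, Finset.mul_sum]
    refine Finset.sum_congr rfl fun l _ => ?_
    field_simp
  rw [h1, h2, ← mul_sub, abs_mul, abs_of_pos hB0]
  exact mul_le_mul_of_nonneg_left hdel hB0.le

theorem Em_sub {M D : ℕ} {ε : ℝ} {ρ : ℕ → (List ℕ →₀ ℝ)} (h : Spread M D ε ρ)
    (T K : Finset C) (hKT : K ⊆ T) (hT : T.card ≤ M) (B : ℝ) (hB : 0 ≤ B)
    (Φ : (C → ℕ) → ℝ) (hΦ : ∀ j, |Φ j| ≤ B)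
    (hloc : ∀ j j' : C → ℕ, (∀ c ∈ K, j c = j' c) → Φ j = Φ j') :
    |Em ρ T Φ - Em ρ K Φ| ≤ B * T.card * ε := by
  induction hn : T.card using Nat.strong_induction_on generalizing T with
  | _ n ih =>
  by_cases hEq : T = K
  · subst hEq
    rw [sub_self, abs_zero]
    rcases Nat.eq_zero_or_pos n with h0 | h0
    · subst h0
      simp
    · have hε : 0 ≤ ε := by
        obtain ⟨m, rfl⟩ : ∃ m, n = m + 1 := ⟨n - 1, by omega⟩
        exact (abs_nonneg _).trans (h.del m (by omega) 0 (by omega) (fun _ => 0) (by simp))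
      positivity
  · obtain ⟨t, ht, htK⟩ := Finset.exists_of_ssubset (Finset.ssubset_iff_subset_ne.2
      ⟨hKT, fun h => hEq h.symm⟩)
    have hcard : (T.erase t).card + 1 = T.card := Finset.card_erase_add_one ht
    have hKT' : K ⊆ T.erase t := fun c hc =>
      Finset.mem_erase.2 ⟨fun h => htK (h ▸ hc), hKT hc⟩
    have h1 := t4_Em_erase h T ht hT B hB Φ hΦ (fun j j' hj => hloc j j' fun c hc =>
      hj c (hKT' hc))
    have h2 := ih (T.erase t).card (by omega) (T.erase t) hKT' (by omega) rfl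
    have h3 : ((T.erase t).card : ℝ) + 1 = n := by rw [← hn]; exact_mod_cast hcard
    calc |Em ρ T Φ - Em ρ K Φ| ≤ |Em ρ T Φ - Em ρ (T.erase t) Φ| +
          |Em ρ (T.erase t) Φ - Em ρ K Φ| := abs_sub_le _ _ _
      _ ≤ B * ε + B * (T.erase t).card * ε := add_le_add h1 h2
      _ = B * n * ε := by rw [← h3]; ring

theorem t4_rk_image {C' : Type} [LinearOrder C'] {T : Finset C} {g : C → C'}
    (hg : StrictMonoOn g T) {c : C} (hc : c ∈ T) : rk (T.image g) (g c) = rk T c := by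
  unfold rk
  have h1 : (T.image g).filter (· < g c) = (T.filter (· < c)).image g := by
    ext y
    simp only [Finset.mem_filter, Finset.mem_image]
    constructor
    · rintro ⟨⟨x, hx, rfl⟩, h⟩
      exact ⟨x, ⟨hx, (hg.lt_iff_lt hx hc).1 h⟩, rfl⟩
    · rintro ⟨x, ⟨hx, h⟩, rfl⟩
      exact ⟨⟨x, hx, rfl⟩, hg hx hc h⟩
  rw [h1]
  refine Finset.card_image_of_injOn fun x hx y hy hxy => ?_
  exact hg.injOn (Finset.mem_filter.1 hx).1 (Finset.mem_filter.1 hy).1 hxy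

theorem Em_iso {C' : Type} [LinearOrder C'] (ρ : ℕ → (List ℕ →₀ ℝ)) (T : Finset C)
    (g : C → C') (hg : StrictMonoOn g T) (Φ : (C' → ℕ) → ℝ) (Ψ : (C → ℕ) → ℝ)
    (h : ∀ (j' : C' → ℕ) (j : C → ℕ), (∀ c ∈ T, j' (g c) = j c) → Φ j' = Ψ j) :
    Em ρ (T.image g) Φ = Em ρ T Ψ := by
  unfold Em
  rw [Finset.card_image_of_injOn hg.injOn]
  refine Finset.sum_congr rfl fun l _ => ?_
  simp only
  rw [h (mkm (T.image g) l) (mkm T l) fun c hc => ?_]
  unfold mkm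
  rw [t4_rk_image hg hc]

theorem toR_mapDomain {C' : Type} (x : C →₀ ℤ) (j : C → C') :
    toR (x.mapDomain j) = (toR x).mapDomain j := by
  unfold toR
  have h := Finsupp.mapDomain_mapRange j x (fun k : ℤ => (k : ℝ)) (by simp)
    (by intro a b; push_cast; ring)
  exact h.symm

/-! extras -/

theorem Em_nonneg {M D : ℕ} {ε : ℝ} {ρ : ℕ → (List ℕ →₀ ℝ)} (h : Spread M D ε ρ)
    (T : Finset C) {Φ : (C → ℕ) → ℝ} (hΦ : ∀ j, 0 ≤ Φ j) : 0 ≤ Em ρ T Φ :=
  Finset.sum_nonneg fun l _ => mul_nonneg (h.nonneg _ l) (hΦ _)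

theorem Em_mono {M D : ℕ} {ε : ℝ} {ρ : ℕ → (List ℕ →₀ ℝ)} (h : Spread M D ε ρ)
    (T : Finset C) {Φ Ψ : (C → ℕ) → ℝ} (hΦ : ∀ j, Φ j ≤ Ψ j) : Em ρ T Φ ≤ Em ρ T Ψ :=
  Finset.sum_le_sum fun l _ => mul_le_mul_of_nonneg_left (hΦ _) (h.nonneg _ l)

/-- monotonicity using only markings that are increasing and bounded on `T` -/
theorem Em_mono' {M D : ℕ} {ε : ℝ} {ρ : ℕ → (List ℕ →₀ ℝ)} (h : Spread M D ε ρ)
    (T : Finset C) (hT : T.card ≤ M) {Φ Ψ : (C → ℕ) → ℝ}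
    (hΦ : ∀ j, StrictMonoOn j T → (∀ c ∈ T, j c < D) → Φ j ≤ Ψ j) : Em ρ T Φ ≤ Em ρ T Ψ := by
  refine Finset.sum_le_sum fun l hl => mul_le_mul_of_nonneg_left ?_ (h.nonneg _ l)
  obtain ⟨h1, h2, h3⟩ := h.supp _ hT l hl
  exact hΦ _ (mkm_strictMono T h1 h2) fun c hc => mkm_lt T h1 h3 hc

theorem Em_add (ρ : ℕ → (List ℕ →₀ ℝ)) (T : Finset C) (Φ Ψ : (C → ℕ) → ℝ) :
    Em ρ T (fun j => Φ j + Ψ j) = Em ρ T Φ + Em ρ T Ψ := by
  unfold Em
  rw [Finsupp.sum, Finsupp.sum, Finsupp.sum, ← Finset.sum_add_distrib]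
  exact Finset.sum_congr rfl fun l _ => by ring

theorem Em_smul (ρ : ℕ → (List ℕ →₀ ℝ)) (T : Finset C) (c : ℝ) (Φ : (C → ℕ) → ℝ) :
    Em ρ T (fun j => c * Φ j) = c * Em ρ T Φ := by
  unfold Em
  rw [Finsupp.sum, Finsupp.sum, Finset.mul_sum]
  exact Finset.sum_congr rfl fun l _ => by ring

theorem Em_const {M D : ℕ} {ε : ℝ} {ρ : ℕ → (List ℕ →₀ ℝ)} (h : Spread M D ε ρ)
    (T : Finset C) (hT : T.card ≤ M) (c : ℝ) : Em ρ T (fun _ => c) = c := by
  have h1 := h.sum_one _ hT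
  unfold Em
  rw [Finsupp.sum, ← Finset.sum_mul]
  rw [Finsupp.sum] at h1
  rw [h1, one_mul]

end Mark

end Vale.Agent.H14.MT
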