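import Vale.Agent.H14.MT.Core

/-!
P125, T9: ping-pong on the line.
-/

namespace Vale.Agent.H14.MT

/-! ### one period -/

noncomputable def t9_p (y : ℝ) : ℝ := min (7 * y) (7 / 8 + (y - 1 / 8) / 7)

noncomputable def t9_q (y : ℝ) : ℝ := max (y / 7) (1 / 8 + 7 * (y - 7 / 8))

lemma t9_p_nonneg {y : ℝ} (h0 : 0 ≤ y) : 0 ≤ t9_p y := by
  unfold t9_p
  exact le_min (by linarith) (by linarith)

lemma t9_p_lt {y : ℝ} (h1 : y < 1) : t9_p y < 1 := by
  unfold t9_p
  exact lt_of_le_of_lt (min_le_right _ _) (by linarith)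

lemma t9_q_nonneg {y : ℝ} (h0 : 0 ≤ y) : 0 ≤ t9_q y := by
  unfold t9_q
  exact le_max_of_le_left (by linarith)

lemma t9_q_lt {y : ℝ} (h1 : y < 1) : t9_q y < 1 := by
  unfold t9_q
  exact max_lt (by linarith) (by linarith)

lemma t9_p_mono {x y : ℝ} (h : x < y) : t9_p x < t9_p y := by
  unfold t9_p
  exact min_lt_min (by linarith) (by linarith)

lemma t9_pq {y : ℝ} : t9_p (t9_q y) = y := by
  unfold t9_p t9_q
  rcases le_total y (7 / 8) with h | h
  · rw [max_eq_left (by linarith), min_eq_left (by linarith)]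
    ring
  · rw [max_eq_right (by linarith), min_eq_right (by linarith)]
    ring

noncomputable def t9_F (x : ℝ) : ℝ := ⌊x⌋ + t9_p (Int.fract x)

noncomputable def t9_G (x : ℝ) : ℝ := ⌊x⌋ + t9_q (Int.fract x)

lemma t9_F_eval (k : ℤ) {y : ℝ} (h0 : 0 ≤ y) (h1 : y < 1) : t9_F (k + y) = k + t9_p y := by
  have hf : ⌊(k : ℝ) + y⌋ = k := by
    rw [Int.floor_eq_iff]; constructor <;> linarith
  have hfr : Int.fract ((k : ℝ) + y) = y := by
    rw [Int.fract, hf]; ring
  rw [t9_F, hf, hfr]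

lemma t9_G_eval (k : ℤ) {y : ℝ} (h0 : 0 ≤ y) (h1 : y < 1) : t9_G (k + y) = k + t9_q y := by
  have hf : ⌊(k : ℝ) + y⌋ = k := by
    rw [Int.floor_eq_iff]; constructor <;> linarith
  have hfr : Int.fract ((k : ℝ) + y) = y := by
    rw [Int.fract, hf]; ring
  rw [t9_G, hf, hfr]

lemma t9_F_mono : StrictMono t9_F := by
  intro x y h
  rcases lt_trichotomy ⌊x⌋ ⌊y⌋ with hf | hf | hf
  · have h1 : ((⌊x⌋ : ℤ) : ℝ) + 1 ≤ ⌊y⌋ := by exact_mod_cast hf
    have h2 := t9_p_lt (Int.fract_lt_one x)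
    have h3 := t9_p_nonneg (Int.fract_nonneg y)
    unfold t9_F
    linarith
  · have h1 : Int.fract x < Int.fract y := by
      unfold Int.fract
      rw [hf]; linarith
    have h2 := t9_p_mono h1
    unfold t9_F
    rw [hf]; linarith
  · exact absurd (Int.floor_mono h.le) (not_le.2 hf)

lemma t9_FG (x : ℝ) : t9_F (t9_G x) = x := by
  have h := t9_F_eval ⌊x⌋ (t9_q_nonneg (Int.fract_nonneg x)) (t9_q_lt (Int.fract_lt_one x))
  rw [t9_pq, Int.floor_add_fract] at h
  exact h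

lemma t9_F_add_int (x : ℝ) (m : ℤ) : t9_F (x + m) = t9_F x + m := by
  unfold t9_F
  rw [Int.floor_add_intCast, Int.fract_add_intCast]
  push_cast; ring

noncomputable def t9_iso : ℝ ≃o ℝ := t9_F_mono.orderIsoOfRightInverse t9_F t9_G t9_FG

lemma t9_iso_apply (x : ℝ) : t9_iso x = t9_F x := rfl

lemma t9_iso_symm_apply (x : ℝ) : t9_iso.symm x = t9_G x := rfl

/-! ### the map `α` and its conjugate -/

/-- `x ↦ α (x - i/4) + i/4`, where `α x = F (x - 1/2) + 1/8` -/
noncomputable def t9_g (i : Fin 2) : ℝ ≃o ℝ :=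
  ((OrderIso.addRight (-(((i : ℕ) : ℝ) / 4 + 1 / 2))).trans t9_iso).trans
    (OrderIso.addRight (((i : ℕ) : ℝ) / 4 + 1 / 8))

lemma t9_g_apply (i : Fin 2) (x : ℝ) :
    t9_g i x = t9_F (x - (((i : ℕ) : ℝ) / 4 + 1 / 2)) + (((i : ℕ) : ℝ) / 4 + 1 / 8) := by
  simp only [t9_g, OrderIso.trans_apply, OrderIso.addRight_apply, t9_iso_apply]
  rw [sub_eq_add_neg]

lemma t9_g_symm_apply (i : Fin 2) (x : ℝ) :
    (t9_g i).symm x = t9_G (x - (((i : ℕ) : ℝ) / 4 + 1 / 8)) + (((i : ℕ) : ℝ) / 4 + 1 / 2) := by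
  rw [OrderIso.symm_apply_eq, t9_g_apply]
  rw [add_sub_cancel_right, t9_FG]
  ring

lemma t9_g_add_int (i : Fin 2) (x : ℝ) (m : ℤ) : t9_g i (x + m) = t9_g i x + m := by
  rw [t9_g_apply, t9_g_apply]
  have : x + m - (((i : ℕ) : ℝ) / 4 + 1 / 2) = x - (((i : ℕ) : ℝ) / 4 + 1 / 2) + m := by ring
  rw [this, t9_F_add_int]; ring

lemma t9_g_symm_add_int (i : Fin 2) (x : ℝ) (m : ℤ) :
    (t9_g i).symm (x + m) = (t9_g i).symm x + m := by
  rw [OrderIso.symm_apply_eq, t9_g_add_int, OrderIso.apply_symm_apply]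

lemma t9_ga_add_int (s : Ltr) (x : ℝ) (m : ℤ) : ga t9_g s (x + m) = ga t9_g s x + m := by
  unfold ga
  split_ifs
  · exact t9_g_add_int _ _ _
  · exact t9_g_symm_add_int _ _ _

/-- left end of the arc of a letter -/
noncomputable def t9_a (s : Ltr) : ℝ := ((s.1 : ℕ) : ℝ) / 4 + (if s.2 then 0 else 1 / 2)

/-- `α` on `k + (5/8, 3/2)` -/
lemma t9_g_range (i : Fin 2) (c : ℤ) {x : ℝ} (h1 : ((i : ℕ) : ℝ) / 4 + c - 3 / 8 < x)
    (h2 : x < ((i : ℕ) : ℝ) / 4 + c + 1 / 2) :
    ((i : ℕ) : ℝ) / 4 + c < t9_g i x ∧ t9_g i x < ((i : ℕ) : ℝ) / 4 + 1 / 8 + c := by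
  rw [t9_g_apply]
  have e : x - (((i : ℕ) : ℝ) / 4 + 1 / 2) =
      ((c - 1 : ℤ) : ℝ) + (x - ((i : ℕ) : ℝ) / 4 - c + 1 / 2) := by push_cast; ring
  rw [e, t9_F_eval _ (by linarith) (by linarith)]
  unfold t9_p
  rw [min_eq_right (by linarith)]
  push_cast
  constructor <;> linarith

lemma t9_g_symm_range (i : Fin 2) (c : ℤ) {x : ℝ} (h1 : ((i : ℕ) : ℝ) / 4 + c + 1 / 8 < x)
    (h2 : x < ((i : ℕ) : ℝ) / 4 + c + 1) :
    ((i : ℕ) : ℝ) / 4 + 1 / 2 + c < (t9_g i).symm x ∧
      (t9_g i).symm x < ((i : ℕ) : ℝ) / 4 + 1 / 2 + 1 / 8 + c := by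
  rw [t9_g_symm_apply]
  have e : x - (((i : ℕ) : ℝ) / 4 + 1 / 8) =
      (c : ℝ) + (x - ((i : ℕ) : ℝ) / 4 - c - 1 / 8) := by ring
  rw [e, t9_G_eval _ (by linarith) (by linarith)]
  unfold t9_q
  rw [max_eq_left (by linarith)]
  constructor <;> linarith

lemma t9_arc (s t : Ltr) (h : s.1 = t.1 → s.2 = t.2) : ∃ c : ℤ, |c| ≤ 1 ∧
    ∀ x, t9_a t ≤ x → x ≤ t9_a t + 1 / 8 →
      t9_a s + c < ga t9_g s x ∧ ga t9_g s x < t9_a s + 1 / 8 + c := by
  obtain ⟨i, e⟩ := s
  obtain ⟨j, e'⟩ := t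
  have main : ∀ c : ℤ, |c| ≤ 1 →
      (e = true → ((i : ℕ) : ℝ) / 4 + c - 3 / 8 < t9_a (j, e') ∧
        t9_a (j, e') + 1 / 8 < ((i : ℕ) : ℝ) / 4 + c + 1 / 2) →
      (e = false → ((i : ℕ) : ℝ) / 4 + c + 1 / 8 < t9_a (j, e') ∧
        t9_a (j, e') + 1 / 8 < ((i : ℕ) : ℝ) / 4 + c + 1) →
      ∃ c : ℤ, |c| ≤ 1 ∧ ∀ x, t9_a (j, e') ≤ x → x ≤ t9_a (j, e') + 1 / 8 →
        t9_a (i, e) + c < ga t9_g (i, e) x ∧ ga t9_g (i, e) x < t9_a (i, e) + 1 / 8 + c := by
    intro c hc h1 h2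
    refine ⟨c, hc, fun x hx hx' => ?_⟩
    cases e
    · have h3 := h2 rfl
      have := t9_g_symm_range i c (x := x) (by linarith) (by linarith)
      simpa [t9_a, ga] using this
    · have h3 := h1 rfl
      have := t9_g_range i c (x := x) (by linarith) (by linarith)
      simpa [t9_a, ga] using this
  fin_cases i <;> fin_cases j <;> cases e <;> cases e' <;> simp at h
  · exact main 0 (by norm_num) (by simp) (by intro _; norm_num [t9_a])
  · exact main 0 (by norm_num) (by intro _; norm_num [t9_a]) (by simp)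
  · exact main 0 (by norm_num) (by simp) (by intro _; norm_num [t9_a])
  · exact main 0 (by norm_num) (by simp) (by intro _; norm_num [t9_a])
  · exact main 1 (by norm_num) (by intro _; norm_num [t9_a]) (by simp)
  · exact main 0 (by norm_num) (by intro _; norm_num [t9_a]) (by simp)
  · exact main 0 (by norm_num) (by simp) (by intro _; norm_num [t9_a])
  · exact main (-1) (by norm_num) (by simp) (by intro _; norm_num [t9_a])
  · exact main 0 (by norm_num) (by intro _; norm_num [t9_a]) (by simp)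
  · exact main 0 (by norm_num) (by intro _; norm_num [t9_a]) (by simp)
  · exact main 0 (by norm_num) (by simp) (by intro _; norm_num [t9_a])
  · exact main 0 (by norm_num) (by intro _; norm_num [t9_a]) (by simp)

/-! ### the block structure -/

/-- block data inside the arc of `s` -/
def t9_PB (A : ℕ) (s : Ltr) (L : ℕ) (x : ℝ →₀ ℤ) : Prop :=
  ∃ (ℓ r : Fin L → ℝ) (u v : Fin L → ℤ), StrictMono ℓ ∧ StrictAnti r ∧
    (∀ i j, ℓ i < r j) ∧ (∀ i, t9_a s ≤ ℓ i) ∧ (∀ i, r i ≤ t9_a s + 1 / 8) ∧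
    (∀ i, |u i| ≤ L ∧ |v i| ≤ L) ∧
    x = ∑ i, ∑ k ∈ Finset.range A, (Finsupp.single (ℓ i + u i + k) 1 -
      Finsupp.single (r i + v i + k) 1)

lemma t9_gb (A : ℕ) (s : Ltr) : ∃ v : ℤ, |v| ≤ 1 ∧ gb t9_g (b0 A) s =
    ∑ k ∈ Finset.range A, (Finsupp.single (t9_a s + (0 : ℤ) + k) 1 -
      Finsupp.single (t9_a s + 1 / 8 + v + k) 1) := by
  obtain ⟨i, e⟩ := s
  cases e
  · refine ⟨-1, by norm_num, ?_⟩
    simp only [gb, Bool.false_eq_true, if_false, b0]
    rw [Finsupp.mapDomain_finsetSum, ← Finset.sum_neg_distrib]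
    refine Finset.sum_congr rfl fun k _ => ?_
    have e1 : (t9_g i).symm (((i : ℕ) : ℝ) / 4 + (k : ℝ)) = t9_a (i, false) + 1 / 8 + ((-1 : ℤ) : ℝ) + k := by
      have h := t9_g_symm_add_int i (((i : ℕ) : ℝ) / 4) (k : ℤ)
      rw [Int.cast_natCast] at h
      rw [h, t9_g_symm_apply]
      have e2 : ((i : ℕ) : ℝ) / 4 - (((i : ℕ) : ℝ) / 4 + 1 / 8) = ((-1 : ℤ) : ℝ) + 7 / 8 := by
        push_cast; ring
      rw [e2, t9_G_eval _ (by norm_num) (by norm_num)]
      have e3 : t9_q (7 / 8) = 1 / 8 := by unfold t9_q; norm_num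
      rw [e3]
      simp only [t9_a, Bool.false_eq_true, if_false]
      push_cast; ring
    have e4 : (t9_g i).symm (((i : ℕ) : ℝ) / 4 + 1 / 8 + (k : ℝ)) =
        t9_a (i, false) + ((0 : ℤ) : ℝ) + k := by
      have h := t9_g_symm_add_int i (((i : ℕ) : ℝ) / 4 + 1 / 8) (k : ℤ)
      rw [Int.cast_natCast] at h
      rw [h, t9_g_symm_apply]
      have e2 : ((i : ℕ) : ℝ) / 4 + 1 / 8 - (((i : ℕ) : ℝ) / 4 + 1 / 8) = ((0 : ℤ) : ℝ) + 0 := by
        push_cast; ring
      rw [e2, t9_G_eval _ (by norm_num) (by norm_num)]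
      have e3 : t9_q 0 = 0 := by unfold t9_q; norm_num
      rw [e3]
      simp only [t9_a, Bool.false_eq_true, if_false]
      push_cast; ring
    have e5 : (Finsupp.single (((i : ℕ) : ℝ) / 4 + (k : ℝ)) (1 : ℤ) -
        Finsupp.single (((i : ℕ) : ℝ) / 4 + 1 / 8 + (k : ℝ)) 1).mapDomain (t9_g i).symm =
        Finsupp.single (t9_a (i, false) + 1 / 8 + ((-1 : ℤ) : ℝ) + k) (1 : ℤ) -
          Finsupp.single (t9_a (i, false) + ((0 : ℤ) : ℝ) + k) 1 := by
      rw [sub_eq_add_neg, Finsupp.mapDomain_add, Finsupp.mapDomain_single, ← Finsupp.single_neg,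
        Finsupp.mapDomain_single, e1, e4, Finsupp.single_neg, ← sub_eq_add_neg]
    rw [e5, neg_sub]
  · refine ⟨0, by norm_num, ?_⟩
    simp only [gb, if_true, b0, t9_a]
    refine Finset.sum_congr rfl fun k _ => ?_
    simp

lemma t9_base (A : ℕ) (s : Ltr) : t9_PB A s 1 (gb t9_g (b0 A) s) := by
  obtain ⟨v, hv, h⟩ := t9_gb A s
  refine ⟨fun _ => t9_a s, fun _ => t9_a s + 1 / 8, fun _ => 0, fun _ => v,
    Subsingleton.strictMono _, Subsingleton.strictAnti _, fun _ _ => by linarith,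
    fun _ => le_refl _, fun _ => le_refl _, fun _ => ⟨by simp, by simpa using hv⟩, ?_⟩
  rw [h]; simp

lemma t9_step (A : ℕ) (s t : Ltr) (hst : s.1 = t.1 → s.2 = t.2) (L : ℕ) (x : ℝ →₀ ℤ)
    (hx : t9_PB A t L x) :
    t9_PB A s (L + 1) (gb t9_g (b0 A) s + x.mapDomain (ga t9_g s)) := by
  obtain ⟨ℓ, r, u, v, h1, h2, h3, h4, h5, h6, h7⟩ := hx
  obtain ⟨c, hc, harc⟩ := t9_arc s t hst
  obtain ⟨v0, hv0, hgb⟩ := t9_gb A s
  have hℓ : ∀ i, t9_a s + c < ga t9_g s (ℓ i) ∧ ga t9_g s (ℓ i) < t9_a s + 1 / 8 + c := fun i =>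
    harc _ (h4 i) ((h3 i i).le.trans (h5 i))
  have hr : ∀ i, t9_a s + c < ga t9_g s (r i) ∧ ga t9_g s (r i) < t9_a s + 1 / 8 + c := fun i =>
    harc _ ((h4 i).trans (h3 i i).le) (h5 i)
  refine ⟨Fin.cons (t9_a s) (fun i => ga t9_g s (ℓ i) - c),
    Fin.cons (t9_a s + 1 / 8) (fun i => ga t9_g s (r i) - c),
    Fin.cons 0 (fun i => u i + c), Fin.cons v0 (fun i => v i + c), ?_, ?_, ?_, ?_, ?_, ?_, ?_⟩
  · intro i j hij
    induction i using Fin.cases with
    | zero =>
      induction j using Fin.cases with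
      | zero => exact absurd hij (lt_irrefl _)
      | succ j => simp only [Fin.cons_zero, Fin.cons_succ]; linarith [(hℓ j).1]
    | succ i =>
      induction j using Fin.cases with
      | zero => exact absurd hij (by simp)
      | succ j =>
        simp only [Fin.cons_succ]
        have := (ga t9_g s).strictMono (h1 (Fin.succ_lt_succ_iff.1 hij))
        linarith
  · intro i j hij
    induction i using Fin.cases with
    | zero =>
      induction j using Fin.cases with
      | zero => exact absurd hij (lt_irrefl _)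
      | succ j => simp only [Fin.cons_zero, Fin.cons_succ]; linarith [(hr j).2]
    | succ i =>
      induction j using Fin.cases with
      | zero => exact absurd hij (by simp)
      | succ j =>
        simp only [Fin.cons_succ]
        have := (ga t9_g s).strictMono (h2 (Fin.succ_lt_succ_iff.1 hij))
        linarith
  · intro i j
    induction i using Fin.cases with
    | zero =>
      induction j using Fin.cases with
      | zero => simp only [Fin.cons_zero]; linarith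
      | succ j => simp only [Fin.cons_zero, Fin.cons_succ]; linarith [(hr j).1]
    | succ i =>
      induction j using Fin.cases with
      | zero => simp only [Fin.cons_zero, Fin.cons_succ]; linarith [(hℓ i).2]
      | succ j =>
        simp only [Fin.cons_succ]
        have := (ga t9_g s).strictMono (h3 i j)
        linarith
  · intro i
    induction i using Fin.cases with
    | zero => simp only [Fin.cons_zero]; exact le_refl _
    | succ i => simp only [Fin.cons_succ]; linarith [(hℓ i).1]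
  · intro i
    induction i using Fin.cases with
    | zero => simp only [Fin.cons_zero]; exact le_refl _
    | succ i => simp only [Fin.cons_succ]; linarith [(hr i).2]
  · intro i
    induction i using Fin.cases with
    | zero =>
      simp only [Fin.cons_zero]
      push_cast
      constructor
      · rw [abs_zero]; positivity
      · have : (0 : ℤ) ≤ L := by positivity
        linarith
    | succ i =>
      simp only [Fin.cons_succ]
      push_cast
      constructor
      · exact (abs_add_le _ _).trans (add_le_add (h6 i).1 hc)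
      · exact (abs_add_le _ _).trans (add_le_add (h6 i).2 hc)
  · rw [Fin.sum_univ_succ, hgb]
    simp only [Fin.cons_zero, Fin.cons_succ]
    congr 1
    rw [h7, Finsupp.mapDomain_finsetSum]
    refine Finset.sum_congr rfl fun i _ => ?_
    rw [Finsupp.mapDomain_finsetSum]
    refine Finset.sum_congr rfl fun k _ => ?_
    have e1 : ∀ (y : ℝ) (m : ℤ), ga t9_g s (y + m + k) = ga t9_g s y - c + ((m + c : ℤ) : ℝ) + k := by
      intro y m
      have h := t9_ga_add_int s (y + m) (k : ℤ)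
      rw [Int.cast_natCast] at h
      rw [h, t9_ga_add_int]
      push_cast; ring
    rw [sub_eq_add_neg, Finsupp.mapDomain_add, Finsupp.mapDomain_single, ← Finsupp.single_neg,
      Finsupp.mapDomain_single, e1, e1, Finsupp.single_neg, ← sub_eq_add_neg]

lemma t9_main (A : ℕ) (w : List Ltr) : ∀ s : Ltr, FreeGroup.IsReduced (s :: w) →
    t9_PB A s (w.length + 1) (cocy t9_g (b0 A) (s :: w)) := by
  induction w with
  | nil =>
    intro s _
    have h : cocy t9_g (b0 A) [s] = gb t9_g (b0 A) s := by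
      simp only [cocy_cons, cocy_nil, Finsupp.mapDomain_zero, add_zero]
    rw [h]
    exact t9_base A s
  | cons t w ih =>
    intro s hred
    have h1 : (s.1 = t.1 → s.2 = t.2) ∧ FreeGroup.IsReduced (t :: w) := by
      unfold FreeGroup.IsReduced at hred ⊢
      exact List.isChain_cons_cons.1 hred
    exact t9_step A s t h1.1 _ _ (ih t h1.2)

theorem ping : ∃ g : Fin 2 → (ℝ ≃o ℝ), ∀ (A n : ℕ) (w : List Ltr), w ≠ [] →
    FreeGroup.IsReduced w → w.length ≤ n → Blk n A w.length (cocy g (b0 A) w) := by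
  refine ⟨t9_g, ?_⟩
  intro A n w hw hred hn
  cases w with
  | nil => exact absurd rfl hw
  | cons s w =>
    obtain ⟨ℓ, r, u, v, h1, h2, h3, h4, h5, h6, h7⟩ := t9_main A w s hred
    refine ⟨ℓ, r, u, v, h1, h2, h3, fun i j => by linarith [h5 i, h4 j], fun i => ?_, h7⟩
    have hn' : ((w.length + 1 : ℕ) : ℤ) ≤ n := by exact_mod_cast hn
    exact ⟨(h6 i).1.trans hn', (h6 i).2.trans hn'⟩

end Vale.Agent.H14.MT
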