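import Vale.Agent.H14.MT.Speed
import Vale.Agent.H14.MT.Mark
import Vale.Agent.H14.MT.Block
import Vale.Agent.H14.MT.Ping

/-!
P125, T10: the contradiction.
-/

namespace Vale.Agent.H14.MT

lemma t10_isReduced_reduce (w : List Ltr) : FreeGroup.IsReduced (FreeGroup.reduce w) :=
  FreeGroup.IsReduced.of_reduce_eq FreeGroup.reduce.idem

lemma t10_reduce_length (w : List Ltr) : (FreeGroup.reduce w).length ≤ w.length :=
  FreeGroup.reduce.red.length_le

lemma t10_toR_neg {C : Type} (x : C →₀ ℤ) : toR (-x) = -toR x := by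
  ext c; simp [toR]

theorem contra {p K θ : ℝ} (hp : 1 < p) (hK : 0 ≤ K) (hθ : 0 < θ)
    {N : ∀ (C : Type) [LinearOrder C], Seminorm ℝ (C →₀ ℝ)} (hN : SpreadNorm θ N)
    (hs : StarIneq p K N) : False := by
  obtain ⟨c, hc, hb⟩ := block_bound hθ hN
  obtain ⟨g, hg⟩ := ping
  have key : ∀ n : ℕ, 1 ≤ n → (c * (n / 2)) ^ p ≤ K ^ p * n := by
    intro n hn
    obtain ⟨m, A, hm, hA, hF, hblk⟩ := hb n
    obtain ⟨g', hg'⟩ := cocy_blow g (b0 A) m
    have h1 := hs (ℝ ×ₗ Fin m) g' (fun i => blow m (b0 A i)) n hn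
    set F := N ℕ (alt m A) with hFdef
    -- the letters
    have hlet : ∀ s : Ltr, N (ℝ ×ₗ Fin m) (toR (gb g' (fun i => blow m (b0 A i)) s)) = F := by
      rintro ⟨i, e⟩
      cases e
      · simp only [gb, Bool.false_eq_true, if_false]
        rw [t10_toR_neg, map_neg_eq_map, toR_mapDomain, hN.mono _ _ _ _ (fun x _ y _ h => by simpa using h)]
        exact block_b0 hN m A i
      · simp only [gb, if_true]
        exact block_b0 hN m A i
    simp only [hlet] at h1
    have hcard : ∑ _s : Ltr, F ^ p = 4 * F ^ p := by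
      rw [Finset.sum_const, Finset.card_univ]
      simp
    rw [hcard] at h1
    have h2 : (1 / 4 : ℝ) * (4 * F ^ p) = F ^ p := by ring
    rw [h2] at h1
    -- lower bound for the words
    have hw : ∀ w : Fin n → Ltr,
        c * (FreeGroup.reduce (List.ofFn w)).length * F ≤
          N (ℝ ×ₗ Fin m) (toR (cocy g' (fun i => blow m (b0 A i)) (List.ofFn w))) := by
      intro w
      rw [hg', ← cocy_reduce]
      set v := FreeGroup.reduce (List.ofFn w) with hv
      have hvl : v.length ≤ n := by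
        have := t10_reduce_length (List.ofFn w)
        simpa using this
      rcases eq_or_ne v [] with h0 | h0
      · rw [h0]; simp
      · exact hblk v.length _ hvl (hg A n v h0 (t10_isReduced_reduce _) hvl)
    have hpow : ∀ w : Fin n → Ltr,
        (c * (FreeGroup.reduce (List.ofFn w)).length * F) ^ p ≤
          N (ℝ ×ₗ Fin m) (toR (cocy g' (fun i => blow m (b0 A i)) (List.ofFn w))) ^ p := by
      intro w
      exact Real.rpow_le_rpow (by positivity) (hw w) (by linarith)
    have h3 : (1 / (4 : ℝ) ^ n) * ∑ w : Fin n → Ltr,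
        (c * (FreeGroup.reduce (List.ofFn w)).length * F) ^ p ≤ K ^ p * n * F ^ p := by
      refine le_trans ?_ h1
      exact mul_le_mul_of_nonneg_left (Finset.sum_le_sum fun w _ => hpow w) (by positivity)
    -- power mean
    have h4 : (∑ w : Fin n → Ltr, (1 / (4 : ℝ) ^ n) *
        (c * (FreeGroup.reduce (List.ofFn w)).length * F)) ^ p ≤
        ∑ w : Fin n → Ltr, (1 / (4 : ℝ) ^ n) *
          (c * (FreeGroup.reduce (List.ofFn w)).length * F) ^ p := by
      refine Real.rpow_arith_mean_le_arith_mean_rpow _ _ _ (fun _ _ => by positivity) ?_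
        (fun _ _ => by positivity) hp.le
      rw [Finset.sum_const, Finset.card_univ]
      simp
    rw [← Finset.mul_sum, ← Finset.mul_sum] at h4
    have h5 : c * (n / 2) * F ≤ (1 / (4 : ℝ) ^ n) * ∑ w : Fin n → Ltr,
        (c * (FreeGroup.reduce (List.ofFn w)).length * F) := by
      rw [← Finset.sum_mul, ← Finset.mul_sum]
      have := speed n
      rw [div_mul_eq_mul_div, one_mul, le_div_iff₀ (by positivity)]
      have h6 : c * (n / 2) * F * 4 ^ n = (c * F) * ((4 : ℝ) ^ n * (n / 2)) := by ring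
      rw [h6]
      calc (c * F) * ((4 : ℝ) ^ n * (n / 2)) ≤ (c * F) *
          ∑ w : Fin n → Ltr, ((FreeGroup.reduce (List.ofFn w)).length : ℝ) :=
            mul_le_mul_of_nonneg_left this (by positivity)
        _ = _ := by ring
    have h7 : (c * (n / 2) * F) ^ p ≤ K ^ p * n * F ^ p :=
      (Real.rpow_le_rpow (by positivity) h5 (by linarith)).trans (h4.trans h3)
    rw [Real.mul_rpow (by positivity) hF.le] at h7
    exact le_of_mul_le_mul_right h7 (Real.rpow_pos_of_pos hF p)
  -- contradiction for large `n`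
  have h8 : ∀ n : ℕ, 1 ≤ n → (n : ℝ) ^ (p - 1) ≤ K ^ p / (c / 2) ^ p := by
    intro n hn
    have hn0 : (0 : ℝ) < n := by exact_mod_cast hn
    have h9 := key n hn
    have h10 : c * ((n : ℝ) / 2) = (c / 2) * n := by ring
    rw [h10, Real.mul_rpow (by positivity) hn0.le] at h9
    have h11 : (n : ℝ) ^ p = (n : ℝ) ^ (p - 1) * n := by
      rw [← Real.rpow_add_one hn0.ne']
      congr 1; ring
    rw [h11] at h9
    rw [le_div_iff₀ (by positivity)]
    have h12 : (n : ℝ) ^ (p - 1) * (c / 2) ^ p * n ≤ K ^ p * n := by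
      calc (n : ℝ) ^ (p - 1) * (c / 2) ^ p * n = (c / 2) ^ p * ((n : ℝ) ^ (p - 1) * n) := by ring
        _ ≤ _ := h9
    exact le_of_mul_le_mul_right h12 hn0
  have h13 : Filter.Tendsto (fun n : ℕ => (n : ℝ) ^ (p - 1)) Filter.atTop Filter.atTop :=
    (tendsto_rpow_atTop (by linarith)).comp tendsto_natCast_atTop_atTop
  obtain ⟨n, hn1, hn2⟩ := ((h13.eventually_gt_atTop (K ^ p / (c / 2) ^ p)).and
    (Filter.eventually_ge_atTop 1)).exists
  exact absurd (h8 n hn2) (not_le.2 hn1)

end Vale.Agent.H14.MT
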