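import Vale.Agent.H14.MT.Defs

/-!
P125: internal definitions shared by all modules.
-/

namespace Vale.Agent.H14.MT

/-! ### renorming and trees -/
section X
variable {X : Type*} [NormedAddCommGroup X] [NormedSpace ℝ X]

/-- remove all open slices of `C` of diameter at most `ε` -/
def der (ε : ℝ) (C : Set X) : Set X :=
  {x | x ∈ C ∧ ∀ (φ : X →L[ℝ] ℝ) (c : ℝ),
    (∀ y ∈ C, ∀ z ∈ C, c < φ y → c < φ z → ‖y - z‖ ≤ ε) → φ x ≤ c}

/-- iterated derived sets of the unit ball -/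
def derN (ε : ℝ) : ℕ → Set X
  | 0 => Metric.closedBall 0 1
  | n + 1 => der ε (derN ε n)

/-- `x` is the root of an `ε`-separated martingale tree of height `n` in the unit ball -/
def Tree (ε : ℝ) : ℕ → X → Prop
  | 0, x => ‖x‖ ≤ 1
  | n + 1, x => ∃ (k : ℕ) (l : Fin k → ℝ) (y : Fin k → X), (∀ i, 0 ≤ l i) ∧ ∑ i, l i = 1 ∧
      ∑ i, l i • y i = x ∧ (∀ i, ε ≤ ‖y i - x‖) ∧ ∀ i, Tree ε n (y i)

end X

/-! ### Markov type for seminorms on finitely supported sequences -/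

/-- Markov type `p` inequality for the seminorm `ν`. -/
def MTNorm (p K : ℝ) (ν : Seminorm ℝ (ℕ →₀ ℝ)) : Prop :=
  ∀ (S : Type) [Fintype S] [DecidableEq S] (P : Matrix S S ℝ) (π : S → ℝ), IsChain P π →
    ∀ (f : S → (ℕ →₀ ℝ)) (t : ℕ), 1 ≤ t →
      ∑ i, ∑ j, π i * (P ^ t) i j * ν (f j - f i) ^ p ≤
        K ^ p * t * ∑ i, ∑ j, π i * P i j * ν (f j - f i) ^ p

/-- sum of the coefficients of `x` at the places `≥ c` -/
noncomputable def tail {C : Type} [LinearOrder C] (x : C →₀ ℝ) (c : C) : ℝ :=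
  ∑ i ∈ x.support with c ≤ i, x i

/-- `ν` is normalised and bounds the tails of sequences supported below `n` -/
def Good (θ : ℝ) (n : ℕ) (ν : Seminorm ℝ (ℕ →₀ ℝ)) : Prop :=
  (∀ i, ν (Finsupp.single i 1) ≤ 1) ∧
    ∀ a : ℕ →₀ ℝ, (∀ i ∈ a.support, i < n) → ∀ k, θ * |tail a k| ≤ ν a

/-! ### spreadable laws on increasing lists, markings -/

/-- `ρ m` (`m ≤ M`) are laws on strictly increasing lists of length `m` of numbers `< D`, such
that deleting any entry from `ρ (m+1)` gives `ρ m` up to `ε`. -/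
structure Spread (M D : ℕ) (ε : ℝ) (ρ : ℕ → (List ℕ →₀ ℝ)) : Prop where
  nonneg : ∀ m l, 0 ≤ ρ m l
  sum_one : ∀ m ≤ M, ((ρ m).sum fun _ a => a) = 1
  supp : ∀ m ≤ M, ∀ l ∈ (ρ m).support, l.length = m ∧ l.Pairwise (· < ·) ∧ ∀ x ∈ l, x < D
  del : ∀ m, m + 1 ≤ M → ∀ i ≤ m, ∀ F : List ℕ → ℝ, (∀ l, |F l| ≤ 1) →
    |((ρ (m + 1)).sum fun l a => a * F (l.eraseIdx i)) - ((ρ m).sum fun l a => a * F l)| ≤ ε

section Mark
variable {C : Type} [LinearOrder C]

/-- number of elements of `T` below `c` -/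
def rk (T : Finset C) (c : C) : ℕ := (T.filter (· < c)).card

/-- the marking given by the list `l` (only its values on `T` matter) -/
def mkm (T : Finset C) (l : List ℕ) (c : C) : ℕ := l.getD (rk T c) 0

/-- expectation over the marking law -/
noncomputable def Em (ρ : ℕ → (List ℕ →₀ ℝ)) (T : Finset C) (Φ : (C → ℕ) → ℝ) : ℝ :=
  (ρ T.card).sum fun l a => a * Φ (mkm T l)

end Mark

/-- integer vector as real vector -/
noncomputable def toR {C : Type} (x : C →₀ ℤ) : C →₀ ℝ :=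
  x.mapRange (fun k : ℤ => (k : ℝ)) (by simp)

/-! ### letters, cocycles -/

/-- letters of the free group of rank 2 (as in `FreeGroup`) -/
abbrev Ltr := Fin 2 × Bool

/-- inverse letter -/
def linv (s : Ltr) : Ltr := (s.1, !s.2)

section Cocycle
variable {C : Type} [LinearOrder C]

/-- the automorphism attached to a letter -/
def ga (g : Fin 2 → (C ≃o C)) (s : Ltr) : C ≃o C := if s.2 then g s.1 else (g s.1).symm

/-- cocycle on letters -/
noncomputable def gb (g : Fin 2 → (C ≃o C)) (b : Fin 2 → (C →₀ ℤ)) (s : Ltr) : C →₀ ℤ :=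
  if s.2 then b s.1 else -((b s.1).mapDomain (g s.1).symm)

/-- cocycle on words -/
noncomputable def cocy (g : Fin 2 → (C ≃o C)) (b : Fin 2 → (C →₀ ℤ)) : List Ltr → (C →₀ ℤ)
  | [] => 0
  | s :: w => gb g b s + (cocy g b w).mapDomain (ga g s)

theorem cocy_nil (g : Fin 2 → (C ≃o C)) (b : Fin 2 → (C →₀ ℤ)) : cocy g b [] = 0 := rfl

theorem cocy_cons (g : Fin 2 → (C ≃o C)) (b : Fin 2 → (C →₀ ℤ)) (s : Ltr) (w : List Ltr) :
    cocy g b (s :: w) = gb g b s + (cocy g b w).mapDomain (ga g s) := rfl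

end Cocycle

/-! ### order invariant norms -/

/-- a family of seminorms on finitely supported functions on all linear orders, depending only on
the order of the support -/
structure SpreadNorm (θ : ℝ) (N : ∀ (C : Type) [LinearOrder C], Seminorm ℝ (C →₀ ℝ)) : Prop where
  single_le : ∀ (C : Type) [LinearOrder C] (c : C), N C (Finsupp.single c 1) ≤ 1
  tail_le : ∀ (C : Type) [LinearOrder C] (x : C →₀ ℝ) (c : C), θ * |tail x c| ≤ N C x
  mono : ∀ (C C' : Type) [LinearOrder C] [LinearOrder C'] (g : C → C') (x : C →₀ ℝ),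
    StrictMonoOn g x.support → N C' (x.mapDomain g) = N C x

/-- the Markov type inequality for cocycles of the free group -/
def StarIneq (p K : ℝ) (N : ∀ (C : Type) [LinearOrder C], Seminorm ℝ (C →₀ ℝ)) : Prop :=
  ∀ (C : Type) [LinearOrder C] (g : Fin 2 → (C ≃o C)) (b : Fin 2 → (C →₀ ℤ)) (n : ℕ), 1 ≤ n →
    (1 / (4 : ℝ) ^ n) * ∑ w : Fin n → Ltr, N C (toR (cocy g b (List.ofFn w))) ^ p ≤
      K ^ p * n * ((1 / 4) * ∑ s : Ltr, N C (toR (gb g b s)) ^ p)

/-- blow-up of every point into `m` consecutive points -/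
noncomputable def blow {C : Type} [LinearOrder C] {R : Type} [AddCommMonoid R] (m : ℕ)
    (x : C →₀ R) : (C ×ₗ Fin m) →₀ R :=
  ∑ i : Fin m, x.mapDomain (fun c => toLex (c, i))

/-- the alternating sum of `2 A` blocks of length `m` -/
noncomputable def alt (m A : ℕ) : ℕ →₀ ℝ :=
  ∑ k ∈ Finset.range (2 * A), ∑ i ∈ Finset.range m, Finsupp.single (k * m + i) ((-1 : ℝ) ^ k)

/-- `x` consists of `L` nested arcs repeated with period one, with `A` periods and all offsets at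
most `n` -/
def Blk (n A L : ℕ) (x : ℝ →₀ ℤ) : Prop :=
  ∃ (ℓ r : Fin L → ℝ) (u v : Fin L → ℤ), StrictMono ℓ ∧ StrictAnti r ∧
    (∀ i j, ℓ i < r j) ∧ (∀ i j, r i < ℓ j + 1) ∧ (∀ i, |u i| ≤ n ∧ |v i| ≤ n) ∧
    x = ∑ i, ∑ k ∈ Finset.range A, (Finsupp.single (ℓ i + u i + k) 1 -
      Finsupp.single (r i + v i + k) 1)

/-- generating cocycle: left and right end-points of the arcs `[i/4, i/4 + 1/8] + k`, `k < A` -/
noncomputable def b0 (A : ℕ) (i : Fin 2) : ℝ →₀ ℤ :=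
  ∑ k ∈ Finset.range A, (Finsupp.single ((i : ℕ) / 4 + (k : ℝ)) 1 -
    Finsupp.single ((i : ℕ) / 4 + 1 / 8 + (k : ℝ)) 1)

end Vale.Agent.H14.MT
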