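import Mathlib

/-!
P125: definitions used in the final statement.
-/

namespace Vale.Agent.H14.MT

/-- `P` is the transition matrix of a finite Markov chain that is stationary and reversible for
the probability distribution `π`. -/
structure IsChain {S : Type} [Fintype S] (P : Matrix S S ℝ) (π : S → ℝ) : Prop where
  nonneg : ∀ i j, 0 ≤ P i j
  row : ∀ i, ∑ j, P i j = 1
  pi_nonneg : ∀ i, 0 ≤ π i
  pi_sum : ∑ i, π i = 1
  rev : ∀ i j, π i * P i j = π j * P j i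

/-- Ball's Markov type `p` inequality with constant `K`:
`E ‖f (Z_t) - f (Z_0)‖ ^ p ≤ K ^ p * t * E ‖f (Z_1) - f (Z_0)‖ ^ p` for every finite stationary
reversible chain, every `f : S → X` and every `t ≥ 1`. Here `E φ (Z_0, Z_t)` is
`∑ i j, π i * (P ^ t) i j * φ (i, j)`. -/
def MarkovTypeWith (X : Type*) [NormedAddCommGroup X] [NormedSpace ℝ X] (p K : ℝ) : Prop :=
  ∀ (S : Type) [Fintype S] [DecidableEq S] (P : Matrix S S ℝ) (π : S → ℝ), IsChain P π →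
    ∀ (f : S → X) (t : ℕ), 1 ≤ t →
      ∑ i, ∑ j, π i * (P ^ t) i j * ‖f j - f i‖ ^ p ≤
        K ^ p * t * ∑ i, ∑ j, π i * P i j * ‖f j - f i‖ ^ p

/-- `X` has Markov type `p`. -/
def HasMarkovType (X : Type*) [NormedAddCommGroup X] [NormedSpace ℝ X] (p : ℝ) : Prop :=
  ∃ K : ℝ, 0 ≤ K ∧ MarkovTypeWith X p K

/-- The norm `N` on `X` is uniformly convex. -/
def IsUniformlyConvex {X : Type*} [NormedAddCommGroup X] [NormedSpace ℝ X]
    (N : Seminorm ℝ X) : Prop :=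
  ∀ ε : ℝ, 0 < ε → ∃ δ : ℝ, 0 < δ ∧ ∀ x y : X, N x ≤ 1 → N y ≤ 1 → ε ≤ N (x - y) →
    N ((1 / 2 : ℝ) • (x + y)) ≤ 1 - δ

/-- `X` admits an equivalent uniformly convex norm. -/
def Superreflexive (X : Type*) [NormedAddCommGroup X] [NormedSpace ℝ X] : Prop :=
  ∃ N : Seminorm ℝ X, (∃ a b : ℝ, 0 < a ∧ 0 < b ∧ ∀ x, a * ‖x‖ ≤ N x ∧ N x ≤ b * ‖x‖) ∧
    IsUniformlyConvex N

end Vale.Agent.H14.MT
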