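import Vale.Agent.H14.MT.Mark

/-!
P125, T7a: the order invariant limit norm.
-/

open Filter Topology

namespace Vale.Agent.H14.MT

/-- Minkowski's inequality for finite weighted sums -/
theorem t7_minkowski {ι : Type*} (s : Finset ι) (w f g h : ι → ℝ) {p : ℝ} (hp : 1 ≤ p)
    (hw : ∀ i, 0 ≤ w i) (hf : ∀ i, 0 ≤ f i) (hg : ∀ i, 0 ≤ g i) (hh : ∀ i, 0 ≤ h i)
    (hfg : ∀ i, h i ≤ f i + g i) :
    (∑ i ∈ s, w i * h i ^ p) ^ (1 / p) ≤
      (∑ i ∈ s, w i * f i ^ p) ^ (1 / p) + (∑ i ∈ s, w i * g i ^ p) ^ (1 / p) := by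
  have hp0 : 0 < p := by linarith
  have hroot : ∀ (i : ι) (a : ℝ), 0 ≤ a → |w i ^ (1 / p) * a| ^ p = w i * a ^ p := by
    intro i a ha
    rw [abs_of_nonneg (mul_nonneg (Real.rpow_nonneg (hw i) _) ha),
      Real.mul_rpow (Real.rpow_nonneg (hw i) _) ha, ← Real.rpow_mul (hw i),
      one_div_mul_cancel hp0.ne', Real.rpow_one]
  have h1 := Real.Lp_add_le s (fun i => w i ^ (1 / p) * f i) (fun i => w i ^ (1 / p) * g i) hp
  have e1 : ∀ i ∈ s, |w i ^ (1 / p) * f i| ^ p = w i * f i ^ p := fun i _ => hroot i _ (hf i)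
  have e2 : ∀ i ∈ s, |w i ^ (1 / p) * g i| ^ p = w i * g i ^ p := fun i _ => hroot i _ (hg i)
  have e3 : ∀ i ∈ s, w i * h i ^ p ≤ |w i ^ (1 / p) * f i + w i ^ (1 / p) * g i| ^ p := by
    intro i _
    rw [← mul_add, hroot i _ (add_nonneg (hf i) (hg i))]
    exact mul_le_mul_of_nonneg_left
      (Real.rpow_le_rpow (hh i) (hfg i) hp0.le) (hw i)
  rw [Finset.sum_congr rfl e1, Finset.sum_congr rfl e2] at h1
  refine le_trans ?_ h1
  refine Real.rpow_le_rpow ?_ (Finset.sum_le_sum e3) (by positivity)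
  exact Finset.sum_nonneg fun i _ => mul_nonneg (hw i) (Real.rpow_nonneg (hh i) _)

/-- the data of the construction -/
structure T7Data (p θ : ℝ) where
  hp : 1 ≤ p
  hθ : 0 ≤ θ
  ρ : ℕ → ℕ → (List ℕ →₀ ℝ)
  D : ℕ → ℕ
  hρ : ∀ q, Spread q (D q) (1 / ((q : ℝ) + 1)) (ρ q)
  ν : ℕ → Seminorm ℝ (ℕ →₀ ℝ)
  hν : ∀ q, Good θ (D q) (ν q)

namespace T7Data

variable {p θ : ℝ} (d : T7Data p θ)

section
variable {C : Type} [LinearOrder C]

/-- the averages -/
noncomputable def Q (q : ℕ) (T : Finset C) (x : C →₀ ℝ) : ℝ :=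
  Em (d.ρ q) T fun j => d.ν q (x.mapDomain j) ^ p

/-- `ℓ¹` norm -/
noncomputable def B1 (x : C →₀ ℝ) : ℝ := ∑ c ∈ x.support, |x c|

theorem B1_nonneg (x : C →₀ ℝ) : 0 ≤ B1 x := Finset.sum_nonneg fun _ _ => abs_nonneg _

theorem ν_le (q : ℕ) (x : C →₀ ℝ) (j : C → ℕ) : d.ν q (x.mapDomain j) ≤ B1 x := by
  rw [Finsupp.mapDomain, Finsupp.sum, B1]
  refine (Finset.le_sum_of_subadditive (d.ν q) (map_zero _).le (map_add_le_add _) _ _).trans ?_
  refine Finset.sum_le_sum fun c _ => ?_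
  have h1 : Finsupp.single (j c) (x c) = (x c) • Finsupp.single (j c) (1 : ℝ) := by simp
  rw [h1, map_smul_eq_mul, Real.norm_eq_abs]
  calc |x c| * d.ν q (Finsupp.single (j c) 1) ≤ |x c| * 1 :=
        mul_le_mul_of_nonneg_left ((d.hν q).1 _) (abs_nonneg _)
    _ = |x c| := mul_one _

theorem Q_nonneg (q : ℕ) (T : Finset C) (x : C →₀ ℝ) : 0 ≤ d.Q q T x :=
  Em_nonneg (d.hρ q) T fun _ => Real.rpow_nonneg (apply_nonneg _ _) _

theorem Q_le (q : ℕ) (T : Finset C) (hT : T.card ≤ q) (x : C →₀ ℝ) : d.Q q T x ≤ B1 x ^ p := by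
  have hp0 : 0 ≤ p := by linarith [d.hp]
  calc d.Q q T x ≤ Em (d.ρ q) T fun _ => B1 x ^ p :=
        Em_mono (d.hρ q) T fun j => Real.rpow_le_rpow (apply_nonneg _ _) (d.ν_le q x j) hp0
    _ = _ := Em_const (d.hρ q) T hT _

theorem Q_sub (q : ℕ) (T : Finset C) (hT : T.card ≤ q) (x : C →₀ ℝ) (hx : x.support ⊆ T) :
    |d.Q q T x - d.Q q x.support x| ≤ B1 x ^ p * T.card * (1 / ((q : ℝ) + 1)) := by
  have hp0 : 0 ≤ p := by linarith [d.hp]
  refine Em_sub (d.hρ q) T x.support hx hT _ (Real.rpow_nonneg (B1_nonneg x) _) _ ?_ ?_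
  · intro j
    rw [abs_of_nonneg (Real.rpow_nonneg (apply_nonneg _ _) _)]
    exact Real.rpow_le_rpow (apply_nonneg _ _) (d.ν_le q x j) hp0
  · intro j j' h
    rw [Finsupp.mapDomain_congr h]

theorem eventually_ge (m : ℕ) : ∀ᶠ q in (hyperfilter ℕ : Filter ℕ), m ≤ q :=
  Nat.hyperfilter_le_atTop (eventually_ge_atTop m)

theorem exists_lim {f : ℕ → ℝ} {a b : ℝ}
    (h : ∀ᶠ q in (hyperfilter ℕ : Filter ℕ), f q ∈ Set.Icc a b) :
    ∃ L, Tendsto f (hyperfilter ℕ : Filter ℕ) (𝓝 L) := by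
  obtain ⟨L, -, hL⟩ := isCompact_Icc.ultrafilter_le_nhds ((hyperfilter ℕ).map f)
    (by rw [le_principal_iff]; exact h)
  exact ⟨L, hL⟩

theorem exists_limQ (x : C →₀ ℝ) :
    ∃ L, Tendsto (fun q => d.Q q x.support x) (hyperfilter ℕ : Filter ℕ) (𝓝 L) := by
  refine exists_lim (a := 0) (b := B1 x ^ p) ?_
  filter_upwards [eventually_ge x.support.card] with q hq
  exact ⟨d.Q_nonneg q _ x, d.Q_le q _ hq x⟩

/-- the limit of the averages -/
noncomputable def L (x : C →₀ ℝ) : ℝ := (d.exists_limQ x).choose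

theorem tendsto_L0 (x : C →₀ ℝ) :
    Tendsto (fun q => d.Q q x.support x) (hyperfilter ℕ : Filter ℕ) (𝓝 (d.L x)) :=
  (d.exists_limQ x).choose_spec

theorem tendsto_inv : Tendsto (fun q : ℕ => 1 / ((q : ℝ) + 1)) (hyperfilter ℕ : Filter ℕ)
    (𝓝 0) := tendsto_one_div_add_atTop_nhds_zero_nat.mono_left Nat.hyperfilter_le_atTop

theorem tendsto_L (x : C →₀ ℝ) (T : Finset C) (hT : x.support ⊆ T) :
    Tendsto (fun q => d.Q q T x) (hyperfilter ℕ : Filter ℕ) (𝓝 (d.L x)) := by
  have h1 : Tendsto (fun q => d.Q q T x - d.Q q x.support x) (hyperfilter ℕ : Filter ℕ)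
      (𝓝 0) := by
    have h2 : Tendsto (fun q : ℕ => B1 x ^ p * T.card * (1 / ((q : ℝ) + 1)))
        (hyperfilter ℕ : Filter ℕ) (𝓝 0) := by
      have := tendsto_inv.const_mul (B1 x ^ p * T.card)
      rwa [mul_zero] at this
    refine squeeze_zero_norm' ?_ h2
    filter_upwards [eventually_ge T.card] with q hq
    exact d.Q_sub q T hq x hT
  have h3 := h1.add (d.tendsto_L0 x)
  simpa using h3

theorem L_nonneg (x : C →₀ ℝ) : 0 ≤ d.L x :=
  ge_of_tendsto' (d.tendsto_L0 x) fun q => d.Q_nonneg q _ x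

theorem L_unique {x : C →₀ ℝ} {T : Finset C} (hT : x.support ⊆ T) {a : ℝ}
    (h : Tendsto (fun q => d.Q q T x) (hyperfilter ℕ : Filter ℕ) (𝓝 a)) : d.L x = a :=
  tendsto_nhds_unique (d.tendsto_L x T hT) h

/-- the value of the norm -/
noncomputable def Nv (x : C →₀ ℝ) : ℝ := d.L x ^ (1 / p)

theorem tendsto_Nv (x : C →₀ ℝ) (T : Finset C) (hT : x.support ⊆ T) :
    Tendsto (fun q => d.Q q T x ^ (1 / p)) (hyperfilter ℕ : Filter ℕ) (𝓝 (d.Nv x)) :=
  (d.tendsto_L x T hT).rpow_const (Or.inr (by have := d.hp; positivity))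

theorem Q_add (q : ℕ) (T : Finset C) (x y : C →₀ ℝ) :
    d.Q q T (x + y) ^ (1 / p) ≤ d.Q q T x ^ (1 / p) + d.Q q T y ^ (1 / p) := by
  unfold Q Em
  simp only [Finsupp.sum]
  refine t7_minkowski _ _ (fun l => d.ν q (x.mapDomain (mkm T l)))
    (fun l => d.ν q (y.mapDomain (mkm T l))) (fun l => d.ν q ((x + y).mapDomain (mkm T l)))
    d.hp (fun l => (d.hρ q).nonneg _ l) (fun _ => apply_nonneg _ _) (fun _ => apply_nonneg _ _)
    (fun _ => apply_nonneg _ _) fun l => ?_
  rw [Finsupp.mapDomain_add]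
  exact map_add_le_add _ _ _

theorem Nv_add (x y : C →₀ ℝ) : d.Nv (x + y) ≤ d.Nv x + d.Nv y := by
  classical
  have hx : x.support ⊆ x.support ∪ y.support := Finset.subset_union_left
  have hy : y.support ⊆ x.support ∪ y.support := Finset.subset_union_right
  exact le_of_tendsto_of_tendsto' (d.tendsto_Nv (x + y) _ Finsupp.support_add)
    ((d.tendsto_Nv x _ hx).add (d.tendsto_Nv y _ hy)) fun q => d.Q_add q _ x y

theorem Q_smul (q : ℕ) (T : Finset C) (a : ℝ) (x : C →₀ ℝ) :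
    d.Q q T (a • x) = |a| ^ p * d.Q q T x := by
  unfold Q
  rw [← Em_smul]
  congr 1
  funext j
  rw [Finsupp.mapDomain_smul, map_smul_eq_mul, Real.norm_eq_abs,
    Real.mul_rpow (abs_nonneg _) (apply_nonneg _ _)]

theorem Nv_smul (a : ℝ) (x : C →₀ ℝ) : d.Nv (a • x) = |a| * d.Nv x := by
  have h1 : d.L (a • x) = |a| ^ p * d.L x := by
    refine d.L_unique (T := x.support) Finsupp.support_smul ?_
    simp only [d.Q_smul]
    exact (d.tendsto_L0 x).const_mul _
  have hp0 : p ≠ 0 := by linarith [d.hp]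
  unfold Nv
  rw [h1, Real.mul_rpow (Real.rpow_nonneg (abs_nonneg _) _) (d.L_nonneg x),
    ← Real.rpow_mul (abs_nonneg _), mul_one_div_cancel hp0, Real.rpow_one]

end

/-- the order invariant norm -/
noncomputable def N (C : Type) [LinearOrder C] : Seminorm ℝ (C →₀ ℝ) :=
  Seminorm.of (fun x => d.Nv x) (fun x y => d.Nv_add x y)
    (fun a x => by rw [d.Nv_smul, Real.norm_eq_abs])

theorem N_apply {C : Type} [LinearOrder C] (x : C →₀ ℝ) : d.N C x = d.Nv x := rfl

theorem N_rpow {C : Type} [LinearOrder C] (x : C →₀ ℝ) : d.N C x ^ p = d.L x := by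
  have hp0 : p ≠ 0 := by linarith [d.hp]
  rw [N_apply, Nv, ← Real.rpow_mul (d.L_nonneg x), one_div_mul_cancel hp0, Real.rpow_one]

/-- packaged convergence -/
theorem tendsto_N {C : Type} [LinearOrder C] (x : C →₀ ℝ) (T : Finset C) (hT : x.support ⊆ T) :
    Tendsto (fun q => Em (d.ρ q) T fun j => d.ν q (x.mapDomain j) ^ p)
      (hyperfilter ℕ : Filter ℕ) (𝓝 (d.N C x ^ p)) := by
  rw [d.N_rpow]
  exact d.tendsto_L x T hT

theorem spreadNorm : SpreadNorm θ d.N where
  single_le := by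
    intro C _ c
    have hp0 : 0 < p := by linarith [d.hp]
    have h1 : d.L (Finsupp.single c (1 : ℝ)) ≤ 1 := by
      refine le_of_tendsto (d.tendsto_L0 _) ?_
      filter_upwards [eventually_ge (Finsupp.single c (1 : ℝ)).support.card] with q hq
      refine (d.Q_le q _ hq _).trans ?_
      have hB : B1 (Finsupp.single c (1 : ℝ)) = 1 := by
        unfold B1
        simp [Finsupp.support_single]
      rw [hB, Real.one_rpow]
    rw [N_apply, Nv]
    calc d.L (Finsupp.single c (1 : ℝ)) ^ (1 / p) ≤ 1 ^ (1 / p) :=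
          Real.rpow_le_rpow (d.L_nonneg _) h1 (by positivity)
      _ = 1 := Real.one_rpow _
  tail_le := by
    intro C _ x c
    have hp0 : 0 < p := by linarith [d.hp]
    have hθ := d.hθ
    rcases (x.support.filter (c ≤ ·)).eq_empty_or_nonempty with he | hne
    · have : tail x c = 0 := by
        unfold tail
        rw [he, Finset.sum_empty]
      rw [this, abs_zero, mul_zero]
      exact apply_nonneg _ _
    set c0 := (x.support.filter (c ≤ ·)).min' hne with hc0
    have hc0mem := Finset.min'_mem _ hne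
    rw [← hc0] at hc0mem
    obtain ⟨hc0s, hcc0⟩ := Finset.mem_filter.1 hc0mem
    have h1 : (θ * |tail x c|) ^ p ≤ d.L x := by
      refine ge_of_tendsto (d.tendsto_L0 x) ?_
      filter_upwards [eventually_ge x.support.card] with q hq
      rw [← Em_const (d.hρ q) x.support hq ((θ * |tail x c|) ^ p)]
      refine Em_mono' (d.hρ q) _ hq fun j hj hjD => ?_
      refine Real.rpow_le_rpow (by positivity) ?_ hp0.le
      have hinj : Set.InjOn j x.support := hj.injOn
      have hsupp : (x.mapDomain j).support = x.support.image j :=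
        Finsupp.mapDomain_support_of_injOn x hinj
      have htail : tail (x.mapDomain j) (j c0) = tail x c := by
        unfold tail
        rw [hsupp]
        have h2 : (x.support.image j).filter (j c0 ≤ ·) =
            (x.support.filter (c ≤ ·)).image j := by
          ext k
          simp only [Finset.mem_filter, Finset.mem_image]
          constructor
          · rintro ⟨⟨e, he, rfl⟩, hk⟩
            refine ⟨e, ⟨he, ?_⟩, rfl⟩
            exact hcc0.trans ((hj.le_iff_le hc0s he).1 hk)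
          · rintro ⟨e, ⟨he, hce⟩, rfl⟩
            refine ⟨⟨e, he, rfl⟩, ?_⟩
            exact (hj.le_iff_le hc0s he).2
              (Finset.min'_le _ _ (Finset.mem_filter.2 ⟨he, hce⟩))
        rw [h2, Finset.sum_image fun a ha b hb hab => hinj (Finset.mem_filter.1 ha).1
          (Finset.mem_filter.1 hb).1 hab]
        refine Finset.sum_congr rfl fun e he => ?_
        exact Finsupp.mapDomain_apply' (x.support : Set C) x subset_rfl hinj
          (Finset.mem_filter.1 he).1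
      rw [← htail]
      refine (d.hν q).2 _ (fun i hi => ?_) _
      rw [hsupp] at hi
      obtain ⟨e, he, rfl⟩ := Finset.mem_image.1 hi
      exact hjD e he
    rw [N_apply, Nv]
    calc θ * |tail x c| = ((θ * |tail x c|) ^ p) ^ (1 / p) := by
          rw [← Real.rpow_mul (by positivity), mul_one_div_cancel hp0.ne', Real.rpow_one]
      _ ≤ _ := Real.rpow_le_rpow (by positivity) h1 (by positivity)
  mono := by
    intro C C' _ _ g x hg
    have hinj : Set.InjOn g x.support := hg.injOn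
    have hsupp : (x.mapDomain g).support = x.support.image g :=
      Finsupp.mapDomain_support_of_injOn x hinj
    rw [N_apply, N_apply, Nv, Nv]
    congr 1
    refine d.L_unique (T := x.support.image g) hsupp.subset ?_
    have h1 : ∀ q, d.Q q (x.support.image g) (x.mapDomain g) = d.Q q x.support x := by
      intro q
      refine Em_iso (d.ρ q) x.support g hg _ _ fun j' j hj => ?_
      rw [← Finsupp.mapDomain_comp, Finsupp.mapDomain_congr (f := j' ∘ g) (g := j)
        fun c hc => hj c hc]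
    simp only [h1]
    exact d.tendsto_L0 x

end T7Data

end Vale.Agent.H14.MT
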