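import Vale.Agent.H14.MT.Core
import Vale.Agent.H14.MT.Mark
import Vale.Agent.H14.MT.Chain

/-!
P125, row T6: the stage inequality (resampling of markings gives a finite reversible chain).
-/

open Finset

namespace Vale.Agent.H14.MT


/-! ### an optimal coupling -/

section Coup
variable {J κ : Type*} [Fintype J]

open Classical in
/-- mass of a fibre -/
noncomputable def t6_m (r : J → ℝ) (P : J → κ) (k : κ) : ℝ := ∑ l, if P l = k then r l else 0

open Classical in
/-- the coupling weights -/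
noncomputable def t6_W (r : J → ℝ) (P Q : J → κ) (l l' : J) : ℝ :=
  if P l = Q l' then r l * r l' / max (t6_m r P (P l)) (t6_m r Q (P l)) else 0

variable {r : J → ℝ} (hr : ∀ l, 0 ≤ r l) (P Q : J → κ)

include hr in
theorem t6_m_nonneg (k : κ) : 0 ≤ t6_m r P k := by
  unfold t6_m
  exact sum_nonneg fun l _ => by split_ifs <;> simp [hr l]

include hr in
theorem t6_m_ge (l : J) : r l ≤ t6_m r P (P l) := by
  classical
  unfold t6_m
  have h := single_le_sum (f := fun l' => if P l' = P l then r l' else 0)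
    (fun l' _ => by split_ifs <;> simp [hr l']) (mem_univ l)
  simpa using h

include hr in
theorem t6_W_nonneg (l l' : J) : 0 ≤ t6_W r P Q l l' := by
  unfold t6_W
  split_ifs
  · exact div_nonneg (mul_nonneg (hr l) (hr l')) (le_max_of_le_left (t6_m_nonneg hr P _))
  · exact le_rfl

theorem t6_W_sum (l : J) : ∑ l', t6_W r P Q l l' =
    r l * t6_m r Q (P l) / max (t6_m r P (P l)) (t6_m r Q (P l)) := by
  classical
  unfold t6_W
  have h : ∀ l', (if P l = Q l' then r l * r l' / max (t6_m r P (P l)) (t6_m r Q (P l)) else 0) =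
      r l / max (t6_m r P (P l)) (t6_m r Q (P l)) * (if Q l' = P l then r l' else 0) := by
    intro l'
    by_cases h : P l = Q l'
    · rw [if_pos h, if_pos h.symm]; ring
    · rw [if_neg h, if_neg (fun h' => h h'.symm)]; ring
  rw [sum_congr rfl fun l' _ => h l', ← mul_sum]
  have : ∑ l', (if Q l' = P l then r l' else 0) = t6_m r Q (P l) := rfl
  rw [this]; ring

include hr in
theorem t6_W_row (l : J) : ∑ l', t6_W r P Q l l' ≤ r l := by
  rw [t6_W_sum]
  have h1 := t6_m_nonneg hr Q (P l)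
  rcases eq_or_lt_of_le (le_max_of_le_right h1 :
    0 ≤ max (t6_m r P (P l)) (t6_m r Q (P l))) with h | h
  · rw [← h, div_zero]; exact hr l
  · rw [div_le_iff₀ h]
    exact mul_le_mul_of_nonneg_left (le_max_right _ _) (hr l)

include hr in
theorem t6_W_mass (hr1 : ∑ l, r l = 1) {δ : ℝ}
    (hδ : ∀ Ψ : κ → ℝ, (∀ k, |Ψ k| ≤ 1) → ∑ l, r l * Ψ (P l) - ∑ l, r l * Ψ (Q l) ≤ δ) :
    1 - δ ≤ ∑ l, ∑ l', t6_W r P Q l l' := by
  classical
  set p := t6_m r P with hp
  set q := t6_m r Q with hq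
  let Ψ : κ → ℝ := fun k => if q k < p k then 1 else 0
  have hΨ : ∀ k, |Ψ k| ≤ 1 := by
    intro k; simp only [Ψ]; split_ifs <;> simp
  have h1 : ∀ l, ∑ l', t6_W r P Q l l' = r l * (1 - Ψ (P l)) +
      ∑ l', (if P l = Q l' then r l * r l' * (Ψ (P l) / p (P l)) else 0) := by
    intro l
    have e : ∑ l', (if P l = Q l' then r l * r l' * (Ψ (P l) / p (P l)) else 0) =
        r l * (Ψ (P l) / p (P l)) * q (P l) := by
      have : ∀ l', (if P l = Q l' then r l * r l' * (Ψ (P l) / p (P l)) else 0) =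
          r l * (Ψ (P l) / p (P l)) * (if Q l' = P l then r l' else 0) := by
        intro l'
        by_cases h : P l = Q l'
        · rw [if_pos h, if_pos h.symm]; ring
        · rw [if_neg h, if_neg (fun h' => h h'.symm)]; ring
      rw [sum_congr rfl fun l' _ => this l', ← mul_sum]
      rfl
    rw [e, t6_W_sum]
    by_cases hlt : q (P l) < p (P l)
    · have hΨ1 : Ψ (P l) = 1 := if_pos hlt
      rw [hΨ1, max_eq_left hlt.le]; ring
    · have hΨ0 : Ψ (P l) = 0 := if_neg hlt
      rw [hΨ0, max_eq_right (not_lt.mp hlt)]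
      have hge := t6_m_ge hr P l
      rcases eq_or_lt_of_le (hr l) with h0 | h0
      · rw [← h0]; ring
      · have hq0 : q (P l) ≠ 0 := by
          have := not_lt.mp hlt
          have : 0 < q (P l) := lt_of_lt_of_le (lt_of_lt_of_le h0 hge) this
          exact this.ne'
        rw [mul_div_assoc, div_self hq0]; ring
  rw [sum_congr rfl fun l _ => h1 l, sum_add_distrib, sum_comm]
  have h2 : ∀ l', ∑ l, (if P l = Q l' then r l * r l' * (Ψ (P l) / p (P l)) else 0) =
      r l' * Ψ (Q l') := by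
    intro l'
    have : ∀ l, (if P l = Q l' then r l * r l' * (Ψ (P l) / p (P l)) else 0) =
        r l' * (Ψ (Q l') / p (Q l')) * (if P l = Q l' then r l else 0) := by
      intro l
      by_cases h : P l = Q l'
      · rw [if_pos h, if_pos h, h]; ring
      · rw [if_neg h, if_neg h]; ring
    rw [sum_congr rfl fun l _ => this l, ← mul_sum]
    have e : ∑ l, (if P l = Q l' then r l else 0) = p (Q l') := rfl
    rw [e]
    by_cases hlt : q (Q l') < p (Q l')
    · have hp0 : p (Q l') ≠ 0 := (lt_of_le_of_lt (t6_m_nonneg hr Q _) hlt).ne'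
      field_simp
    · have hΨ0 : Ψ (Q l') = 0 := if_neg hlt
      rw [hΨ0]; ring
  rw [sum_congr rfl fun l' _ => h2 l']
  have h3 := hδ Ψ hΨ
  have h4 : ∑ l, r l * (1 - Ψ (P l)) = 1 - ∑ l, r l * Ψ (P l) := by
    simp only [mul_sub, mul_one, sum_sub_distrib, hr1]
  rw [h4]
  linarith

theorem t6_W_ne {l l' : J} (h : t6_W r P Q l l' ≠ 0) : P l = Q l' := by
  by_contra hc
  exact h (by unfold t6_W; rw [if_neg hc])

/-- symmetry of the coupling -/
theorem t6_W_symm {κ' : Type*} (P' Q' : J → κ') (l l' : J)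
    (h1 : ∀ a b, P a = Q b ↔ P' b = Q' a) (h2 : ∀ a b, P a = P b ↔ Q' a = Q' b)
    (h3 : ∀ a b, Q a = Q b ↔ P' a = P' b) :
    t6_W r P' Q' l' l = t6_W r P Q l l' := by
  classical
  unfold t6_W
  by_cases h : P l = Q l'
  · rw [if_pos h, if_pos ((h1 _ _).mp h)]
    have e1 : t6_m r P' (P' l') = t6_m r Q (P l) := by
      unfold t6_m
      refine sum_congr rfl fun a _ => ?_
      have : P' a = P' l' ↔ Q a = P l := by rw [h]; exact (h3 _ _).symm
      simp only [this]
    have e2 : t6_m r Q' (P' l') = t6_m r P (P l) := by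
      unfold t6_m
      refine sum_congr rfl fun a _ => ?_
      have : Q' a = P' l' ↔ P a = P l := by
        rw [(h1 _ _).mp h]; exact (h2 _ _).symm
      simp only [this]
    rw [e1, e2, max_comm, mul_comm (r l')]
  · rw [if_neg h, if_neg (fun h' => h ((h1 _ _).mpr h'))]

end Coup

/-! ### masks -/

section Mask
variable {C : Type} [LinearOrder C]

/-- restriction of a marking to `K` -/
def t6_msk (K : Finset C) (j : C → ℕ) : C → ℕ := fun c => if c ∈ K then j c else 0

theorem t6_msk_eq {K : Finset C} {j j' : C → ℕ} :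
    t6_msk K j = t6_msk K j' ↔ ∀ c ∈ K, j c = j' c := by
  constructor
  · intro h c hc
    have := congrFun h c
    simpa [t6_msk, hc] using this
  · intro h
    funext c
    by_cases hc : c ∈ K
    · simp [t6_msk, hc, h c hc]
    · simp [t6_msk, hc]

/-- the law seen through an order isomorphism -/
theorem t6_close {M D : ℕ} {ε : ℝ} {ρ : ℕ → (List ℕ →₀ ℝ)} (h : Spread M D ε ρ)
    (T : Finset C) (hT : T.card ≤ M) (g : C ≃o C) (K : Finset C) (hK : K ⊆ T)
    (hgK : K.image g ⊆ T) (Ψ : (C → ℕ) → ℝ) (hΨ : ∀ k, |Ψ k| ≤ 1) :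
    Em ρ T (fun j => Ψ (t6_msk K (fun c => j (g c)))) - Em ρ T (fun j => Ψ (t6_msk K j)) ≤
      2 * T.card * ε := by
  have h1 := Em_sub h T (K.image g) hgK hT 1 zero_le_one
    (fun j => Ψ (t6_msk K (fun c => j (g c)))) (fun j => hΨ _) (by
      intro j j' hj
      have : t6_msk K (fun c => j (g c)) = t6_msk K (fun c => j' (g c)) :=
        t6_msk_eq.mpr fun c hc => hj _ (mem_image_of_mem _ hc)
      simp only [this])
  have h2 := Em_sub h T K hK hT 1 zero_le_one
    (fun j => Ψ (t6_msk K j)) (fun j => hΨ _) (by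
      intro j j' hj
      have : t6_msk K j = t6_msk K j' := t6_msk_eq.mpr hj
      simp only [this])
  have h3 := Em_iso ρ K g (g.strictMono.strictMonoOn _)
    (fun j => Ψ (t6_msk K (fun c => j (g c)))) (fun j => Ψ (t6_msk K j)) (by
      intro j' j hj
      have : t6_msk K (fun c => j' (g c)) = t6_msk K j := t6_msk_eq.mpr hj
      simp only [this])
  rw [h3] at h1
  have a1 := (abs_le.mp h1).2
  have a2 := (abs_le.mp h2).1
  linarith

end Mask



section St
variable {C : Type} [LinearOrder C] (g : Fin 2 → (C ≃o C)) (b : Fin 2 → (C →₀ ℤ))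

theorem t6_ga_linv (s : Ltr) : ga g (linv s) = (ga g s).symm := by
  obtain ⟨i, t⟩ := s
  cases t
  · simp [ga, linv]
  · simp [ga, linv]

theorem t6_gb_linv (s : Ltr) : gb g b (linv s) = -((gb g b s).mapDomain (ga g s).symm) := by
  obtain ⟨i, t⟩ := s
  cases t
  · have h1 : gb g b (linv (i, false)) = b i := by simp [gb, linv]
    have h2 : gb g b (i, false) = -((b i).mapDomain (g i).symm) := by simp [gb]
    have h3 : (ga g (i, false)).symm = g i := by simp [ga]
    rw [h1, h2, h3]
    have h4 : (-((b i).mapDomain (g i).symm)).mapDomain (g i) =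
        -(((b i).mapDomain (g i).symm).mapDomain (g i)) := by
      exact map_neg (Finsupp.mapDomain.addMonoidHom (g i)) _
    rw [h4, neg_neg, ← Finsupp.mapDomain_comp]
    have h5 : (g i : C → C) ∘ ((g i).symm : C → C) = id := by
      funext c; simp
    rw [h5, Finsupp.mapDomain_id]
  · have h1 : gb g b (linv (i, true)) = -((b i).mapDomain (g i).symm) := by simp [gb, linv]
    have h2 : gb g b (i, true) = b i := by simp [gb]
    have h3 : (ga g (i, true)).symm = (g i).symm := by simp [ga]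
    rw [h1, h2, h3]

/-- labels of the letters -/
noncomputable def t6_B : Finset C := univ.biUnion fun s : Ltr => (gb g b s).support

/-- labels reachable by words of length at most `k` -/
noncomputable def t6_F : ℕ → Finset C
  | 0 => t6_B g b
  | k + 1 => t6_B g b ∪ univ.biUnion fun s : Ltr => (t6_F k).image (ga g s)

theorem t6_B_sub (k : ℕ) : t6_B g b ⊆ t6_F g b k := by
  cases k with
  | zero => exact subset_rfl
  | succ k => exact subset_union_left

theorem t6_F_mono (k : ℕ) : t6_F g b k ⊆ t6_F g b (k + 1) := by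
  induction k with
  | zero => exact t6_B_sub g b 1
  | succ k ih =>
    intro c hc
    rw [t6_F, mem_union] at hc ⊢
    rcases hc with hc | hc
    · exact Or.inl hc
    · right
      rw [mem_biUnion] at hc ⊢
      obtain ⟨s, hs, hc⟩ := hc
      exact ⟨s, hs, image_subset_image ih hc⟩

theorem t6_F_mono' {k l : ℕ} (h : k ≤ l) : t6_F g b k ⊆ t6_F g b l := by
  induction l, h using Nat.le_induction with
  | base => exact subset_rfl
  | succ l _ ih => exact ih.trans (t6_F_mono g b l)

theorem t6_F_ga {k : ℕ} {c : C} (hc : c ∈ t6_F g b k) (s : Ltr) :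
    ga g s c ∈ t6_F g b (k + 1) := by
  rw [t6_F, mem_union]
  right
  rw [mem_biUnion]
  exact ⟨s, mem_univ _, mem_image_of_mem _ hc⟩

theorem t6_gb_sub (s : Ltr) : (gb g b s).support ⊆ t6_B g b := by
  intro c hc
  rw [t6_B, mem_biUnion]
  exact ⟨s, mem_univ _, hc⟩

theorem t6_cocy_sub (w : List Ltr) : (cocy g b w).support ⊆ t6_F g b w.length := by
  induction w with
  | nil => simp [cocy_nil]
  | cons s w ih =>
    intro c hc
    have h1 := Finsupp.support_add hc
    rw [mem_union] at h1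
    rcases h1 with h1 | h1
    · exact t6_B_sub g b _ (t6_gb_sub g b s h1)
    · have h2 := Finsupp.mapDomain_support h1
      rw [mem_image] at h2
      obtain ⟨c', hc', rfl⟩ := h2
      exact t6_F_ga g b (ih hc') s

/-- the labels of `T` whose image lies in `T` -/
noncomputable def t6_K (T : Finset C) (s : Ltr) : Finset C := T.filter fun c => ga g s c ∈ T

theorem t6_mem_K {T : Finset C} {s : Ltr} {c : C} : c ∈ t6_K g T s ↔ c ∈ T ∧ ga g s c ∈ T := by
  simp [t6_K]

theorem t6_mem_K_linv {T : Finset C} {s : Ltr} {c : C} :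
    c ∈ t6_K g T (linv s) ↔ (ga g s).symm c ∈ t6_K g T s := by
  rw [t6_mem_K, t6_mem_K, t6_ga_linv]
  constructor
  · rintro ⟨h1, h2⟩; exact ⟨h2, by simpa using h1⟩
  · rintro ⟨h1, h2⟩; exact ⟨by simpa using h2, h1⟩

/-- equality of markings pulled back, on `K_{s⁻¹}` -/
theorem t6_transfer {T : Finset C} {s : Ltr} (j j' : C → ℕ) :
    (∀ c ∈ t6_K g T (linv s), j c = j' ((ga g (linv s)) c)) ↔
      ∀ c ∈ t6_K g T s, j (ga g s c) = j' c := by
  constructor
  · intro h c hc
    have h1 : ga g s c ∈ t6_K g T (linv s) := by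
      rw [t6_mem_K_linv]; simpa using hc
    have := h _ h1
    rw [t6_ga_linv] at this
    simpa using this
  · intro h c hc
    rw [t6_mem_K_linv] at hc
    have := h _ hc
    rw [t6_ga_linv]
    simpa using this

theorem t6_transfer2 {T : Finset C} {s : Ltr} (j j' : C → ℕ) :
    (∀ c ∈ t6_K g T (linv s), j c = j' c) ↔
      ∀ c ∈ t6_K g T s, j (ga g s c) = j' (ga g s c) := by
  constructor
  · intro h c hc
    have h1 : ga g s c ∈ t6_K g T (linv s) := by
      rw [t6_mem_K_linv]; simpa using hc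
    exact h _ h1
  · intro h c hc
    rw [t6_mem_K_linv] at hc
    have := h _ hc
    simpa using this

theorem t6_transfer3 {T : Finset C} {s : Ltr} (j j' : C → ℕ) :
    (∀ c ∈ t6_K g T (linv s), j (ga g (linv s) c) = j' (ga g (linv s) c)) ↔
      ∀ c ∈ t6_K g T s, j c = j' c := by
  constructor
  · intro h c hc
    have h1 : ga g s c ∈ t6_K g T (linv s) := by
      rw [t6_mem_K_linv]; simpa using hc
    have := h _ h1
    rw [t6_ga_linv] at this
    simpa using this
  · intro h c hc
    rw [t6_mem_K_linv] at hc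
    have := h _ hc
    rw [t6_ga_linv]
    simpa using this

/-- ℓ¹ bound -/
theorem t6_norm_le (ν : Seminorm ℝ (ℕ →₀ ℝ)) (h1 : ∀ i, ν (Finsupp.single i 1) ≤ 1)
    (x : C →₀ ℝ) (j : C → ℕ) : ν (x.mapDomain j) ≤ ∑ c ∈ x.support, |x c| := by
  rw [Finsupp.mapDomain, Finsupp.sum]
  refine (map_sum_le_sum ν _ _).trans (sum_le_sum fun c _ => ?_)
  have : Finsupp.single (j c) (x c) = x c • Finsupp.single (j c) (1 : ℝ) := by
    rw [Finsupp.smul_single, smul_eq_mul, mul_one]
  rw [this, map_smul_eq_mul, Real.norm_eq_abs]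
  exact mul_le_of_le_one_right (abs_nonneg _) (h1 _)
where
  map_sum_le_sum (ν : Seminorm ℝ (ℕ →₀ ℝ)) (s : Finset C) (f : C → (ℕ →₀ ℝ)) :
      ν (∑ c ∈ s, f c) ≤ ∑ c ∈ s, ν (f c) := by
    classical
    induction s using Finset.induction_on with
    | empty => simp
    | insert a s ha ih =>
      rw [sum_insert ha, sum_insert ha]
      exact (map_add_le_add ν _ _).trans (add_le_add_right ih _)

end St



theorem t6_ofFn {α : Type*} (w : List α) {n : ℕ} (h : w.length = n) :
    ∃ f : Fin n → α, List.ofFn f = w := by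
  subst h; exact ⟨w.get, List.ofFn_get w⟩

theorem t6_linv_linv (s : Ltr) : linv (linv s) = s := by
  obtain ⟨i, t⟩ := s; simp [linv]

theorem t6_card : (Fintype.card Ltr : ℝ) = 4 := by
  have : Fintype.card Ltr = 4 := by decide
  rw [this]; norm_num

section St
variable {C : Type} [LinearOrder C] (g : Fin 2 → (C ≃o C)) (b : Fin 2 → (C →₀ ℤ))

/-- the bound for the cocycles of words of length `n` -/
noncomputable def t6_Bd (p : ℝ) (n : ℕ) : ℝ :=
  ∑ w : Fin n → Ltr, (∑ c ∈ (toR (cocy g b (List.ofFn w))).support,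
    |toR (cocy g b (List.ofFn w)) c|) ^ p

theorem t6_bound {p : ℝ} (hp : 1 ≤ p) (n : ℕ) (ν : Seminorm ℝ (ℕ →₀ ℝ))
    (h1 : ∀ i, ν (Finsupp.single i 1) ≤ 1) (w : List Ltr) (hw : w.length = n) (j : C → ℕ) :
    ν ((toR (cocy g b w)).mapDomain j) ^ p ≤ t6_Bd g b p n := by
  obtain ⟨f, rfl⟩ := t6_ofFn w hw
  have h2 := t6_norm_le ν h1 (toR (cocy g b (List.ofFn f))) j
  have h3 : ν ((toR (cocy g b (List.ofFn f))).mapDomain j) ^ p ≤
      (∑ c ∈ (toR (cocy g b (List.ofFn f))).support,
        |toR (cocy g b (List.ofFn f)) c|) ^ p :=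
    Real.rpow_le_rpow (apply_nonneg _ _) h2 (by linarith)
  refine h3.trans ?_
  unfold t6_Bd
  exact single_le_sum (f := fun f : Fin n → Ltr =>
    (∑ c ∈ (toR (cocy g b (List.ofFn f))).support, |toR (cocy g b (List.ofFn f)) c|) ^ p)
    (fun f _ => Real.rpow_nonneg (sum_nonneg fun c _ => abs_nonneg _) _) (mem_univ f)

theorem t6_gb_K {T : Finset C} (hT : t6_B g b ⊆ T) (s : Ltr) {c : C}
    (hc : c ∈ (gb g b s).support) : (ga g s).symm c ∈ t6_K g T s := by
  rw [t6_mem_K]
  refine ⟨hT ?_, ?_⟩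
  · have h2 : (ga g s).symm c ∈ (gb g b (linv s)).support := by
      rw [t6_gb_linv, Finsupp.support_neg,
        Finsupp.mapDomain_support_of_injective (ga g s).symm.injective]
      exact mem_image_of_mem _ hc
    exact t6_gb_sub g b _ h2
  · simpa using hT (t6_gb_sub g b s hc)

/-- increments of inverse letters -/
theorem t6_hg {T : Finset C} (hT : t6_B g b ⊆ T) (s : Ltr) (m m' : C → ℕ)
    (h : ∀ c ∈ t6_K g T s, m (ga g s c) = m' c) :
    (gb g b (linv s)).mapDomain m' = -((gb g b s).mapDomain m) := by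
  rw [t6_gb_linv]
  have e1 : (-((gb g b s).mapDomain (ga g s).symm)).mapDomain m' =
      -(((gb g b s).mapDomain (ga g s).symm).mapDomain m') :=
    map_neg (Finsupp.mapDomain.addMonoidHom m') _
  rw [e1, ← Finsupp.mapDomain_comp]
  congr 1
  refine Finsupp.mapDomain_congr fun c hc => ?_
  have h2 := h _ (t6_gb_K g b hT s hc)
  simp only [OrderIso.apply_symm_apply] at h2
  exact h2.symm

/-- cocycle relation -/
theorem t6_hG {T : Finset C} {n : ℕ} (hT : t6_F g b n ⊆ T) (s : Ltr) (w : List Ltr)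
    (hw : w.length < n) (m m' : C → ℕ) (h : ∀ c ∈ t6_K g T s, m (ga g s c) = m' c) :
    (cocy g b (s :: w)).mapDomain m = (gb g b s).mapDomain m + (cocy g b w).mapDomain m' := by
  rw [cocy_cons, Finsupp.mapDomain_add, ← Finsupp.mapDomain_comp]
  congr 1
  refine Finsupp.mapDomain_congr fun c hc => ?_
  have h1 := t6_cocy_sub g b w hc
  have h2 : c ∈ t6_K g T s := by
    rw [t6_mem_K]
    exact ⟨hT (t6_F_mono' g b hw.le h1), hT (t6_F_mono' g b hw (t6_F_ga g b h1 s))⟩
  exact h c h2

end St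

theorem stage {p K : ℝ} (hp : 1 ≤ p) (hK : 0 ≤ K) {C : Type} [LinearOrder C]
    (g : Fin 2 → (C ≃o C)) (b : Fin 2 → (C →₀ ℤ)) (n : ℕ) (hn : 1 ≤ n) (T0 : Finset C) :
    ∃ (T : Finset C) (R : ℝ), T0 ⊆ T ∧
      ∀ (M D : ℕ) (ε : ℝ) (ρ : ℕ → (List ℕ →₀ ℝ)) (ν : Seminorm ℝ (ℕ →₀ ℝ)),
        T.card ≤ M → Spread M D ε ρ → MTNorm p K ν → (∀ i, ν (Finsupp.single i 1) ≤ 1) →
        (1 / (4 : ℝ) ^ n) * ∑ w : Fin n → Ltr,
            Em ρ T (fun j => ν ((toR (cocy g b (List.ofFn w))).mapDomain j) ^ p) ≤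
          K ^ p * n * ((1 / 4) * ∑ s : Ltr,
            Em ρ T (fun j => ν ((toR (gb g b s)).mapDomain j) ^ p)) + R * ε := by
  classical
  set T : Finset C := T0 ∪ t6_F g b n with hTdef
  have hF : t6_F g b n ⊆ T := subset_union_right
  have hBT : t6_B g b ⊆ T := (t6_B_sub g b n).trans hF
  refine ⟨T, n * (2 * T.card) * t6_Bd g b p n, subset_union_left, ?_⟩
  intro M D ε ρ ν hTM hsp hν h1
  let J := {l : List ℕ // l ∈ (ρ T.card).support}
  let r : J → ℝ := fun j => ρ T.card j.1
  have hr : ∀ j, 0 ≤ r j := fun j => hsp.nonneg _ _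
  have hEm : ∀ Φ : (C → ℕ) → ℝ, Em ρ T Φ = ∑ j : J, r j * Φ (mkm T j.1) := by
    intro Φ
    unfold Em
    rw [Finsupp.sum]
    exact (sum_coe_sort (ρ T.card).support fun l => ρ T.card l * Φ (mkm T l)).symm
  have hr1 : ∑ j, r j = 1 := by
    have := hsp.sum_one T.card hTM
    rw [Finsupp.sum] at this
    rw [← this]
    exact sum_coe_sort (ρ T.card).support fun l => ρ T.card l
  let P : Ltr → J → (C → ℕ) := fun s j => t6_msk (t6_K g T s) (fun c => mkm T j.1 (ga g s c))
  let Q : Ltr → J → (C → ℕ) := fun s j => t6_msk (t6_K g T s) (mkm T j.1)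
  let W : Ltr → J → J → ℝ := fun s j j' => t6_W r (P s) (Q s) j j'
  have hPQ : ∀ s j j', W s j j' ≠ 0 →
      ∀ c ∈ t6_K g T s, mkm T j.1 (ga g s c) = mkm T j'.1 c := by
    intro s j j' h
    exact t6_msk_eq.mp (t6_W_ne (P s) (Q s) h)
  have hsym : ∀ s j j', W (linv s) j' j = W s j j' := by
    intro s j j'
    refine t6_W_symm (P s) (Q s) (P (linv s)) (Q (linv s)) j j' ?_ ?_ ?_
    · intro a c
      rw [t6_msk_eq, t6_msk_eq]
      rw [← t6_transfer g (mkm T a.1) (mkm T c.1)]
      exact forall₂_congr fun _ _ => eq_comm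
    · intro a c
      rw [t6_msk_eq, t6_msk_eq]
      exact (t6_transfer2 g (mkm T a.1) (mkm T c.1)).symm
    · intro a c
      rw [t6_msk_eq, t6_msk_eq]
      exact (t6_transfer3 g (mkm T a.1) (mkm T c.1)).symm
  have hmass : ∀ s, 1 - 2 * T.card * ε ≤ ∑ j, ∑ j', W s j j' := by
    intro s
    refine t6_W_mass hr (P s) (Q s) hr1 fun Ψ hΨ => ?_
    have hKT : t6_K g T s ⊆ T := filter_subset _ _
    have hgK : (t6_K g T s).image (ga g s) ⊆ T := by
      intro c hc
      rw [mem_image] at hc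
      obtain ⟨c', hc', rfl⟩ := hc
      exact (t6_mem_K g |>.mp hc').2
    have h := t6_close hsp T hTM (ga g s) (t6_K g T s) hKT hgK Ψ hΨ
    rw [hEm, hEm] at h
    exact h
  have key := chain_ineq hp hK ν hν linv t6_linv_linv r W
    (fun s j => (gb g b s).mapDomain (mkm T j.1)) (fun w j => (cocy g b w).mapDomain (mkm T j.1))
    n hn (2 * T.card * ε) (t6_Bd g b p n) hr hr1
    (fun s j j' => t6_W_nonneg hr (P s) (Q s) j j') hsym
    (fun s j => t6_W_row hr (P s) (Q s) j) hmass
    (fun s j j' h => t6_hg g b hBT s _ _ (hPQ s j j' h))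
    (fun j => by simp [cocy_nil])
    (fun s w j j' hw h => t6_hG g b hF s w hw _ _ (hPQ s j j' h))
    (fun w j hw => by
      rw [toR_mapDomain]
      exact t6_bound g b hp n ν h1 w hw _)
  rw [t6_card] at key
  simp only [toR_mapDomain] at key
  have e1 : ∀ w : Fin n → Ltr,
      Em ρ T (fun j => ν ((toR (cocy g b (List.ofFn w))).mapDomain j) ^ p) =
      ∑ j : J, r j * ν ((toR (cocy g b (List.ofFn w))).mapDomain (mkm T j.1)) ^ p :=
    fun w => hEm _
  have e2 : ∀ s : Ltr, Em ρ T (fun j => ν ((toR (gb g b s)).mapDomain j) ^ p) =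
      ∑ j : J, r j * ν ((toR (gb g b s)).mapDomain (mkm T j.1)) ^ p := fun s => hEm _
  simp only [e1, e2]
  calc _ ≤ _ := key
    _ = _ := by ring

end Vale.Agent.H14.MT
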