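import Vale.Agent.H14.MT.SpreadLaw
import Vale.Agent.H14.MT.Stage
import Vale.Agent.H14.MT.Limit

/-!
P125, T7b: the Markov type inequality for the order invariant limit norm.
-/

open Filter Topology

namespace Vale.Agent.H14.MT

theorem T7Data.starIneq {p K θ : ℝ} (hK : 0 ≤ K) (d : T7Data p θ)
    (hM : ∀ q, MTNorm p K (d.ν q)) : StarIneq p K d.N := by
  intro C _ g b n hn
  classical
  set T0 : Finset C := (Finset.univ.biUnion fun w : Fin n → Ltr =>
      (toR (cocy g b (List.ofFn w))).support) ∪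
    Finset.univ.biUnion fun s : Ltr => (toR (gb g b s)).support with hT0
  obtain ⟨T, R, hT, h⟩ := stage d.hp hK g b n hn T0
  have hw : ∀ w : Fin n → Ltr, (toR (cocy g b (List.ofFn w))).support ⊆ T := fun w =>
    ((Finset.subset_biUnion_of_mem (fun w : Fin n → Ltr =>
      (toR (cocy g b (List.ofFn w))).support) (Finset.mem_univ w)).trans
      Finset.subset_union_left).trans hT
  have hs : ∀ s : Ltr, (toR (gb g b s)).support ⊆ T := fun s =>
    ((Finset.subset_biUnion_of_mem (fun s : Ltr => (toR (gb g b s)).support)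
      (Finset.mem_univ s)).trans Finset.subset_union_right).trans hT
  have hl : Tendsto (fun q => (1 / (4 : ℝ) ^ n) * ∑ w : Fin n → Ltr,
      Em (d.ρ q) T (fun j => d.ν q ((toR (cocy g b (List.ofFn w))).mapDomain j) ^ p))
      (hyperfilter ℕ : Filter ℕ) (𝓝 ((1 / (4 : ℝ) ^ n) * ∑ w : Fin n → Ltr,
        d.N C (toR (cocy g b (List.ofFn w))) ^ p)) :=
    (tendsto_finsetSum _ fun w _ => d.tendsto_N _ T (hw w)).const_mul _
  have hr : Tendsto (fun q => K ^ p * n * ((1 / 4) * ∑ s : Ltr,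
      Em (d.ρ q) T (fun j => d.ν q ((toR (gb g b s)).mapDomain j) ^ p)) +
        R * (1 / ((q : ℝ) + 1)))
      (hyperfilter ℕ : Filter ℕ) (𝓝 (K ^ p * n * ((1 / 4) * ∑ s : Ltr,
        d.N C (toR (gb g b s)) ^ p) + R * 0)) :=
    (((tendsto_finsetSum _ fun s _ => d.tendsto_N _ T (hs s)).const_mul _).const_mul _).add
      (T7Data.tendsto_inv.const_mul _)
  rw [mul_zero, add_zero] at hr
  refine le_of_tendsto_of_tendsto hl hr ?_
  filter_upwards [T7Data.eventually_ge T.card] with q hq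
  exact h q (d.D q) _ (d.ρ q) (d.ν q) hq (d.hρ q) (hM q) (d.hν q).1

theorem exists_spreadNorm {p K θ : ℝ} (hp : 1 ≤ p) (hK : 0 ≤ K) (hθ : 0 ≤ θ)
    (h : ∀ n : ℕ, ∃ ν : Seminorm ℝ (ℕ →₀ ℝ), MTNorm p K ν ∧ Good θ n ν) :
    ∃ N : ∀ (C : Type) [LinearOrder C], Seminorm ℝ (C →₀ ℝ),
      SpreadNorm θ N ∧ StarIneq p K N := by
  have h1 : ∀ q : ℕ, ∃ D ρ, Spread q D (1 / ((q : ℝ) + 1)) ρ := fun q =>
    exists_spread q _ (by positivity)
  choose D ρ hρ using h1
  choose ν hν using h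
  let d : T7Data p θ := ⟨hp, hθ, ρ, D, hρ, fun q => ν (D q), fun q => (hν (D q)).2⟩
  exact ⟨d.N, d.spreadNorm, d.starIneq hK fun q => (hν (D q)).1⟩

end Vale.Agent.H14.MT
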