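import Vale.Agent.H14.MT.Core

/-!
P125, row T2b: a Markov type seminorm on finitely supported sequences from a separated martingale
tree.
-/

open Finset

namespace Vale.Agent.H14.MT

section X
variable {X : Type*} [NormedAddCommGroup X] [NormedSpace ℝ X]

theorem t2b_root {ε : ℝ} (n : ℕ) : ∀ (x : X), Tree ε n x → ‖x‖ ≤ 1 := by
  induction n with
  | zero => exact fun x hx => hx
  | succ n ih =>
    rintro x ⟨k, l, y, h1, h2, h3, _, h5⟩
    rw [← h3]
    calc ‖∑ i, l i • y i‖ ≤ ∑ i, ‖l i • y i‖ := norm_sum_le _ _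
      _ ≤ ∑ i, l i := by
        apply Finset.sum_le_sum
        intro i _
        rw [norm_smul, Real.norm_eq_abs, abs_of_nonneg (h1 i)]
        exact mul_le_of_le_one_right (h1 i) (ih (y i) (h5 i))
      _ = 1 := h2

/-- the martingale of a tree -/
theorem t2b_mart {ε : ℝ} (hε : 0 < ε) (n : ℕ) : ∀ (x : X), Tree ε n x →
    ∃ (Ω : Type) (_ : Fintype Ω) (μ : Ω → ℝ) (M : ℕ → Ω → X), (∀ w, 0 ≤ μ w) ∧ ∑ w, μ w = 1 ∧
      (∀ i w, ‖M i w‖ ≤ 1) ∧
      (∀ (u : X) (a : ℕ → ℝ), ‖u + (∑ i ∈ range (n + 1), a i) • x‖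
        ≤ ∑ w, μ w * ‖u + ∑ i ∈ range (n + 1), a i • M i w‖) ∧
      (∀ (u : X) (a : ℕ → ℝ) (k : ℕ), k < n →
        (ε / 2) * |∑ i ∈ (range (n + 1)).filter (fun i => k < i), a i|
        ≤ ∑ w, μ w * ‖u + ∑ i ∈ range (n + 1), a i • M i w‖) := by
  induction n with
  | zero =>
    intro x hx
    refine ⟨Unit, inferInstance, fun _ => 1, fun _ _ => x, fun _ => zero_le_one, by simp,
      fun _ _ => hx, ?_, ?_⟩
    · intro u a
      simp
    · intro u a k hk
      omega
  | succ n ih =>
    intro x hx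
    have hxr := t2b_root (n + 1) x hx
    obtain ⟨k, l, y, h1, h2, h3, h4, h5⟩ := hx
    choose Ω hΩ μ M g1 g2 g3 g4 g5 using fun i => ih (y i) (h5 i)
    let _ : ∀ i, Fintype (Ω i) := hΩ
    let M' : ℕ → (Σ i, Ω i) → X := fun j w => match j with
      | 0 => x
      | j + 1 => M w.1 j w.2
    have hsplit : ∀ (u : X) (a : ℕ → ℝ) (w : Σ i, Ω i),
        u + ∑ j ∈ range (n + 1 + 1), a j • M' j w
          = (u + a 0 • x) + ∑ j ∈ range (n + 1), a (j + 1) • M w.1 j w.2 := by
      intro u a w
      rw [Finset.sum_range_succ']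
      simp only [M']
      abel
    have hE : ∀ (u : X) (a : ℕ → ℝ),
        ∑ w : Σ i, Ω i, l w.1 * μ w.1 w.2 * ‖u + ∑ j ∈ range (n + 1 + 1), a j • M' j w‖
          = ∑ i, l i * ∑ w, μ i w *
            ‖(u + a 0 • x) + ∑ j ∈ range (n + 1), a (j + 1) • M i j w‖ := by
      intro u a
      rw [Fintype.sum_sigma]
      apply Finset.sum_congr rfl
      intro i _
      rw [Finset.mul_sum]
      apply Finset.sum_congr rfl
      intro w _
      rw [hsplit]
      ring
    -- lower bound by the average over the children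
    have hA : ∀ (u : X) (a : ℕ → ℝ),
        ∑ i, l i * ‖(u + a 0 • x) + (∑ j ∈ range (n + 1), a (j + 1)) • y i‖
          ≤ ∑ w : Σ i, Ω i, l w.1 * μ w.1 w.2 * ‖u + ∑ j ∈ range (n + 1 + 1), a j • M' j w‖ := by
      intro u a
      rw [hE]
      apply Finset.sum_le_sum
      intro i _
      exact mul_le_mul_of_nonneg_left (g4 i (u + a 0 • x) (fun j => a (j + 1))) (h1 i)
    have hJ : ∀ (c : X) (s : ℝ), ‖c + s • x‖ ≤ ∑ i, l i * ‖c + s • y i‖ := by
      intro c s
      have e1 : c + s • x = ∑ i, l i • (c + s • y i) := by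
        rw [Finset.sum_congr rfl fun i _ => smul_add (l i) c (s • y i), Finset.sum_add_distrib,
          ← Finset.sum_smul, h2, one_smul]
        congr 1
        rw [← h3, Finset.smul_sum]
        exact Finset.sum_congr rfl fun i _ => smul_comm _ _ _
      rw [e1]
      refine (norm_sum_le _ _).trans (Finset.sum_le_sum fun i _ => ?_)
      rw [norm_smul, Real.norm_eq_abs, abs_of_nonneg (h1 i)]
    refine ⟨Σ i, Ω i, inferInstance, fun w => l w.1 * μ w.1 w.2, M', ?_, ?_, ?_, ?_, ?_⟩
    · intro w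
      exact mul_nonneg (h1 _) (g1 _ _)
    · rw [Fintype.sum_sigma]
      calc ∑ i, ∑ w, l i * μ i w = ∑ i, l i := by
            apply Finset.sum_congr rfl
            intro i _
            rw [← Finset.mul_sum, g2 i, mul_one]
        _ = 1 := h2
    · intro i w
      cases i with
      | zero => exact hxr
      | succ i => exact g3 w.1 i w.2
    · intro u a
      refine le_trans ?_ (hA u a)
      rw [Finset.sum_range_succ']
      have e2 : u + (∑ i ∈ range (n + 1), a (i + 1) + a 0) • x
          = (u + a 0 • x) + (∑ i ∈ range (n + 1), a (i + 1)) • x := by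
        rw [add_smul]
        abel
      rw [e2]
      exact hJ _ _
    · intro u a m hm
      cases m with
      | zero =>
        have e3 : ∑ i ∈ (range (n + 1 + 1)).filter (fun i => 0 < i), a i
            = ∑ i ∈ range (n + 1), a (i + 1) := by
          rw [Finset.sum_filter, Finset.sum_range_succ']
          simp
        rw [e3]
        refine le_trans ?_ (hA u a)
        set s := ∑ i ∈ range (n + 1), a (i + 1) with hs
        set c := u + a 0 • x + s • x with hc
        have e4 : ∀ i, u + a 0 • x + s • y i = c + s • (y i - x) := by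
          intro i
          rw [hc, smul_sub]
          abel
        have e5 : ‖c‖ ≤ ∑ i, l i * ‖u + a 0 • x + s • y i‖ := hJ _ _
        have e6 : |s| * ε - ‖c‖ ≤ ∑ i, l i * ‖u + a 0 • x + s • y i‖ := by
          calc |s| * ε - ‖c‖ = ∑ i, l i * (|s| * ε - ‖c‖) := by
                rw [← Finset.sum_mul, h2, one_mul]
            _ ≤ _ := by
              apply Finset.sum_le_sum
              intro i _
              apply mul_le_mul_of_nonneg_left _ (h1 i)
              rw [e4]
              have e7 : ‖s • (y i - x)‖ ≤ ‖c + s • (y i - x)‖ + ‖c‖ := by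
                have : s • (y i - x) = (c + s • (y i - x)) - c := by abel
                calc ‖s • (y i - x)‖ = ‖(c + s • (y i - x)) - c‖ := by rw [← this]
                  _ ≤ _ := norm_sub_le _ _
              rw [norm_smul, Real.norm_eq_abs] at e7
              have e8 : |s| * ε ≤ |s| * ‖y i - x‖ :=
                mul_le_mul_of_nonneg_left (h4 i) (abs_nonneg s)
              linarith
        nlinarith
      | succ m =>
        rw [hE]
        have e9 : ∑ i ∈ (range (n + 1 + 1)).filter (fun i => m + 1 < i), a i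
            = ∑ i ∈ (range (n + 1)).filter (fun i => m < i), a (i + 1) := by
          rw [Finset.sum_filter, Finset.sum_filter, Finset.sum_range_succ']
          simp
        rw [e9]
        calc (ε / 2) * |∑ i ∈ (range (n + 1)).filter (fun i => m < i), a (i + 1)|
            = ∑ i, l i * ((ε / 2) *
                |∑ i ∈ (range (n + 1)).filter (fun i => m < i), a (i + 1)|) := by
              rw [← Finset.sum_mul, h2, one_mul]
          _ ≤ _ := by
              apply Finset.sum_le_sum
              intro i _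
              exact mul_le_mul_of_nonneg_left
                (g5 i (u + a 0 • x) (fun j => a (j + 1)) m (by omega)) (h1 i)

/-- the `L_p` seminorm on finitely supported sequences given by finitely many vectors -/
noncomputable def t2b_F {Ω : Type} (M : ℕ → Ω → X) (n : ℕ) (a : ℕ →₀ ℝ) (w : Ω) : X :=
  ∑ i ∈ range n, a i • M (i + 1) w

theorem t2b_F_add {Ω : Type} (M : ℕ → Ω → X) (n : ℕ) (a b : ℕ →₀ ℝ) (w : Ω) :
    t2b_F M n (a + b) w = t2b_F M n a w + t2b_F M n b w := by
  unfold t2b_F
  rw [← Finset.sum_add_distrib]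
  exact Finset.sum_congr rfl fun i _ => by rw [Finsupp.add_apply, add_smul]

theorem t2b_F_smul {Ω : Type} (M : ℕ → Ω → X) (n : ℕ) (c : ℝ) (a : ℕ →₀ ℝ) (w : Ω) :
    t2b_F M n (c • a) w = c • t2b_F M n a w := by
  unfold t2b_F
  rw [Finset.smul_sum]
  exact Finset.sum_congr rfl fun i _ => by rw [Finsupp.smul_apply, smul_eq_mul, mul_smul]

theorem t2b_F_sub {Ω : Type} (M : ℕ → Ω → X) (n : ℕ) (a b : ℕ →₀ ℝ) (w : Ω) :
    t2b_F M n (a - b) w = t2b_F M n a w - t2b_F M n b w := by
  unfold t2b_F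
  rw [← Finset.sum_sub_distrib]
  exact Finset.sum_congr rfl fun i _ => by rw [Finsupp.sub_apply, sub_smul]

/-- the seminorm -/
noncomputable def t2b_nu {p : ℝ} (hp : 1 ≤ p) {Ω : Type} [Fintype Ω] (μ : Ω → ℝ)
    (hμ : ∀ w, 0 ≤ μ w) (M : ℕ → Ω → X) (n : ℕ) : Seminorm ℝ (ℕ →₀ ℝ) :=
  Seminorm.of (fun a => (∑ w, μ w * ‖t2b_F M n a w‖ ^ p) ^ (1 / p))
    (by
      have hp0 : 0 < p := lt_of_lt_of_le one_pos hp
      intro a b
      have key : ∀ c : ℕ →₀ ℝ, ∑ w, μ w * ‖t2b_F M n c w‖ ^ p
          = ∑ w, (μ w ^ (1 / p) * ‖t2b_F M n c w‖) ^ p := by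
        intro c
        apply Finset.sum_congr rfl
        intro w _
        rw [Real.mul_rpow (Real.rpow_nonneg (hμ w) _) (norm_nonneg _), ← Real.rpow_mul (hμ w),
          one_div, inv_mul_cancel₀ hp0.ne', Real.rpow_one]
      show (∑ w, μ w * ‖t2b_F M n (a + b) w‖ ^ p) ^ (1 / p) ≤
        (∑ w, μ w * ‖t2b_F M n a w‖ ^ p) ^ (1 / p) + (∑ w, μ w * ‖t2b_F M n b w‖ ^ p) ^ (1 / p)
      rw [key a, key b, key (a + b)]
      refine le_trans ?_ (Real.Lp_add_le_of_nonneg (s := Finset.univ)
        (f := fun w => μ w ^ (1 / p) * ‖t2b_F M n a w‖)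
        (g := fun w => μ w ^ (1 / p) * ‖t2b_F M n b w‖) hp
        (fun w _ => mul_nonneg (Real.rpow_nonneg (hμ w) _) (norm_nonneg _))
        (fun w _ => mul_nonneg (Real.rpow_nonneg (hμ w) _) (norm_nonneg _)))
      apply Real.rpow_le_rpow
      · exact Finset.sum_nonneg fun w _ =>
          Real.rpow_nonneg (mul_nonneg (Real.rpow_nonneg (hμ w) _) (norm_nonneg _)) _
      · apply Finset.sum_le_sum
        intro w _
        apply Real.rpow_le_rpow (mul_nonneg (Real.rpow_nonneg (hμ w) _) (norm_nonneg _)) _ hp0.le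
        rw [← mul_add, t2b_F_add]
        exact mul_le_mul_of_nonneg_left (norm_add_le _ _) (Real.rpow_nonneg (hμ w) _)
      · positivity)
    (by
      have hp0 : 0 < p := lt_of_lt_of_le one_pos hp
      intro c a
      show (∑ w, μ w * ‖t2b_F M n (c • a) w‖ ^ p) ^ (1 / p) =
        ‖c‖ * (∑ w, μ w * ‖t2b_F M n a w‖ ^ p) ^ (1 / p)
      have h1 : ∑ w, μ w * ‖t2b_F M n (c • a) w‖ ^ p
          = ‖c‖ ^ p * ∑ w, μ w * ‖t2b_F M n a w‖ ^ p := by
        rw [Finset.mul_sum]
        apply Finset.sum_congr rfl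
        intro w _
        rw [t2b_F_smul, norm_smul, Real.mul_rpow (norm_nonneg _) (norm_nonneg _)]
        ring
      rw [h1, Real.mul_rpow (Real.rpow_nonneg (norm_nonneg _) _)
        (Finset.sum_nonneg fun w _ => mul_nonneg (hμ w) (Real.rpow_nonneg (norm_nonneg _) _)),
        ← Real.rpow_mul (norm_nonneg _), one_div, mul_inv_cancel₀ hp0.ne', Real.rpow_one])

theorem t2b_nu_apply {p : ℝ} (hp : 1 ≤ p) {Ω : Type} [Fintype Ω] (μ : Ω → ℝ)
    (hμ : ∀ w, 0 ≤ μ w) (M : ℕ → Ω → X) (n : ℕ) (a : ℕ →₀ ℝ) :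
    t2b_nu hp μ hμ M n a = (∑ w, μ w * ‖t2b_F M n a w‖ ^ p) ^ (1 / p) := rfl

theorem t2b_nu_rpow {p : ℝ} (hp : 1 ≤ p) {Ω : Type} [Fintype Ω] (μ : Ω → ℝ)
    (hμ : ∀ w, 0 ≤ μ w) (M : ℕ → Ω → X) (n : ℕ) (a : ℕ →₀ ℝ) :
    t2b_nu hp μ hμ M n a ^ p = ∑ w, μ w * ‖t2b_F M n a w‖ ^ p := by
  have hp0 : 0 < p := lt_of_lt_of_le one_pos hp
  rw [t2b_nu_apply, ← Real.rpow_mul
    (Finset.sum_nonneg fun w _ => mul_nonneg (hμ w) (Real.rpow_nonneg (norm_nonneg _) _)),
    one_div, inv_mul_cancel₀ hp0.ne', Real.rpow_one]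

theorem t2b_MT {p K : ℝ} (hp : 1 ≤ p) (hX : MarkovTypeWith X p K) {Ω : Type} [Fintype Ω]
    (μ : Ω → ℝ) (hμ : ∀ w, 0 ≤ μ w) (M : ℕ → Ω → X) (n : ℕ) :
    MTNorm p K (t2b_nu hp μ hμ M n) := by
  intro S _ _ P π hP f t ht
  have key : ∀ Q : S → S → ℝ, ∑ i, ∑ j, Q i j * t2b_nu hp μ hμ M n (f j - f i) ^ p
      = ∑ w, μ w * ∑ i, ∑ j, Q i j * ‖t2b_F M n (f j) w - t2b_F M n (f i) w‖ ^ p := by
    intro Q
    have h1 : ∀ i j, Q i j * t2b_nu hp μ hμ M n (f j - f i) ^ p
        = ∑ w, μ w * (Q i j * ‖t2b_F M n (f j) w - t2b_F M n (f i) w‖ ^ p) := by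
      intro i j
      rw [t2b_nu_rpow, Finset.mul_sum]
      apply Finset.sum_congr rfl
      intro w _
      rw [t2b_F_sub]
      ring
    rw [Finset.sum_congr rfl fun i _ => Finset.sum_congr rfl fun j _ => h1 i j]
    rw [Finset.sum_congr rfl fun i _ => Finset.sum_comm, Finset.sum_comm]
    apply Finset.sum_congr rfl
    intro w _
    rw [Finset.mul_sum]
    apply Finset.sum_congr rfl
    intro i _
    rw [Finset.mul_sum]
  rw [key (fun i j => π i * (P ^ t) i j), key (fun i j => π i * P i j), Finset.mul_sum]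
  apply Finset.sum_le_sum
  intro w _
  have h2 := hX S P π hP (fun i => t2b_F M n (f i) w) t ht
  calc μ w * ∑ i, ∑ j, π i * (P ^ t) i j * ‖t2b_F M n (f j) w - t2b_F M n (f i) w‖ ^ p
      ≤ μ w * (K ^ p * t * ∑ i, ∑ j, π i * P i j *
          ‖t2b_F M n (f j) w - t2b_F M n (f i) w‖ ^ p) :=
        mul_le_mul_of_nonneg_left h2 (hμ w)
    _ = _ := by ring

theorem seq_norm {p K : ℝ} (hp : 1 ≤ p) (hK : 0 ≤ K) (hX : MarkovTypeWith X p K) {ε : ℝ}
    (hε : 0 < ε) (n : ℕ) (x : X) (h : Tree ε n x) :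
    ∃ ν : Seminorm ℝ (ℕ →₀ ℝ), MTNorm p K ν ∧ Good (ε / 2) n ν := by
  have hp0 : 0 < p := lt_of_lt_of_le one_pos hp
  obtain ⟨Ω, _, μ, M, g1, g2, g3, g4, g5⟩ := t2b_mart hε n x h
  refine ⟨t2b_nu hp μ g1 M n, t2b_MT hp hX μ g1 M n, ?_, ?_⟩
  · intro i
    rw [t2b_nu_apply]
    have h1 : ∑ w, μ w * ‖t2b_F M n (Finsupp.single i 1) w‖ ^ p ≤ 1 := by
      refine le_trans ?_ g2.le
      apply Finset.sum_le_sum
      intro w _
      apply mul_le_of_le_one_right (g1 w)
      apply Real.rpow_le_one (norm_nonneg _) _ hp0.le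
      unfold t2b_F
      by_cases hi : i < n
      · rw [Finset.sum_eq_single i]
        · simp only [Finsupp.single_eq_same, one_smul]
          exact g3 _ _
        · intro j _ hji
          rw [Finsupp.single_apply, if_neg (fun hh => hji hh.symm), zero_smul]
        · intro hh
          exact absurd (Finset.mem_range.mpr hi) hh
      · rw [Finset.sum_eq_zero]
        · simp
        · intro j hj
          have : j < n := Finset.mem_range.mp hj
          rw [Finsupp.single_apply, if_neg (by omega), zero_smul]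
    exact Real.rpow_le_one
      (Finset.sum_nonneg fun w _ => mul_nonneg (g1 w) (Real.rpow_nonneg (norm_nonneg _) _)) h1
      (by positivity)
  · intro a ha k
    by_cases hk : k < n
    · have h1 : tail a k = ∑ i ∈ (range (n + 1)).filter (fun i => k < i),
          (fun j => if j = 0 then (0 : ℝ) else a (j - 1)) i := by
        rw [Finset.sum_filter, Finset.sum_range_succ']
        simp only [not_lt_zero, if_false, add_zero, Nat.add_eq_zero_iff, one_ne_zero, and_false,
          Nat.add_sub_cancel]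
        unfold tail
        rw [Finset.sum_filter]
        have h2 : ∀ i, (if k < i + 1 then a i else 0) = if k ≤ i then a i else 0 := by
          intro i
          by_cases h : k ≤ i
          · rw [if_pos h, if_pos (by omega)]
          · rw [if_neg h, if_neg (by omega)]
        rw [Finset.sum_congr rfl fun i _ => h2 i]
        apply Finset.sum_subset_zero_on_sdiff (fun i hi => Finset.mem_range.mpr (ha i hi))
        · intro i hi
          rw [Finset.mem_sdiff, Finsupp.notMem_support_iff] at hi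
          rw [hi.2, ite_self]
        · intro i _
          rfl
      rw [h1]
      refine (g5 0 (fun j => if j = 0 then (0 : ℝ) else a (j - 1)) k hk).trans ?_
      have h3 : ∀ w, (0 : X) + ∑ i ∈ range (n + 1),
          (if i = 0 then (0 : ℝ) else a (i - 1)) • M i w = t2b_F M n a w := by
        intro w
        rw [zero_add, Finset.sum_range_succ']
        simp only [Nat.add_eq_zero_iff, one_ne_zero, and_false, if_false, if_true, zero_smul,
          add_zero, Nat.add_sub_cancel]
        rfl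
      rw [Finset.sum_congr rfl fun w _ => by rw [h3 w]]
      rw [t2b_nu_apply]
      exact Real.arith_mean_le_rpow_mean Finset.univ μ (fun w => ‖t2b_F M n a w‖)
        (fun w _ => g1 w) g2 (fun w _ => norm_nonneg _) hp
    · have h1 : tail a k = 0 := by
        unfold tail
        apply Finset.sum_eq_zero
        intro i hi
        rw [Finset.mem_filter] at hi
        have := ha i hi.1
        omega
      rw [h1, abs_zero, mul_zero]
      exact apply_nonneg _ _

end X

end Vale.Agent.H14.MT
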