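import Vale.Agent.H14.MT.Core

/-!
P125, row T2a: separated martingale trees from nonempty iterated slice derivatives.
-/

open Finset

namespace Vale.Agent.H14.MT

section X
variable {X : Type*} [NormedAddCommGroup X] [NormedSpace ℝ X]

theorem t2a_fin {S : Set X} {b : X} (hb : b ∈ convexHull ℝ S) :
    ∃ (k : ℕ) (l : Fin k → ℝ) (y : Fin k → X), (∀ i, 0 ≤ l i) ∧ ∑ i, l i = 1 ∧
      (∀ i, y i ∈ S) ∧ ∑ i, l i • y i = b := by
  obtain ⟨ι, hι, w, z, h1, h2, h3, h4⟩ := mem_convexHull_iff_exists_fintype.1 hb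
  let e := (Fintype.equivFin ι).symm
  refine ⟨Fintype.card ι, fun i => w (e i), fun i => z (e i), fun i => h1 _, ?_,
    fun i => h3 _, ?_⟩
  · rw [← h2]
    exact Equiv.sum_comp e w
  · rw [← h4]
    exact Equiv.sum_comp e (fun i => w i • z i)

theorem t2a_split {ε : ℝ} {C : Set X} {x : X} (hx : x ∈ der ε C) {η : ℝ} (hη : 0 < η) :
    ∃ (k : ℕ) (l : Fin k → ℝ) (y : Fin k → X), (∀ i, 0 ≤ l i) ∧ ∑ i, l i = 1 ∧
      (∀ i, y i ∈ C) ∧ (∀ i, ε / 2 ≤ ‖y i - x‖) ∧ ‖∑ i, l i • y i - x‖ ≤ η := by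
  set S : Set X := {y | y ∈ C ∧ ε / 2 ≤ ‖y - x‖} with hS
  have hmem : x ∈ closure (convexHull ℝ S) := by
    by_contra hcon
    obtain ⟨f, u, hfx, hfb⟩ := geometric_hahn_banach_point_closed
      (convex_convexHull ℝ S).closure isClosed_closure hcon
    have h1 : ∀ y ∈ C, f y < u → ‖y - x‖ < ε / 2 := by
      intro y hy hyu
      by_contra hcon2
      have hyS : y ∈ S := ⟨hy, not_lt.mp hcon2⟩
      have := hfb y (subset_closure (subset_convexHull ℝ S hyS))
      exact absurd hyu (not_lt.mpr this.le)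
    have h2 := hx.2 (-f) (-u) (by
      intro y hy z hz hyu hzu
      have hyu' : f y < u := by
        have : -u < -(f y) := hyu
        linarith
      have hzu' : f z < u := by
        have : -u < -(f z) := hzu
        linarith
      have h3 := h1 y hy hyu'
      have h4 := h1 z hz hzu'
      have h5 : ‖y - z‖ ≤ ‖y - x‖ + ‖z - x‖ := by
        have : y - z = (y - x) - (z - x) := by abel
        rw [this]
        exact norm_sub_le _ _
      linarith)
    have h6 : -(f x) ≤ -u := h2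
    linarith
  obtain ⟨b, hb, hdb⟩ := Metric.mem_closure_iff.1 hmem η hη
  obtain ⟨k, l, y, h1, h2, h3, h4⟩ := t2a_fin hb
  refine ⟨k, l, y, h1, h2, fun i => (h3 i).1, fun i => (h3 i).2, ?_⟩
  rw [h4, ← dist_eq_norm, dist_comm]
  exact hdb.le

theorem t2a_aux {ε : ℝ} (hε : 0 < ε) (n : ℕ) : ∀ (x : X), x ∈ derN ε n → ∀ η : ℝ, 0 < η →
    ∃ x' : X, ‖x' - x‖ ≤ η ∧ Tree (ε / 4) n x' := by
  induction n with
  | zero =>
    intro x hx η hη
    refine ⟨x, by simpa using hη.le, ?_⟩
    have : x ∈ Metric.closedBall (0 : X) 1 := hx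
    rw [mem_closedBall_zero_iff] at this
    exact this
  | succ n ih =>
    intro x hx η hη
    have hx' : x ∈ der ε (derN ε n) := hx
    set η' : ℝ := min (η / 2) (ε / 12) with hη'
    have hη'0 : 0 < η' := by
      rw [hη']
      exact lt_min (by linarith) (by linarith)
    have hη'1 : η' ≤ η / 2 := min_le_left _ _
    have hη'2 : η' ≤ ε / 12 := min_le_right _ _
    obtain ⟨k, l, y, h1, h2, h3, h4, h5⟩ := t2a_split hx' hη'0
    choose y' hy' hyt using fun i => ih (y i) (h3 i) η' hη'0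
    have h6 : ‖∑ i, l i • y' i - ∑ i, l i • y i‖ ≤ η' := by
      rw [← Finset.sum_sub_distrib]
      calc ‖∑ i, (l i • y' i - l i • y i)‖ ≤ ∑ i, ‖l i • y' i - l i • y i‖ := norm_sum_le _ _
        _ ≤ ∑ i, l i * η' := by
          apply Finset.sum_le_sum
          intro i _
          rw [← smul_sub, norm_smul, Real.norm_eq_abs, abs_of_nonneg (h1 i)]
          exact mul_le_mul_of_nonneg_left (hy' i) (h1 i)
        _ = η' := by rw [← Finset.sum_mul, h2, one_mul]
    have h7 : ‖∑ i, l i • y' i - x‖ ≤ 2 * η' := by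
      have : ∑ i, l i • y' i - x = (∑ i, l i • y' i - ∑ i, l i • y i)
          + (∑ i, l i • y i - x) := by abel
      rw [this]
      refine (norm_add_le _ _).trans ?_
      linarith
    refine ⟨∑ i, l i • y' i, by linarith, k, l, y', h1, h2, rfl, ?_, hyt⟩
    intro i
    have h8 : ‖y i - x‖ ≤ ‖y' i - ∑ i, l i • y' i‖ + ‖∑ i, l i • y' i - x‖ + ‖y' i - y i‖ := by
      have : y i - x = (y' i - ∑ i, l i • y' i) + (∑ i, l i • y' i - x) - (y' i - y i) := by abel
      rw [this]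
      refine (norm_sub_le _ _).trans ?_
      gcongr
      exact norm_add_le _ _
    have h9 := h4 i
    have h10 := hy' i
    linarith

theorem tree_of_der {ε : ℝ} (hε : 0 < ε) (n : ℕ) (h : (derN (X := X) ε n).Nonempty) :
    ∃ x : X, Tree (ε / 4) n x := by
  obtain ⟨x, hx⟩ := h
  obtain ⟨x', _, hx'⟩ := t2a_aux hε n x hx 1 one_pos
  exact ⟨x', hx'⟩

end X

end Vale.Agent.H14.MT
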