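import Vale.Agent.H14.MT.Renorm
import Vale.Agent.H14.MT.Tree
import Vale.Agent.H14.MT.SeqNorm
import Vale.Agent.H14.MT.LimitStar
import Vale.Agent.H14.MT.Contra

/-!
P125: a nontrivial Markov type implies superreflexivity (assembly).
-/

namespace Vale.Agent.H14.MT

/-- the answer to the question -/
theorem superreflexive_of_markovType {X : Type*} [NormedAddCommGroup X] [NormedSpace ℝ X]
    {p : ℝ} (hp : 1 < p) (h : HasMarkovType X p) : Superreflexive X := by
  obtain ⟨K, hK, hX⟩ := h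
  by_contra hns
  have h1 : ∃ ε : ℝ, 0 < ε ∧ ∀ n, (derN (X := X) ε n).Nonempty := by
    by_contra hcon
    refine hns (renorm fun ε hε => ?_)
    by_contra hcon2
    refine hcon ⟨ε, hε, fun n => ?_⟩
    by_contra hcon3
    exact hcon2 ⟨n, Set.not_nonempty_iff_eq_empty.1 hcon3⟩
  obtain ⟨ε, hε, hne⟩ := h1
  have h2 : ∀ n : ℕ, ∃ ν : Seminorm ℝ (ℕ →₀ ℝ), MTNorm p K ν ∧ Good (ε / 4 / 2) n ν := by
    intro n
    obtain ⟨x, hx⟩ := tree_of_der hε n (hne n)
    exact seq_norm hp.le hK hX (by positivity) n x hx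
  obtain ⟨N, hN, hs⟩ := exists_spreadNorm hp.le hK (by positivity) h2
  exact contra hp hK (by positivity) hN hs

end Vale.Agent.H14.MT
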