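import Vale.Agent.H14.MT.Core

/-!
P125, T1: Lancien's renorming.
-/

open Metric Set

namespace Vale.Agent.H14.MT

section X
variable {X : Type*} [NormedAddCommGroup X] [NormedSpace ℝ X]

theorem t1_der_subset (ε : ℝ) (C : Set X) : der ε C ⊆ C := fun _ h => h.1

theorem t1_derN_subset (ε : ℝ) (n : ℕ) : derN (X := X) ε n ⊆ closedBall 0 1 := by
  induction n with
  | zero => exact subset_rfl
  | succ n ih => exact (t1_der_subset ε _).trans ih

theorem t1_der_convex {ε : ℝ} {C : Set X} (hC : Convex ℝ C) : Convex ℝ (der ε C) := by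
  intro x hx y hy a b ha hb hab
  refine ⟨hC hx.1 hy.1 ha hb hab, fun φ c hφ => ?_⟩
  have h1 := hx.2 φ c hφ
  have h2 := hy.2 φ c hφ
  rw [map_add, map_smul, map_smul, smul_eq_mul, smul_eq_mul]
  have h3 : a * φ x ≤ a * c := mul_le_mul_of_nonneg_left h1 ha
  have h4 : b * φ y ≤ b * c := mul_le_mul_of_nonneg_left h2 hb
  have h5 : a * c + b * c = c := by rw [← add_mul, hab, one_mul]
  linarith

theorem t1_der_symm {ε : ℝ} {C : Set X} (hC : ∀ x ∈ C, -x ∈ C) :
    ∀ x ∈ der ε C, -x ∈ der ε C := by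
  intro x hx
  refine ⟨hC x hx.1, fun φ c hφ => ?_⟩
  have := hx.2 (-φ) c (fun y hy z hz h1 h2 => by
    have h3 := hφ (-y) (hC y hy) (-z) (hC z hz) (by simpa using h1) (by simpa using h2)
    rwa [← norm_neg, show -(-y - -z) = y - z by abel] at h3)
  simpa using this

theorem t1_derN_convex (ε : ℝ) (n : ℕ) : Convex ℝ (derN (X := X) ε n) := by
  induction n with
  | zero => exact convex_closedBall 0 1
  | succ n ih => exact t1_der_convex ih

theorem t1_derN_symm (ε : ℝ) (n : ℕ) : ∀ x ∈ derN (X := X) ε n, -x ∈ derN (X := X) ε n := by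
  induction n with
  | zero =>
    intro x hx
    have : ‖x‖ ≤ 1 := by simpa [derN] using hx
    simpa [derN] using this
  | succ n ih => exact t1_der_symm ih

theorem t1_zero_mem {C : Set X} (hC : Convex ℝ C) (hs : ∀ x ∈ C, -x ∈ C) (hne : C.Nonempty) :
    (0 : X) ∈ C := by
  obtain ⟨x, hx⟩ := hne
  have := hC hx (hs x hx) (show (0 : ℝ) ≤ 1 / 2 by norm_num) (show (0 : ℝ) ≤ 1 / 2 by norm_num)
    (by norm_num)
  simpa using this

theorem t1_mid {ε : ℝ} {C : Set X} (hC : Convex ℝ C) {x y : X} (hx : x ∈ C) (hy : y ∈ C)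
    (hxy : 2 * ε < ‖x - y‖) : (1 / 2 : ℝ) • (x + y) ∈ der ε C := by
  have hm : (1 / 2 : ℝ) • (x + y) ∈ C := by
    rw [smul_add]
    exact hC hx hy (by norm_num) (by norm_num) (by norm_num)
  refine ⟨hm, fun φ c hφ => ?_⟩
  by_contra hlt
  rw [not_le] at hlt
  have hs : φ ((1 / 2 : ℝ) • (x + y)) = (φ x + φ y) / 2 := by
    rw [map_smul, map_add, smul_eq_mul]; ring
  rcases lt_or_ge c (φ x) with h1 | h1
  · have h3 := hφ x hx _ hm h1 hlt
    rw [show x - (1 / 2 : ℝ) • (x + y) = (1 / 2 : ℝ) • (x - y) by module, norm_smul,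
      Real.norm_of_nonneg (by norm_num)] at h3
    linarith
  · have h2 : c < φ y := by rw [hs] at hlt; linarith
    have h3 := hφ y hy _ hm h2 hlt
    rw [show y - (1 / 2 : ℝ) • (x + y) = (1 / 2 : ℝ) • (y - x) by module, norm_smul,
      Real.norm_of_nonneg (by norm_num), norm_sub_rev] at h3
    linarith

omit [NormedSpace ℝ X] in
theorem t1_exists_near {C : Set X} (hne : C.Nonempty) (x : X) {τ η : ℝ} (h : infDist x C ≤ τ)
    (hη : 0 < η) : ∃ x' ∈ C, ‖x - x'‖ ≤ τ + η := by
  obtain ⟨x', hx', hd⟩ := (infDist_lt_iff hne).1 (lt_of_le_of_lt h (show τ < τ + η by linarith))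
  exact ⟨x', hx', by rw [← dist_eq_norm]; exact hd.le⟩

theorem t1_infDist_convex {C : Set X} (hC : Convex ℝ C) (hne : C.Nonempty) :
    ConvexOn ℝ univ (fun x => infDist x C) := by
  refine ⟨convex_univ, fun x _ y _ a b ha hb hab => ?_⟩
  refine le_of_forall_pos_le_add fun η hη => ?_
  obtain ⟨x', hx', hxd⟩ := t1_exists_near hne x le_rfl hη
  obtain ⟨y', hy', hyd⟩ := t1_exists_near hne y le_rfl hη
  have hmem : a • x' + b • y' ∈ C := hC hx' hy' ha hb hab
  calc infDist (a • x + b • y) C ≤ dist (a • x + b • y) (a • x' + b • y') :=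
        infDist_le_dist_of_mem hmem
    _ = ‖a • (x - x') + b • (y - y')‖ := by
        rw [dist_eq_norm]; congr 1; module
    _ ≤ a * ‖x - x'‖ + b * ‖y - y'‖ := by
        refine (norm_add_le _ _).trans (le_of_eq ?_)
        rw [norm_smul, norm_smul, Real.norm_of_nonneg ha, Real.norm_of_nonneg hb]
    _ ≤ a * (infDist x C + η) + b * (infDist y C + η) := by gcongr
    _ = a • infDist x C + b • infDist y C + η := by
        simp only [smul_eq_mul]
        have : a * η + b * η = η := by rw [← add_mul, hab, one_mul]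
        linarith

omit [NormedSpace ℝ X] in
theorem t1_infDist_symm {C : Set X} (hs : ∀ x ∈ C, -x ∈ C) (x : X) :
    infDist (-x) C = infDist x C := by
  have key : ∀ x, infDist (-x) C ≤ infDist x C := by
    intro x
    rcases C.eq_empty_or_nonempty with h | hne
    · simp [h]
    refine le_of_forall_pos_le_add fun η hη => ?_
    obtain ⟨x', hx', hxd⟩ := t1_exists_near hne x le_rfl hη
    refine (infDist_le_dist_of_mem (hs x' hx')).trans ?_
    rw [dist_eq_norm, show -x - -x' = -(x - x') by abel, norm_neg]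
    exact hxd
  refine le_antisymm (key x) ?_
  have := key (-x)
  rwa [neg_neg] at this

/-- the convexity defect at the midpoint -/
noncomputable def dfc (G : X → ℝ) (x y : X) : ℝ := (G x + G y) / 2 - G ((1 / 2 : ℝ) • (x + y))

theorem t1_dfc_nonneg {G : X → ℝ} (hG : ConvexOn ℝ univ G) (x y : X) : 0 ≤ dfc G x y := by
  have := hG.2 (mem_univ x) (mem_univ y) (show (0 : ℝ) ≤ 1 / 2 by norm_num)
    (show (0 : ℝ) ≤ 1 / 2 by norm_num) (by norm_num)
  simp only [smul_eq_mul] at this
  unfold dfc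
  rw [smul_add]
  linarith

theorem t1_scale {ε : ℝ} (h : ∃ n, derN (X := X) ε n = ∅) :
    ∃ G : X → ℝ, ConvexOn ℝ univ G ∧ (∀ x, G (-x) = G x) ∧ (∀ x, 0 ≤ G x) ∧ (∀ x, G x ≤ ‖x‖) ∧
      (∀ x y, G x - G y ≤ ‖x - y‖) ∧ ∀ t, 2 * ε < t → ∃ η : ℝ, 0 < η ∧
        ∀ x y : X, ‖x‖ ≤ 1 → ‖y‖ ≤ 1 → t ≤ ‖x - y‖ → η ≤ dfc G x y := by
  classical
  set N := Nat.find h with hN
  have hNe : derN (X := X) ε N = ∅ := Nat.find_spec h
  have hne : ∀ n, n < N → (derN (X := X) ε n).Nonempty := fun n hn => by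
    rw [Set.nonempty_iff_ne_empty]
    exact Nat.find_min h hn
  have hNpos : 0 < N := by
    rcases Nat.eq_zero_or_pos N with h0 | h0
    · rw [h0] at hNe
      exact absurd hNe (Set.Nonempty.ne_empty ⟨0, by simp [derN]⟩)
    · exact h0
  have hNR : (0 : ℝ) < N := by exact_mod_cast hNpos
  have hcv : ∀ n, n < N → ConvexOn ℝ univ (fun x => infDist x (derN (X := X) ε n)) :=
    fun n hn => t1_infDist_convex (t1_derN_convex ε n) (hne n hn)
  have hz : ∀ n, n < N → (0 : X) ∈ derN (X := X) ε n := fun n hn =>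
    t1_zero_mem (t1_derN_convex ε n) (t1_derN_symm ε n) (hne n hn)
  refine ⟨fun x => (∑ n ∈ Finset.range N, infDist x (derN (X := X) ε n)) / N, ?_, ?_, ?_, ?_, ?_,
    ?_⟩
  · refine ⟨convex_univ, fun x _ y _ a b ha hb hab => ?_⟩
    simp only [smul_eq_mul]
    rw [← mul_div_assoc, ← mul_div_assoc, ← add_div]
    refine div_le_div_of_nonneg_right ?_ hNR.le
    rw [Finset.mul_sum, Finset.mul_sum, ← Finset.sum_add_distrib]
    refine Finset.sum_le_sum fun n hn => ?_
    have := (hcv n (Finset.mem_range.1 hn)).2 (mem_univ x) (mem_univ y) ha hb hab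
    simpa only [smul_eq_mul] using this
  · intro x
    simp only
    congr 1
    exact Finset.sum_congr rfl fun n _ => t1_infDist_symm (t1_derN_symm ε n) x
  · intro x
    exact div_nonneg (Finset.sum_nonneg fun n _ => infDist_nonneg) hNR.le
  · intro x
    rw [div_le_iff₀ hNR]
    calc ∑ n ∈ Finset.range N, infDist x (derN (X := X) ε n)
        ≤ ∑ n ∈ Finset.range N, ‖x‖ := by
          refine Finset.sum_le_sum fun n hn => ?_
          refine (infDist_le_dist_of_mem (hz n (Finset.mem_range.1 hn))).trans ?_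
          rw [dist_zero_right]
      _ = ‖x‖ * N := by rw [Finset.sum_const, Finset.card_range, nsmul_eq_mul, mul_comm]
  · intro x y
    rw [← sub_div, div_le_iff₀ hNR, ← Finset.sum_sub_distrib]
    calc ∑ n ∈ Finset.range N, (infDist x (derN (X := X) ε n) - infDist y (derN (X := X) ε n))
        ≤ ∑ n ∈ Finset.range N, ‖x - y‖ := by
          refine Finset.sum_le_sum fun n hn => ?_
          have := infDist_le_infDist_add_dist (s := derN (X := X) ε n) (x := x) (y := y)
          rw [dist_eq_norm] at this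
          linarith
      _ = ‖x - y‖ * N := by rw [Finset.sum_const, Finset.card_range, nsmul_eq_mul, mul_comm]
  · intro t ht
    set η : ℝ := (t - 2 * ε) / (11 * 2 ^ N) with hηdef
    have hη : 0 < η := div_pos (by linarith) (by positivity)
    refine ⟨η / N, by positivity, fun x y hx hy hxy => ?_⟩
    by_contra hlt
    rw [not_le] at hlt
    -- every single defect is small
    have hd : ∀ n, n < N → dfc (fun x => infDist x (derN (X := X) ε n)) x y < η := by
      intro n hn
      have h1 : ∑ n ∈ Finset.range N, dfc (fun x => infDist x (derN (X := X) ε n)) x y < η := by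
        have : dfc (fun x => (∑ n ∈ Finset.range N, infDist x (derN (X := X) ε n)) / N) x y
            = (∑ n ∈ Finset.range N, dfc (fun x => infDist x (derN (X := X) ε n)) x y) / N := by
          unfold dfc
          rw [Finset.sum_sub_distrib, ← Finset.sum_div, Finset.sum_add_distrib]
          ring
        rw [this, div_lt_div_iff_of_pos_right hNR] at hlt
        exact hlt
      refine lt_of_le_of_lt ?_ h1
      exact Finset.single_le_sum (f := fun n => dfc (fun x => infDist x (derN (X := X) ε n)) x y)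
        (fun n hn => t1_dfc_nonneg (hcv n (Finset.mem_range.1 hn)) x y) (Finset.mem_range.2 hn)
    -- the step
    have hstep : ∀ n, n < N → ∀ τ : ℝ, τ ≤ 4 * η * (2 ^ n - 1) →
        infDist x (derN (X := X) ε n) ≤ τ → infDist y (derN (X := X) ε n) ≤ τ →
        ∃ m' ∈ derN (X := X) ε (n + 1), ‖(1 / 2 : ℝ) • (x + y) - m'‖ ≤ τ + η := by
      intro n hn τ hτ h1 h2
      obtain ⟨x', hx', hxd⟩ := t1_exists_near (hne n hn) x h1 hη
      obtain ⟨y', hy', hyd⟩ := t1_exists_near (hne n hn) y h2 hη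
      refine ⟨(1 / 2 : ℝ) • (x' + y'), t1_mid (t1_derN_convex ε n) hx' hy' ?_, ?_⟩
      · have h3 : ‖x - y‖ ≤ ‖x - x'‖ + ‖x' - y'‖ + ‖y - y'‖ := by
          calc ‖x - y‖ = ‖(x - x') + (x' - y') - (y - y')‖ := by congr 1; abel
            _ ≤ ‖(x - x') + (x' - y')‖ + ‖y - y'‖ := norm_sub_le _ _
            _ ≤ ‖x - x'‖ + ‖x' - y'‖ + ‖y - y'‖ := by gcongr; exact norm_add_le _ _
        have h4 : (2 : ℝ) ^ n ≤ 2 ^ N := pow_le_pow_right₀ (by norm_num) hn.le
        have h5 : (1 : ℝ) ≤ 2 ^ N := one_le_pow₀ (by norm_num)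
        have h6 : η * (11 * 2 ^ N) = t - 2 * ε := by
          rw [hηdef]; field_simp
        have h7 : η * 2 ^ n ≤ η * 2 ^ N := mul_le_mul_of_nonneg_left h4 hη.le
        have h8 : η * 1 ≤ η * 2 ^ N := mul_le_mul_of_nonneg_left h5 hη.le
        have h9 : 0 < η * 2 ^ N := by positivity
        nlinarith
      · calc ‖(1 / 2 : ℝ) • (x + y) - (1 / 2 : ℝ) • (x' + y')‖
            = ‖(1 / 2 : ℝ) • ((x - x') + (y - y'))‖ := by congr 1; module
          _ ≤ (1 / 2) * (‖x - x'‖ + ‖y - y'‖) := by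
              rw [norm_smul, Real.norm_of_nonneg (by norm_num)]
              gcongr
              exact norm_add_le _ _
          _ ≤ τ + η := by linarith
    have hind : ∀ n, n < N → infDist x (derN (X := X) ε n) ≤ 4 * η * (2 ^ n - 1) ∧
        infDist y (derN (X := X) ε n) ≤ 4 * η * (2 ^ n - 1) := by
      intro n
      induction n with
      | zero =>
        intro _
        have hx0 : x ∈ derN (X := X) ε 0 := by simpa [derN] using hx
        have hy0 : y ∈ derN (X := X) ε 0 := by simpa [derN] using hy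
        rw [infDist_zero_of_mem hx0, infDist_zero_of_mem hy0]
        simp
      | succ n ih =>
        intro hn
        obtain ⟨h1, h2⟩ := ih (by omega)
        obtain ⟨m', hm', hmd⟩ := hstep n (by omega) _ le_rfl h1 h2
        have h3 : infDist ((1 / 2 : ℝ) • (x + y)) (derN (X := X) ε (n + 1))
            ≤ 4 * η * (2 ^ n - 1) + η := by
          refine (infDist_le_dist_of_mem hm').trans ?_
          rw [dist_eq_norm]
          exact hmd
        have h4 := hd (n + 1) hn
        unfold dfc at h4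
        have h5 : 0 ≤ infDist x (derN (X := X) ε (n + 1)) := infDist_nonneg
        have h6 : 0 ≤ infDist y (derN (X := X) ε (n + 1)) := infDist_nonneg
        have h7 : 4 * η * (2 ^ (n + 1) - 1) = 2 * (4 * η * (2 ^ n - 1)) + 4 * η := by
          rw [pow_succ]; ring
        constructor <;> linarith
    obtain ⟨h1, h2⟩ := hind (N - 1) (by omega)
    obtain ⟨m', hm', -⟩ := hstep (N - 1) (by omega) _ le_rfl h1 h2
    rw [show N - 1 + 1 = N by omega, hNe] at hm'
    exact hm'

theorem renorm (h : ∀ ε : ℝ, 0 < ε → ∃ n, derN (X := X) ε n = ∅) : Superreflexive X := by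
  classical
  have hk : ∀ k : ℕ, (0 : ℝ) < 1 / ((k : ℝ) + 1) := fun k => by positivity
  choose G hcv hsym hnn hle hlip hdef using fun k : ℕ => t1_scale (h (1 / ((k : ℝ) + 1)) (hk k))
  have hsum : ∀ x, Summable (fun k : ℕ => (1 / 2 : ℝ) ^ k * G k x) := fun x =>
    Summable.of_nonneg_of_le (fun k => mul_nonneg (by positivity) (hnn k x))
      (fun k => mul_le_mul_of_nonneg_left (hle k x) (by positivity))
      (summable_geometric_two.mul_right ‖x‖)
  have hgeo : ∀ c : ℝ, HasSum (fun k : ℕ => (1 / 2 : ℝ) ^ k * c) (2 * c) := fun c =>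
    hasSum_geometric_two.mul_right c
  obtain ⟨F, hF⟩ : ∃ F : X → ℝ, ∀ x, F x = ‖x‖ + ∑' k, (1 / 2 : ℝ) ^ k * G k x :=
    ⟨_, fun _ => rfl⟩
  have hFcv : ∀ (x y : X) (a b : ℝ), 0 ≤ a → 0 ≤ b → a + b = 1 →
      F (a • x + b • y) ≤ a * F x + b * F y := by
    intro x y a b ha hb hab
    rw [hF, hF, hF]
    have h1 : ‖a • x + b • y‖ ≤ a * ‖x‖ + b * ‖y‖ := by
      refine (norm_add_le _ _).trans (le_of_eq ?_)
      rw [norm_smul, norm_smul, Real.norm_of_nonneg ha, Real.norm_of_nonneg hb]
    have h2 : ∑' k, (1 / 2 : ℝ) ^ k * G k (a • x + b • y) ≤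
        a * ∑' k, (1 / 2 : ℝ) ^ k * G k x + b * ∑' k, (1 / 2 : ℝ) ^ k * G k y := by
      refine hasSum_le (fun k => ?_) (hsum _).hasSum
        (((hsum x).hasSum.mul_left a).add ((hsum y).hasSum.mul_left b))
      have := (hcv k).2 (mem_univ x) (mem_univ y) ha hb hab
      simp only [smul_eq_mul] at this
      have h3 : (0 : ℝ) ≤ (1 / 2) ^ k := by positivity
      have h4 := mul_le_mul_of_nonneg_left this h3
      linarith
    linarith
  have hFlb : ∀ x, ‖x‖ ≤ F x := by
    intro x
    rw [hF]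
    have : 0 ≤ ∑' k, (1 / 2 : ℝ) ^ k * G k x :=
      tsum_nonneg fun k => mul_nonneg (by positivity) (hnn k x)
    linarith
  have hFub : ∀ x, F x ≤ 3 * ‖x‖ := by
    intro x
    rw [hF]
    have : ∑' k, (1 / 2 : ℝ) ^ k * G k x ≤ 2 * ‖x‖ :=
      hasSum_le (fun k => mul_le_mul_of_nonneg_left (hle k x) (by positivity)) (hsum x).hasSum
        (hgeo ‖x‖)
    linarith
  have hFlip : ∀ x y, F x - F y ≤ 3 * ‖x - y‖ := by
    intro x y
    rw [hF, hF]
    have h1 : ∑' k, (1 / 2 : ℝ) ^ k * G k x - ∑' k, (1 / 2 : ℝ) ^ k * G k y ≤ 2 * ‖x - y‖ := by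
      refine hasSum_le (fun k => ?_) ((hsum x).hasSum.sub (hsum y).hasSum) (hgeo ‖x - y‖)
      have h3 : (0 : ℝ) ≤ (1 / 2) ^ k := by positivity
      have h4 := mul_le_mul_of_nonneg_left (hlip k x y) h3
      linarith
    have h2 := norm_sub_norm_le x y
    linarith
  have hFsym : ∀ x, F (-x) = F x := by
    intro x
    rw [hF, hF, norm_neg]
    simp only [hsym]
  have hF0 : F 0 = 0 := by
    have h1 := hFlb 0
    have h2 := hFub 0
    rw [norm_zero] at h1 h2
    linarith
  have hFcont : Continuous F := by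
    refine (LipschitzWith.of_dist_le_mul (K := 3) fun x y => ?_).continuous
    rw [Real.dist_eq, dist_eq_norm]
    refine abs_le.2 ⟨?_, ?_⟩
    · have := hFlip y x
      rw [norm_sub_rev] at this
      simp only [NNReal.coe_ofNat]
      linarith
    · have := hFlip x y
      simpa using this
  set S : Set X := {x | F x ≤ 1} with hS
  have hSclosed : IsClosed S := isClosed_le hFcont continuous_const
  have hSconv : Convex ℝ S := by
    intro x hx y hy a b ha hb hab
    have h1 := hFcv x y a b ha hb hab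
    have hx' : F x ≤ 1 := hx
    have hy' : F y ≤ 1 := hy
    have h2 : a * F x ≤ a * 1 := mul_le_mul_of_nonneg_left hx' ha
    have h3 : b * F y ≤ b * 1 := mul_le_mul_of_nonneg_left hy' hb
    change F (a • x + b • y) ≤ 1
    linarith
  have hhom : ∀ (a : ℝ) (x : X), 0 ≤ a → a ≤ 1 → F (a • x) ≤ a * F x := by
    intro a x h0 h1
    have := hFcv x 0 a (1 - a) h0 (by linarith) (by ring)
    rw [smul_zero, add_zero, hF0, mul_zero, add_zero] at this
    exact this
  have hSbal : Balanced ℝ S := by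
    intro a ha
    rintro _ ⟨x, hx, rfl⟩
    have hx' : F x ≤ 1 := hx
    have hx0 : 0 ≤ F x := (norm_nonneg x).trans (hFlb x)
    rw [Real.norm_eq_abs] at ha
    change F (a • x) ≤ 1
    rcases le_total 0 a with h0 | h0
    · rw [abs_of_nonneg h0] at ha
      have := hhom a x h0 ha
      nlinarith
    · rw [abs_of_nonpos h0] at ha
      have := hhom (-a) (-x) (by linarith) ha
      rw [smul_neg, neg_smul, neg_neg, hFsym] at this
      nlinarith
  have hSball : closedBall (0 : X) (1 / 3) ⊆ S := by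
    intro x hx
    rw [mem_closedBall_zero_iff] at hx
    have := hFub x
    change F x ≤ 1
    linarith
  have hSnhds : S ∈ nhds (0 : X) :=
    Filter.mem_of_superset (closedBall_mem_nhds 0 (by norm_num)) hSball
  have hSabs : Absorbent ℝ S := absorbent_nhds_zero hSnhds
  have hSsub : S ⊆ closedBall (0 : X) 1 := by
    intro x hx
    rw [mem_closedBall_zero_iff]
    exact (hFlb x).trans hx
  have hg1 : ∀ x, gauge S x ≤ 1 ↔ F x ≤ 1 := by
    intro x
    rw [gauge_le_one_iff_mem_closure hSconv hSnhds, hSclosed.closure_eq]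
    rfl
  have hlow : ∀ x, ‖x‖ ≤ gauge S x := by
    intro x
    have := gauge_mono hSabs hSsub x
    rwa [gauge_closedBall zero_le_one, div_one] at this
  have hup : ∀ x, gauge S x ≤ 3 * ‖x‖ := by
    intro x
    have := gauge_mono (absorbent_nhds_zero (closedBall_mem_nhds (0 : X)
      (show (0 : ℝ) < 1 / 3 by norm_num))) hSball x
    rw [gauge_closedBall (by norm_num)] at this
    refine this.trans (le_of_eq ?_)
    ring
  refine ⟨gaugeSeminorm hSbal hSconv hSabs, ⟨1, 3, one_pos, by norm_num, fun x => ⟨?_, hup x⟩⟩,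
    fun ε hε => ?_⟩
  · rw [one_mul]
    exact hlow x
  · obtain ⟨k, hkε⟩ := exists_nat_one_div_lt (show (0 : ℝ) < ε / 6 by positivity)
    obtain ⟨η, hη, hηb⟩ := hdef k (ε / 3) (by linarith)
    set δ₀ : ℝ := (1 / 2) ^ k * η with hδ₀
    have hδ₀pos : 0 < δ₀ := by positivity
    set c : ℝ := δ₀ / 3 with hc
    have hcpos : 0 < c := by positivity
    refine ⟨c / (1 + c), by positivity, fun x y hx hy hxy => ?_⟩
    change gauge S x ≤ 1 at hx
    change gauge S y ≤ 1 at hy
    change ε ≤ gauge S (x - y) at hxy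
    change gauge S ((1 / 2 : ℝ) • (x + y)) ≤ 1 - c / (1 + c)
    have hFx := (hg1 x).1 hx
    have hFy := (hg1 y).1 hy
    have hnx : ‖x‖ ≤ 1 := (hFlb x).trans hFx
    have hny : ‖y‖ ≤ 1 := (hFlb y).trans hFy
    have hxy' : ε / 3 ≤ ‖x - y‖ := by
      have := hup (x - y)
      linarith
    have hdk := hηb x y hnx hny hxy'
    set z : X := (1 / 2 : ℝ) • (x + y) with hz
    have hnz : ‖z‖ ≤ 1 := by
      rw [hz, norm_smul, Real.norm_of_nonneg (by norm_num)]
      have := norm_add_le x y
      linarith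
    have hFz : F z ≤ 1 - δ₀ := by
      have h1 : HasSum (fun j => (1 / 2 : ℝ) ^ j * dfc (G j) x y)
          ((∑' j, (1 / 2 : ℝ) ^ j * G j x + ∑' j, (1 / 2 : ℝ) ^ j * G j y) / 2 -
            ∑' j, (1 / 2 : ℝ) ^ j * G j z) := by
        have := (((hsum x).hasSum.add (hsum y).hasSum).div_const 2).sub (hsum z).hasSum
        refine this.congr_fun ?_
        intro j
        unfold dfc
        rw [← hz]
        ring
      have h2 : (1 / 2 : ℝ) ^ k * dfc (G k) x y ≤ _ :=
        le_hasSum h1 k fun j _ => mul_nonneg (by positivity) (t1_dfc_nonneg (hcv j) x y)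
      have h3 : δ₀ ≤ (1 / 2 : ℝ) ^ k * dfc (G k) x y :=
        mul_le_mul_of_nonneg_left hdk (by positivity)
      have h4 : ‖z‖ ≤ (‖x‖ + ‖y‖) / 2 := by
        rw [hz, norm_smul, Real.norm_of_nonneg (by norm_num)]
        have := norm_add_le x y
        linarith
      have e1 := hF x
      have e2 := hF y
      have e3 := hF z
      linarith
    have hF1 : F ((1 + c) • z) ≤ 1 := by
      have h1 := hFlip ((1 + c) • z) z
      rw [show (1 + c) • z - z = c • z by module, norm_smul, Real.norm_of_nonneg hcpos.le] at h1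
      have h2 : c * ‖z‖ ≤ c * 1 := mul_le_mul_of_nonneg_left hnz hcpos.le
      have h3 : 3 * c = δ₀ := by rw [hc]; ring
      linarith
    have hg := (hg1 _).2 hF1
    rw [gauge_smul_of_nonneg (by positivity), smul_eq_mul] at hg
    rw [show 1 - c / (1 + c) = 1 / (1 + c) by field_simp; ring, le_div_iff₀ (by positivity)]
    linarith

end X

end Vale.Agent.H14.MT
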