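import Vale.Agent.H14.MT.Core

/-!
P125, T10: words, speed of the random walk.
-/

namespace Vale.Agent.H14.MT

lemma t10_map_neg {C C' R : Type} [AddCommGroup R] (f : C → C') (x : C →₀ R) :
    (-x).mapDomain f = -(x.mapDomain f) :=
  map_neg (Finsupp.mapDomain.addMonoidHom f) x

section Words
variable {C : Type} [LinearOrder C]

lemma t10_gb_linv (g : Fin 2 → (C ≃o C)) (b : Fin 2 → (C →₀ ℤ)) (i : Fin 2) (e : Bool) :
    gb g b (i, e) + (gb g b (i, !e)).mapDomain (ga g (i, e)) = 0 := by
  cases e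
  · simp only [gb, ga, Bool.not_false, if_true, Bool.false_eq_true, if_false]
    simp
  · simp only [gb, ga, Bool.not_true, if_true, Bool.false_eq_true, if_false]
    rw [t10_map_neg, ← Finsupp.mapDomain_comp]
    have : (g i) ∘ (g i).symm = id := by ext x; simp
    rw [this, Finsupp.mapDomain_id]
    simp

lemma t10_cocy_cancel (g : Fin 2 → (C ≃o C)) (b : Fin 2 → (C →₀ ℤ)) (i : Fin 2) (e : Bool)
    (w : List Ltr) : cocy g b ((i, e) :: (i, !e) :: w) = cocy g b w := by
  simp only [cocy_cons]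
  rw [Finsupp.mapDomain_add, ← add_assoc, t10_gb_linv, zero_add, ← Finsupp.mapDomain_comp]
  have : (ga g (i, e)) ∘ (ga g (i, !e)) = id := by
    ext x; cases e <;> simp [ga]
  rw [this, Finsupp.mapDomain_id]

lemma t10_cocy_append (g : Fin 2 → (C ≃o C)) (b : Fin 2 → (C →₀ ℤ)) (v : List Ltr)
    {w w' : List Ltr} (h : cocy g b w = cocy g b w') : cocy g b (v ++ w) = cocy g b (v ++ w') := by
  induction v with
  | nil => exact h
  | cons s v ih => simp only [List.cons_append, cocy_cons]; rw [ih]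

theorem cocy_reduce (g : Fin 2 → (C ≃o C)) (b : Fin 2 → (C →₀ ℤ))
    (w : List Ltr) : cocy g b (FreeGroup.reduce w) = cocy g b w := by
  have key : ∀ {v v' : List Ltr}, FreeGroup.Red v v' → cocy g b v' = cocy g b v := by
    intro v v' h
    induction h with
    | refl => rfl
    | tail _ hs ih =>
      rw [← ih]
      cases hs with
      | not => exact (t10_cocy_append g b _ (t10_cocy_cancel g b _ _ _)).symm
  exact key FreeGroup.reduce.red

end Words

lemma t10_sum_letters (L : List Ltr) :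
    4 * ((FreeGroup.reduce L).length : ℝ) + 2 ≤
      ∑ s : Ltr, ((FreeGroup.reduce (s :: L)).length : ℝ) := by
  have hsum : ∀ f : Ltr → ℝ, ∑ s : Ltr, f s = f (0, false) + f (0, true) + f (1, false) + f (1, true) := by
    intro f
    rw [Fintype.sum_prod_type]
    simp [Fin.sum_univ_two]
    ring
  rw [hsum]
  simp only [FreeGroup.reduce.cons]
  rcases hR : FreeGroup.reduce L with _ | ⟨⟨i, e⟩, tl⟩
  · simp; norm_num
  · fin_cases i <;> cases e <;> simp <;> linarith

theorem speed (n : ℕ) : (4 : ℝ) ^ n * (n / 2) ≤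
    ∑ w : Fin n → Ltr, ((FreeGroup.reduce (List.ofFn w)).length : ℝ) := by
  induction n with
  | zero => simp
  | succ n ih =>
    have h1 : ∑ w : Fin (n + 1) → Ltr, ((FreeGroup.reduce (List.ofFn w)).length : ℝ) =
        ∑ w : Fin n → Ltr, ∑ s : Ltr, ((FreeGroup.reduce (s :: List.ofFn w)).length : ℝ) := by
      rw [← (Fin.consEquiv (fun _ : Fin (n + 1) => Ltr)).sum_comp, Fintype.sum_prod_type,
        Finset.sum_comm]
      refine Finset.sum_congr rfl fun w _ => Finset.sum_congr rfl fun s _ => ?_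
      simp [Fin.consEquiv, List.ofFn_succ]
    rw [h1]
    have h2 : ∑ w : Fin n → Ltr, (4 * ((FreeGroup.reduce (List.ofFn w)).length : ℝ) + 2) ≤
        ∑ w : Fin n → Ltr, ∑ s : Ltr, ((FreeGroup.reduce (s :: List.ofFn w)).length : ℝ) :=
      Finset.sum_le_sum fun w _ => t10_sum_letters _
    refine le_trans ?_ h2
    rw [Finset.sum_add_distrib, ← Finset.mul_sum]
    have h3 : ∑ _w : Fin n → Ltr, (2 : ℝ) = 4 ^ n * 2 := by
      rw [Finset.sum_const, Finset.card_univ]
      simp
    rw [h3]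
    push_cast
    rw [pow_succ]
    nlinarith [ih]

section Blow
variable {C : Type} [LinearOrder C]

lemma t10_blow_add {R : Type} [AddCommMonoid R] (m : ℕ) (x y : C →₀ R) :
    blow m (x + y) = blow m x + blow m y := by
  simp only [blow, Finsupp.mapDomain_add, Finset.sum_add_distrib]

lemma t10_blow_zero {R : Type} [AddCommMonoid R] (m : ℕ) :
    blow m (0 : C →₀ R) = 0 := by
  simp [blow]

lemma t10_blow_neg {R : Type} [AddCommGroup R] (m : ℕ) (x : C →₀ R) :
    blow m (-x) = -blow m x := by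
  simp only [blow]
  rw [← Finset.sum_neg_distrib]
  refine Finset.sum_congr rfl fun i _ => ?_
  exact t10_map_neg _ _

/-- the automorphism induced on the blow-up -/
def t10_lift (m : ℕ) (σ : C ≃o C) : (C ×ₗ Fin m) ≃o (C ×ₗ Fin m) :=
  Prod.Lex.prodLexCongr σ (OrderIso.refl (Fin m))

lemma t10_lift_apply (m : ℕ) (σ : C ≃o C) (c : C) (i : Fin m) :
    t10_lift m σ (toLex (c, i)) = toLex (σ c, i) := rfl

lemma t10_lift_symm_apply (m : ℕ) (σ : C ≃o C) (c : C) (i : Fin m) :
    (t10_lift m σ).symm (toLex (c, i)) = toLex (σ.symm c, i) := rfl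

lemma t10_blow_map {R : Type} [AddCommMonoid R] (m : ℕ) (σ : C ≃o C) (x : C →₀ R) :
    blow m (x.mapDomain σ) = (blow m x).mapDomain (t10_lift m σ) := by
  simp only [blow]
  rw [Finsupp.mapDomain_finsetSum]
  refine Finset.sum_congr rfl fun i _ => ?_
  rw [← Finsupp.mapDomain_comp, ← Finsupp.mapDomain_comp]
  rfl

theorem cocy_blow (g : Fin 2 → (C ≃o C)) (b : Fin 2 → (C →₀ ℤ))
    (m : ℕ) : ∃ g' : Fin 2 → ((C ×ₗ Fin m) ≃o (C ×ₗ Fin m)), ∀ w : List Ltr,
      cocy g' (fun i => blow m (b i)) w = blow m (cocy g b w) := by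
  refine ⟨fun i => t10_lift m (g i), ?_⟩
  have hga : ∀ s : Ltr, ga (fun i => t10_lift m (g i)) s = t10_lift m (ga g s) := by
    rintro ⟨i, e⟩
    cases e
    · simp only [ga, Bool.false_eq_true, if_false]; rfl
    · simp only [ga, if_true]
  have hgb : ∀ s : Ltr, gb (fun i => t10_lift m (g i)) (fun i => blow m (b i)) s =
      blow m (gb g b s) := by
    rintro ⟨i, e⟩
    cases e
    · simp only [gb, Bool.false_eq_true, if_false]
      rw [t10_blow_neg, t10_blow_map]
      rfl
    · simp only [gb, if_true]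
  intro w
  induction w with
  | nil => simp only [cocy_nil, t10_blow_zero]
  | cons s w ih =>
    simp only [cocy_cons]
    rw [ih, hga, hgb, t10_blow_add, t10_blow_map]

end Blow

end Vale.Agent.H14.MT
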