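import Vale.Agent.H14.MT.Core

/-!
P125, row T3: the approximately spreadable law. We use the iterated ultrafilter limit (an exactly
spreadable ultrafilter on increasing lists) and the Hahn-Banach theorem in `ℓ¹`.
-/

namespace Vale.Agent.H14.MT

open Filter Topology

/-- the iterated ultrafilter on lists of length `m` -/
noncomputable def t3F : ℕ → Ultrafilter (List ℕ)
  | 0 => pure []
  | m + 1 => (hyperfilter ℕ).bind fun x => (t3F m).map (List.cons x)

theorem t3F_succ_mem (m : ℕ) (s : Set (List ℕ)) :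
    s ∈ t3F (m + 1) ↔ ∀ᶠ x in (hyperfilter ℕ : Filter ℕ), {l | x :: l ∈ s} ∈ t3F m := by
  rfl

theorem t3F_incr (m : ℕ) : ∀ b : ℕ, ∀ᶠ l in (t3F m : Filter (List ℕ)),
    l.length = m ∧ l.Pairwise (· < ·) ∧ ∀ x ∈ l, b ≤ x := by
  induction m with
  | zero =>
    intro b
    change _ ∈ (pure [] : Ultrafilter (List ℕ))
    simp
  | succ m ih =>
    intro b
    change _ ∈ t3F (m + 1)
    rw [t3F_succ_mem]
    have h1 : ∀ᶠ x in (hyperfilter ℕ : Filter ℕ), b ≤ x :=
      Nat.hyperfilter_le_atTop (eventually_ge_atTop b)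
    filter_upwards [h1] with x hx
    have h2 := ih (x + 1)
    change _ ∈ t3F m at h2
    refine mem_of_superset h2 ?_
    rintro l ⟨hl1, hl2, hl3⟩
    refine ⟨by simp [hl1], ?_, ?_⟩
    · rw [List.pairwise_cons]
      exact ⟨fun y hy => hl3 y hy, hl2⟩
    · intro y hy
      rcases List.mem_cons.1 hy with rfl | hy
      · exact hx
      · have := hl3 y hy
        omega

theorem t3F_del (m : ℕ) : ∀ i ≤ m, Tendsto (fun l : List ℕ => l.eraseIdx i)
    (t3F (m + 1) : Filter (List ℕ)) (t3F m : Filter (List ℕ)) := by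
  induction m with
  | zero =>
    intro i hi s hs
    obtain rfl : i = 0 := by omega
    change _ ∈ t3F (0 + 1)
    rw [t3F_succ_mem]
    exact Eventually.of_forall fun x => by simpa using hs
  | succ m ih =>
    intro i hi s hs
    change _ ∈ t3F (m + 1 + 1)
    rw [t3F_succ_mem]
    rcases i with _ | i
    · exact Eventually.of_forall fun x => by simpa using hs
    · have hs' : s ∈ t3F (m + 1) := hs
      rw [t3F_succ_mem] at hs'
      filter_upwards [hs'] with x hx
      exact ih i (by omega) hx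

theorem t3F_lim (m : ℕ) (F : List ℕ → ℝ) (C : ℝ) (hF : ∀ l, |F l| ≤ C) :
    ∃ a, Tendsto F (t3F m : Filter (List ℕ)) (𝓝 a) := by
  have hc : IsCompact (Set.Icc (-C) C) := isCompact_Icc
  obtain ⟨a, _, ha⟩ := hc.ultrafilter_le_nhds ((t3F m).map F) (by
    rw [le_principal_iff]
    change F ⁻¹' _ ∈ t3F m
    refine mem_of_superset univ_mem fun l _ => ?_
    exact abs_le.1 (hF l))
  exact ⟨a, ha⟩

/-- index set for the tests -/
abbrev t3A : Type := ℕ × ℕ × List ℕ

noncomputable def t3T : (t3A →₀ ℝ) →ₗ[ℝ] lp (fun _ : t3A => ℝ) 1 :=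
  Finsupp.linearCombination ℝ (fun a => lp.single 1 a (1 : ℝ))

theorem t3T_norm (x : t3A →₀ ℝ) : ‖t3T x‖ = ∑ a ∈ x.support, |x a| := by
  classical
  have h1 : t3T x = ∑ a ∈ x.support, lp.single (E := fun _ : t3A => ℝ) 1 a (x a) := by
    rw [t3T, Finsupp.linearCombination_apply, Finsupp.sum]
    refine Finset.sum_congr rfl fun a _ => ?_
    rw [← lp.single_smul, smul_eq_mul, mul_one]
  rw [h1]
  have h2 := lp.norm_sum_single (E := fun _ : t3A => ℝ) (p := 1) (by simp) (fun a => x a) x.support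
  simpa using h2

noncomputable def t3V (M : ℕ) : (ℕ → (List ℕ →₀ ℝ)) →ₗ[ℝ] (t3A →₀ ℝ) :=
  ∑ m ∈ Finset.range M, ∑ i ∈ Finset.range (m + 1),
    ((Finsupp.lmapDomain ℝ ℝ (fun l : List ℕ => ((m, i, l.eraseIdx i) : t3A))) ∘ₗ
        (LinearMap.proj (m + 1)) -
      (Finsupp.lmapDomain ℝ ℝ (fun l : List ℕ => ((m, i, l) : t3A))) ∘ₗ (LinearMap.proj m))

theorem t3V_apply (M : ℕ) (G : t3A → ℝ) (ρ : ℕ → (List ℕ →₀ ℝ)) :
    Finsupp.linearCombination ℝ G (t3V M ρ) =
      ∑ m ∈ Finset.range M, ∑ i ∈ Finset.range (m + 1),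
        (((ρ (m + 1)).sum fun l a => a * G (m, i, l.eraseIdx i)) -
          ((ρ m).sum fun l a => a * G (m, i, l))) := by
  rw [t3V, LinearMap.sum_apply, map_sum]
  refine Finset.sum_congr rfl fun m _ => ?_
  rw [LinearMap.sum_apply, map_sum]
  refine Finset.sum_congr rfl fun i _ => ?_
  rw [LinearMap.sub_apply, map_sub, LinearMap.comp_apply, LinearMap.comp_apply,
    Finsupp.lmapDomain_apply, Finsupp.lmapDomain_apply, Finsupp.linearCombination_mapDomain,
    Finsupp.linearCombination_mapDomain, Finsupp.linearCombination_apply,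
    Finsupp.linearCombination_apply]
  rfl

/-- laws on increasing lists -/
def t3Law : Set (ℕ → (List ℕ →₀ ℝ)) :=
  {ρ | ∀ m, (∀ l, 0 ≤ ρ m l) ∧ Finsupp.linearCombination ℝ (fun _ : List ℕ => (1 : ℝ)) (ρ m) = 1 ∧
    ∀ l, ρ m l ≠ 0 → l.length = m ∧ l.Pairwise (· < ·)}

theorem t3Law_convex : Convex ℝ t3Law := by
  intro ρ hρ σ hσ a b ha hb hab m
  obtain ⟨h1, h2, h3⟩ := hρ m
  obtain ⟨k1, k2, k3⟩ := hσ m
  refine ⟨fun l => ?_, ?_, fun l hl => ?_⟩
  · simp only [Pi.add_apply, Pi.smul_apply, Finsupp.add_apply, Finsupp.smul_apply, smul_eq_mul]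
    exact add_nonneg (mul_nonneg ha (h1 l)) (mul_nonneg hb (k1 l))
  · rw [Pi.add_apply, Pi.smul_apply, Pi.smul_apply, map_add, map_smul, map_smul, h2, k2]
    simpa using hab
  · by_cases hl1 : ρ m l = 0
    · by_cases hl2 : σ m l = 0
      · exfalso
        apply hl
        simp [hl1, hl2]
      · exact k3 l hl2
    · exact h3 l hl1

theorem t3_single_mem (L : ℕ → List ℕ) (hL : ∀ m, (L m).length = m ∧ (L m).Pairwise (· < ·)) :
    (fun m => Finsupp.single (L m) (1 : ℝ)) ∈ t3Law := by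
  intro m
  refine ⟨fun l => ?_, ?_, fun l hl => ?_⟩
  · classical
    simp only [Finsupp.single_apply]
    split_ifs <;> norm_num
  · simp
  · classical
    simp only [Finsupp.single_apply] at hl
    by_cases h : L m = l
    · rw [← h]; exact hL m
    · simp [h] at hl

theorem t3_eta (N u : ℝ) (hN : 0 ≤ N) (hu : 0 < u) : ∃ η : ℝ, 0 < η ∧ N * η ≤ u := by
  refine ⟨u / (N + 1), by positivity, ?_⟩
  rw [mul_div_assoc', div_le_iff₀ (by positivity)]
  nlinarith

theorem t3_lists (G : t3A → ℝ) (C : ℝ) (hGb : ∀ a, |G a| ≤ C) (η : ℝ) (hη : 0 < η) :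
    ∃ (a : ℕ → ℕ → ℝ) (L : ℕ → List ℕ),
      (∀ m, (L m).length = m ∧ (L m).Pairwise (· < ·)) ∧
      (∀ m, ∀ i ∈ Finset.range (m + 1), |G (m, i, L m) - a m i| ≤ η) ∧
      ∀ m, ∀ i ∈ Finset.range (m + 1), |G (m, i, (L (m + 1)).eraseIdx i) - a m i| ≤ η := by
  classical
  have hlim : ∀ m i, ∃ a, Tendsto (fun l => G (m, i, l)) (t3F m : Filter (List ℕ)) (𝓝 a) :=
    fun m i => t3F_lim m _ C fun l => hGb _
  choose a ha using hlim
  have ha' : ∀ m i, i ≤ m → Tendsto (fun l : List ℕ => G (m, i, l.eraseIdx i))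
      (t3F (m + 1) : Filter (List ℕ)) (𝓝 (a m i)) :=
    fun m i hi => (ha m i).comp (t3F_del m i hi)
  have hex : ∀ m, ∃ l : List ℕ, (l.length = m ∧ l.Pairwise (· < ·)) ∧
      (∀ i ∈ Finset.range (m + 1), |G (m, i, l) - a m i| ≤ η) ∧
      ∀ m' ∈ Finset.range m, ∀ i ∈ Finset.range (m' + 1), m = m' + 1 →
        |G (m', i, l.eraseIdx i) - a m' i| ≤ η := by
    intro m
    have h1 := t3F_incr m 0
    have h2 : ∀ᶠ l in (t3F m : Filter (List ℕ)), ∀ i ∈ Finset.range (m + 1),
        |G (m, i, l) - a m i| ≤ η := by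
      rw [Finset.eventually_all]
      intro i _
      have := (ha m i).eventually (Metric.closedBall_mem_nhds (a m i) hη)
      filter_upwards [this] with l hl
      rwa [Real.dist_eq] at hl
    have h3 : ∀ᶠ l in (t3F m : Filter (List ℕ)), ∀ m' ∈ Finset.range m,
        ∀ i ∈ Finset.range (m' + 1), m = m' + 1 →
        |G (m', i, l.eraseIdx i) - a m' i| ≤ η := by
      rw [Finset.eventually_all]
      intro m' _
      rw [Finset.eventually_all]
      intro i hi
      by_cases hm : m = m' + 1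
      · subst hm
        have := (ha' m' i (by simpa [Nat.lt_succ_iff] using hi)).eventually
          (Metric.closedBall_mem_nhds (a m' i) hη)
        filter_upwards [this] with l hl _
        rwa [Real.dist_eq] at hl
      · exact Eventually.of_forall fun l h => absurd h hm
    obtain ⟨l, hl1, hl2, hl3⟩ := (h1.and (h2.and h3)).exists
    exact ⟨l, ⟨hl1.1, hl1.2.1⟩, hl2, hl3⟩
  choose L hL1 hL2 hL3 using hex
  exact ⟨a, L, hL1, hL2, fun m i hi => hL3 (m + 1) m (by simp) i hi rfl⟩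

theorem t3_key (M : ℕ) : (0 : lp (fun _ : t3A => ℝ) 1) ∈
    closure ((t3T ∘ₗ t3V M) '' t3Law) := by
  classical
  by_contra hcon
  have hconv : Convex ℝ (closure ((t3T ∘ₗ t3V M) '' t3Law)) :=
    (t3Law_convex.linear_image (t3T ∘ₗ t3V M)).closure
  obtain ⟨f, u, hfu, hf⟩ := geometric_hahn_banach_point_closed hconv isClosed_closure hcon
  rw [map_zero] at hfu
  set G : t3A → ℝ := fun a => f (lp.single 1 a (1 : ℝ)) with hG
  have hGb : ∀ a, |G a| ≤ ‖f‖ := by
    intro a
    have h1 := f.le_opNorm (lp.single (E := fun _ : t3A => ℝ) 1 a (1 : ℝ))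
    have h2 : ‖lp.single (E := fun _ : t3A => ℝ) 1 a (1 : ℝ)‖ = 1 := by
      rw [lp.norm_single (by norm_num)]
      norm_num
    rw [h2, mul_one] at h1
    exact h1
  have hfT : ∀ x, f (t3T x) = Finsupp.linearCombination ℝ G x := by
    intro x
    rw [t3T, Finsupp.linearCombination_apply, Finsupp.linearCombination_apply, Finsupp.sum,
      Finsupp.sum, map_sum]
    refine Finset.sum_congr rfl fun a _ => ?_
    rw [map_smul]
  set N : ℝ := ∑ m ∈ Finset.range M, ∑ i ∈ Finset.range (m + 1), (2 : ℝ) with hN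
  have hN0 : 0 ≤ N := Finset.sum_nonneg fun _ _ => Finset.sum_nonneg fun _ _ => by norm_num
  obtain ⟨η, hη, hηN⟩ := t3_eta N u hN0 hfu
  obtain ⟨a, L, hL1, hL2, hL3⟩ := t3_lists G ‖f‖ hGb η hη
  have h5 := hf _ (subset_closure ⟨_, t3_single_mem L hL1, rfl⟩)
  rw [LinearMap.comp_apply, hfT, t3V_apply] at h5
  have h6 : ∑ m ∈ Finset.range M, ∑ i ∈ Finset.range (m + 1),
        (((Finsupp.single (L (m + 1)) (1 : ℝ)).sum fun l a => a * G (m, i, l.eraseIdx i)) -
          ((Finsupp.single (L m) (1 : ℝ)).sum fun l a => a * G (m, i, l))) ≤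
      ∑ m ∈ Finset.range M, ∑ i ∈ Finset.range (m + 1), (2 : ℝ) * η := by
    refine Finset.sum_le_sum fun m _ => Finset.sum_le_sum fun i hi => ?_
    rw [Finsupp.sum_single_index (by simp), Finsupp.sum_single_index (by simp)]
    have e1 := abs_le.1 (hL2 m i hi)
    have e2 := abs_le.1 (hL3 m i hi)
    linarith [e1.1, e1.2, e2.1, e2.2]
  have h7 : ∑ m ∈ Finset.range M, ∑ i ∈ Finset.range (m + 1), (2 : ℝ) * η = N * η := by
    rw [hN, Finset.sum_mul]
    refine Finset.sum_congr rfl fun m _ => ?_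
    rw [Finset.sum_mul]
  linarith

theorem exists_spread (M : ℕ) (ε : ℝ) (hε : 0 < ε) : ∃ D ρ, Spread M D ε ρ := by
  classical
  obtain ⟨y, ⟨ρ, hρ, rfl⟩, hy⟩ := Metric.mem_closure_iff.1 (t3_key M) ε hε
  rw [dist_eq_norm, zero_sub, norm_neg, LinearMap.comp_apply, t3T_norm] at hy
  refine ⟨∑ m ∈ Finset.range (M + 1), ∑ l ∈ (ρ m).support, (l.sum + 1), ρ, ?_, ?_, ?_, ?_⟩
  · exact fun m l => (hρ m).1 l
  · intro m _
    have := (hρ m).2.1
    rw [Finsupp.linearCombination_apply] at this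
    simpa using this
  · intro m hm l hl
    have h1 := (hρ m).2.2 l (Finsupp.mem_support_iff.1 hl)
    refine ⟨h1.1, h1.2, fun x hx => ?_⟩
    have h2 : x ≤ l.sum := List.single_le_sum (by simp) x hx
    have h3 : l.sum + 1 ≤ ∑ l ∈ (ρ m).support, (l.sum + 1) :=
      Finset.single_le_sum (f := fun l : List ℕ => l.sum + 1) (fun _ _ => Nat.zero_le _) hl
    have h4 : ∑ l ∈ (ρ m).support, (l.sum + 1) ≤
        ∑ m ∈ Finset.range (M + 1), ∑ l ∈ (ρ m).support, (l.sum + 1) :=
      Finset.single_le_sum (f := fun m => ∑ l ∈ (ρ m).support, (l.sum + 1))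
        (fun _ _ => Nat.zero_le _) (Finset.mem_range.2 (by omega))
    omega
  · intro m hm i hi F hF
    set G : t3A → ℝ := fun a => if a.1 = m ∧ a.2.1 = i then F a.2.2 else 0 with hG
    have h1 := t3V_apply M G ρ
    rw [Finset.sum_eq_single m, Finset.sum_eq_single i] at h1
    · have h2 : G = fun a => if a.1 = m ∧ a.2.1 = i then F a.2.2 else 0 := hG
      have h3 : ((ρ (m + 1)).sum fun l a => a * F (l.eraseIdx i)) - ((ρ m).sum fun l a => a * F l)
          = Finsupp.linearCombination ℝ G (t3V M ρ) := by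
        rw [h1]
        simp [hG]
      rw [h3, Finsupp.linearCombination_apply, Finsupp.sum]
      refine (Finset.abs_sum_le_sum_abs _ _).trans (le_trans ?_ hy.le)
      refine Finset.sum_le_sum fun a _ => ?_
      rw [smul_eq_mul, abs_mul]
      have h4 : |G a| ≤ 1 := by
        rw [hG]
        dsimp only
        split_ifs
        · exact hF _
        · simp
      exact mul_le_of_le_one_right (abs_nonneg _) h4
    · intro j _ hj
      simp [hG, hj]
    · intro h
      simp at h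
      omega
    · intro m' _ hm'
      refine Finset.sum_eq_zero fun j _ => ?_
      simp [hG, hm']
    · intro h
      simp at h
      omega

end Vale.Agent.H14.MT
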